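import Vale.Agent.Helper14.MassAction

/-!
The weakly reversible network `0 ⇌ X`, `aX + Y ⇌ Z` (two linkage classes, three species):
permanence on every positive stoichiometric class, for all positive rate constants.
-/

namespace Vale.Agent.Helper14.DriverBinding

open Set Vale.Agent.Helper14.MassAction

/-- the zero complex `0` -/
def c0 : Fin 3 → ℕ := ![0, 0, 0]
/-- the complex `X` -/
def cX : Fin 3 → ℕ := ![1, 0, 0]
/-- the complex `aX + Y` -/
def cAXY (a : ℕ) : Fin 3 → ℕ := ![a, 1, 0]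
/-- the complex `Z` -/
def cZ : Fin 3 → ℕ := ![0, 0, 1]

lemma n01 : c0 ≠ cX := by
  intro h; have := congrFun h 0; simp [c0, cX] at this
lemma n02 (a : ℕ) : c0 ≠ cAXY a := by
  intro h; have := congrFun h 1; simp [c0, cAXY] at this
lemma n03 : c0 ≠ cZ := by
  intro h; have := congrFun h 2; simp [c0, cZ] at this
lemma n12 (a : ℕ) : cX ≠ cAXY a := by
  intro h; have := congrFun h 1; simp [cX, cAXY] at this
lemma n13 : cX ≠ cZ := by
  intro h; have := congrFun h 2; simp [cX, cZ] at this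
lemma n23 (a : ℕ) : cAXY a ≠ cZ := by
  intro h; have := congrFun h 1; simp [cAXY, cZ] at this

/-- The reaction network with the four reactions `0 → X`, `X → 0`, `aX + Y → Z`, `Z → aX + Y`
on the three species `X, Y, Z` (indices `0, 1, 2`). -/
def net (a : ℕ) : Network 3 where
  reactions := {(c0, cX), (cX, c0), (cAXY a, cZ), (cZ, cAXY a)}
  ne := by
    intro r hr
    simp only [Finset.mem_insert, Finset.mem_singleton] at hr
    rcases hr with rfl | rfl | rfl | rfl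
    · intro h; have := congrFun h 0; simp [c0, cX] at this
    · intro h; have := congrFun h 0; simp [c0, cX] at this
    · intro h; have := congrFun h 1; simp [cAXY, cZ] at this
    · intro h; have := congrFun h 1; simp [cAXY, cZ] at this

lemma net_weaklyReversible (a : ℕ) : (net a).WeaklyReversible := by
  intro r hr
  simp only [net, Finset.mem_insert, Finset.mem_singleton] at hr
  rcases hr with rfl | rfl | rfl | rfl <;>
    exact Relation.TransGen.single (by simp [net])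

lemma field_net (a : ℕ) (k : (Fin 3 → ℕ) × (Fin 3 → ℕ) → ℝ) (x : Fin 3 → ℝ) :
    (net a).field k x = ![k (c0, cX) - k (cX, c0) * x 0 - a * (k (cAXY a, cZ) * x 0 ^ a * x 1)
        + a * (k (cZ, cAXY a) * x 2),
      -(k (cAXY a, cZ) * x 0 ^ a * x 1) + k (cZ, cAXY a) * x 2,
      k (cAXY a, cZ) * x 0 ^ a * x 1 - k (cZ, cAXY a) * x 2] := by
  simp only [Network.field, net]
  rw [Finset.sum_insert (by simp [n01, n02, n03]), Finset.sum_insert (by simp [n12, n13]),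
    Finset.sum_insert (by simp [n23]), Finset.sum_singleton]
  ext i
  fin_cases i <;> simp [rvec, c0, cX, cAXY, cZ, Fin.prod_univ_three] <;> ring

lemma mem_stoich_iff (a : ℕ) (v : Fin 3 → ℝ) : v ∈ (net a).stoich ↔ v 1 + v 2 = 0 := by
  constructor
  · intro hv
    unfold Network.stoich at hv
    induction hv using Submodule.span_induction with
    | mem w hw =>
      obtain ⟨r, hr, rfl⟩ := hw
      simp only [net, Finset.mem_insert, Finset.mem_singleton] at hr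
      rcases hr with rfl | rfl | rfl | rfl <;> simp [rvec, c0, cX, cAXY, cZ]
    | zero => simp
    | add x y _ _ hx hy => simp only [Pi.add_apply]; linarith
    | smul c x _ hx =>
      simp only [Pi.smul_apply, smul_eq_mul]
      have : c * x 1 + c * x 2 = c * (x 1 + x 2) := by ring
      rw [this, hx, mul_zero]
  · intro hv
    have hrep : v = (v 0 + a * v 2) • rvec (c0, cX) + v 2 • rvec (cAXY a, cZ) := by
      ext i
      fin_cases i
      · simp [rvec, c0, cX, cAXY, cZ]; ring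
      · simp [rvec, c0, cX, cAXY, cZ]; linarith
      · simp [rvec, c0, cX, cAXY, cZ]
    rw [hrep]
    refine Submodule.add_mem _ (Submodule.smul_mem _ _ (Submodule.subset_span ?_))
      (Submodule.smul_mem _ _ (Submodule.subset_span ?_))
    · exact ⟨(c0, cX), by simp [net], rfl⟩
    · exact ⟨(cAXY a, cZ), by simp [net], rfl⟩

/-! ### Elementary inequalities for the four barriers -/

section ineq

variable {k1 k2 k3 k4 C m M η X Y Z : ℝ} {a : ℕ}

lemma D1 (hk2 : 0 < k2) (hk3 : 0 < k3) (hk4 : 0 < k4) (hM : 0 ≤ M) (hX : M ≤ X) (hY : 0 ≤ Y)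
    (hZ : Z ≤ C) :
    k1 - k2 * X - a * (k3 * X ^ a * Y) + a * (k4 * Z) ≤ -(k2 * M - k1 - a * k4 * C) := by
  have hXa : 0 ≤ X ^ a := pow_nonneg (hM.trans hX) a
  have h1 : 0 ≤ (a : ℝ) * (k3 * X ^ a * Y) := by positivity
  have h2 : (a : ℝ) * (k4 * Z) ≤ a * k4 * C := by
    have h3 : (0 : ℝ) ≤ a * k4 := by positivity
    nlinarith
  nlinarith

lemma D2 (hk2 : 0 < k2) (hk3 : 0 < k3) (hk4 : 0 < k4) (hX0 : 0 ≤ X) (hX : X ≤ m) (hY0 : 0 ≤ Y)
    (hY : Y ≤ C) (hZ : 0 ≤ Z) :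
    k1 - k2 * m - a * k3 * m ^ a * C ≤ k1 - k2 * X - a * (k3 * X ^ a * Y) + a * (k4 * Z) := by
  have h1 : X ^ a ≤ m ^ a := pow_le_pow_left₀ hX0 hX a
  have h2 : X ^ a * Y ≤ m ^ a * C := mul_le_mul h1 hY hY0 (pow_nonneg (hX0.trans hX) a)
  have h3 : (a : ℝ) * (k3 * (X ^ a * Y)) ≤ a * (k3 * (m ^ a * C)) := by
    apply mul_le_mul_of_nonneg_left _ (Nat.cast_nonneg a)
    exact mul_le_mul_of_nonneg_left h2 hk3.le
  have h4 : 0 ≤ (a : ℝ) * (k4 * Z) := by positivity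
  nlinarith

lemma D3 (hk3 : 0 < k3) (hk4 : 0 < k4) (hX0 : 0 ≤ X) (hX : X ≤ M) (hY0 : 0 ≤ Y) (hY : Y ≤ η)
    (hZ : C - η ≤ Z) :
    -(k3 * M ^ a * η) + k4 * (C - η) ≤ -(k3 * X ^ a * Y) + k4 * Z := by
  have h1 : X ^ a ≤ M ^ a := pow_le_pow_left₀ hX0 hX a
  have h2 : X ^ a * Y ≤ M ^ a * η := mul_le_mul h1 hY hY0 (pow_nonneg (hX0.trans hX) a)
  have h3 : k3 * (X ^ a * Y) ≤ k3 * (M ^ a * η) := mul_le_mul_of_nonneg_left h2 hk3.le
  nlinarith

lemma D4 (hk3 : 0 < k3) (hk4 : 0 < k4) (hm : 0 ≤ m) (hX : m ≤ X) (hCη : 0 ≤ C - η)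
    (hY : C - η ≤ Y) (hZ : Z ≤ η) :
    -(k3 * X ^ a * Y) + k4 * Z ≤ -(k3 * m ^ a * (C - η) - k4 * η) := by
  have h1 : m ^ a ≤ X ^ a := pow_le_pow_left₀ hm hX a
  have h2 : m ^ a * (C - η) ≤ X ^ a * Y := mul_le_mul h1 hY hCη (pow_nonneg (hm.trans hX) a)
  have h3 : k3 * (m ^ a * (C - η)) ≤ k3 * (X ^ a * Y) := mul_le_mul_of_nonneg_left h2 hk3.le
  nlinarith

end ineq

/-- admissible box parameters `(m, M, η)` for the class `y + z = C` -/
def Valid (k1 k2 k3 k4 C : ℝ) (a : ℕ) (m M η : ℝ) : Prop :=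
  0 < m ∧ m ≤ M ∧ 0 < η ∧ 2 * η ≤ C ∧
    k1 + a * k4 * C < k2 * M ∧ k2 * m + a * k3 * m ^ a * C < k1 ∧
    k3 * M ^ a * η < k4 * (C - η) ∧ k4 * η < k3 * m ^ a * (C - η)

lemma exists_params {k1 k2 k3 k4 p q r : ℝ} (a : ℕ) (hk1 : 0 < k1) (hk2 : 0 < k2)
    (hk3 : 0 < k3) (hk4 : 0 < k4) (hp : 0 < p) (hq : 0 < q) (hr : 0 < r) :
    ∃ m M η : ℝ, Valid k1 k2 k3 k4 (q + r) a m M η ∧ m ≤ p ∧ p ≤ M ∧ η ≤ q ∧ η ≤ r := by
  set C := q + r with hCdef
  have hC : 0 < C := by positivity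
  set M := max p ((k1 + a * k4 * C) / k2 + 1) with hMdef
  set m := min (min p 1) (k1 / (2 * (k2 + a * k3 * C))) with hmdef
  have hMp : p ≤ M := le_max_left _ _
  have hM0 : 0 < M := lt_of_lt_of_le hp hMp
  have hden : 0 < 2 * (k2 + a * k3 * C) := by positivity
  have hm0 : 0 < m := lt_min (lt_min hp one_pos) (div_pos hk1 hden)
  have hmp : m ≤ p := (min_le_left _ _).trans (min_le_left _ _)
  have hm1 : m ≤ 1 := (min_le_left _ _).trans (min_le_right _ _)
  have hMa : 0 < M ^ a := pow_pos hM0 a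
  have hma : 0 < m ^ a := pow_pos hm0 a
  set η := min (min q r) (min (k4 * C / (2 * (k3 * M ^ a + k4)))
    (k3 * m ^ a * C / (2 * (k3 * m ^ a + k4)))) with hηdef
  have hd3 : 0 < 2 * (k3 * M ^ a + k4) := by positivity
  have hd4 : 0 < 2 * (k3 * m ^ a + k4) := by positivity
  have hη0 : 0 < η := by
    refine lt_min (lt_min hq hr) (lt_min (div_pos (by positivity) hd3) (div_pos (by positivity) hd4))
  have hηq : η ≤ q := (min_le_left _ _).trans (min_le_left _ _)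
  have hηr : η ≤ r := (min_le_left _ _).trans (min_le_right _ _)
  have hη3 : η ≤ k4 * C / (2 * (k3 * M ^ a + k4)) := (min_le_right _ _).trans (min_le_left _ _)
  have hη4 : η ≤ k3 * m ^ a * C / (2 * (k3 * m ^ a + k4)) :=
    (min_le_right _ _).trans (min_le_right _ _)
  rw [le_div_iff₀ hd3] at hη3
  rw [le_div_iff₀ hd4] at hη4
  refine ⟨m, M, η, ⟨hm0, hmp.trans hMp, hη0, by rw [hCdef]; linarith, ?_, ?_, ?_, ?_⟩, hmp, hMp,
    hηq, hηr⟩
  · have h1 : (k1 + a * k4 * C) / k2 + 1 ≤ M := le_max_right _ _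
    have h2 : (k1 + a * k4 * C) / k2 ≤ M - 1 := by linarith
    rw [div_le_iff₀ hk2] at h2
    nlinarith
  · have h1 : m ≤ k1 / (2 * (k2 + a * k3 * C)) := min_le_right _ _
    rw [le_div_iff₀ hden] at h1
    have h2 : (a : ℝ) * m ^ a ≤ a * m := by
      rcases Nat.eq_zero_or_pos a with ha | ha
      · simp [ha]
      · exact mul_le_mul_of_nonneg_left (pow_le_of_le_one hm0.le hm1 ha.ne') (Nat.cast_nonneg a)
    have h3 : a * k3 * m ^ a * C = k3 * C * (a * m ^ a) := by ring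
    have h4 : k3 * C * (a * m ^ a) ≤ k3 * C * (a * m) :=
      mul_le_mul_of_nonneg_left h2 (by positivity)
    nlinarith
  · have h1 : 0 < k4 * C := by positivity
    nlinarith
  · have h1 : 0 < k3 * m ^ a * C := by positivity
    nlinarith

/-! ### Dynamics -/

section dynamics

variable {a : ℕ} {k : (Fin 3 → ℕ) × (Fin 3 → ℕ) → ℝ}

/-- coordinate derivative formulas along a solution of `ẋ = f(φ(x))` -/
lemma coord_derivs {φ : (Fin 3 → ℝ) → (Fin 3 → ℝ)} {γ : ℝ → Fin 3 → ℝ}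
    (hγ : IsSolOn ((net a).field k ∘ φ) γ (Ici 0)) {t0 : ℝ} (ht0 : 0 ≤ t0) :
    (∀ t ∈ Ici t0, HasDerivWithinAt (fun s => γ s 0)
        (k (c0, cX) - k (cX, c0) * φ (γ t) 0
          - a * (k (cAXY a, cZ) * φ (γ t) 0 ^ a * φ (γ t) 1)
          + a * (k (cZ, cAXY a) * φ (γ t) 2)) (Ici t0) t) ∧
    (∀ t ∈ Ici t0, HasDerivWithinAt (fun s => γ s 1)
        (-(k (cAXY a, cZ) * φ (γ t) 0 ^ a * φ (γ t) 1)
          + k (cZ, cAXY a) * φ (γ t) 2) (Ici t0) t) ∧
    (∀ t ∈ Ici t0, HasDerivWithinAt (fun s => γ s 2)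
        (k (cAXY a, cZ) * φ (γ t) 0 ^ a * φ (γ t) 1
          - k (cZ, cAXY a) * φ (γ t) 2) (Ici t0) t) := by
  refine ⟨fun t ht => ?_, fun t ht => ?_, fun t ht => ?_⟩
  · have h := hγ.coord 0 ht0 t ht
    simpa [field_net] using h
  · have h := hγ.coord 1 ht0 t ht
    simpa [field_net] using h
  · have h := hγ.coord 2 ht0 t ht
    simpa [field_net] using h

lemma box_invariant (hk2 : 0 < k (cX, c0)) (hk3 : 0 < k (cAXY a, cZ))
    (hk4 : 0 < k (cZ, cAXY a)) {C m M η : ℝ}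
    (hv : Valid (k (c0, cX)) (k (cX, c0)) (k (cAXY a, cZ)) (k (cZ, cAXY a)) C a m M η)
    {γ : ℝ → Fin 3 → ℝ}
    (hγ : IsSolOn ((net a).field k ∘ clamp ![m, η, η] ![M, C - η, C - η]) γ (Ici 0))
    (h0 : m ≤ γ 0 0 ∧ γ 0 0 ≤ M ∧ η ≤ γ 0 1 ∧ γ 0 1 ≤ C - η ∧ γ 0 1 + γ 0 2 = C) :
    ∀ t, 0 ≤ t → m ≤ γ t 0 ∧ γ t 0 ≤ M ∧ η ≤ γ t 1 ∧ γ t 1 ≤ C - η ∧ γ t 1 + γ t 2 = C := by
  obtain ⟨hm, hmM, hη, hηC, I1, I2, I3, I4⟩ := hv
  set lo : Fin 3 → ℝ := ![m, η, η] with hlo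
  set hi : Fin 3 → ℝ := ![M, C - η, C - η] with hhi
  have hηle : η ≤ C - η := by linarith
  have hlohi : ∀ i, lo i ≤ hi i := by
    intro i
    fin_cases i
    · simpa [hlo, hhi] using hmM
    · simpa [hlo, hhi] using hηle
    · simpa [hlo, hhi] using hηle
  obtain ⟨d0, d1, d2⟩ := coord_derivs hγ le_rfl
  have hcl0 : ∀ t, m ≤ clamp lo hi (γ t) 0 ∧ clamp lo hi (γ t) 0 ≤ M := by
    intro t
    have h := clamp_mem hlohi (γ t) 0 (mem_univ _)
    simpa [hlo, hhi] using h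
  have hcl1 : ∀ t, η ≤ clamp lo hi (γ t) 1 ∧ clamp lo hi (γ t) 1 ≤ C - η := by
    intro t
    have h := clamp_mem hlohi (γ t) 1 (mem_univ _)
    simpa [hlo, hhi] using h
  have hcl2 : ∀ t, η ≤ clamp lo hi (γ t) 2 ∧ clamp lo hi (γ t) 2 ≤ C - η := by
    intro t
    have h := clamp_mem hlohi (γ t) 2 (mem_univ _)
    simpa [hlo, hhi] using h
  -- conservation law
  have hcons : ∀ t, 0 ≤ t → γ t 1 + γ t 2 = C := by
    intro t ht
    have hsum : ∀ s ∈ Ici (0 : ℝ), HasDerivWithinAt (fun s => γ s 1 + γ s 2) 0 (Ici 0) s := by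
      intro s hs
      have h := (d1 s hs).add (d2 s hs)
      have e : (-(k (cAXY a, cZ) * clamp lo hi (γ s) 0 ^ a * clamp lo hi (γ s) 1)
          + k (cZ, cAXY a) * clamp lo hi (γ s) 2)
          + (k (cAXY a, cZ) * clamp lo hi (γ s) 0 ^ a * clamp lo hi (γ s) 1
          - k (cZ, cAXY a) * clamp lo hi (γ s) 2) = 0 := by ring
      rw [e] at h
      exact h
    have hc : ContinuousOn (fun s => γ s 1 + γ s 2) (Icc 0 t) :=
      fun s hs => ((hsum s hs.1).continuousWithinAt).mono (fun _ h => h.1)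
    have h := constant_of_has_deriv_right_zero hc
      (fun s hs => (hsum s hs.1).mono (Ici_subset_Ici.mpr hs.1)) t (right_mem_Icc.mpr ht)
    have h' : γ t 1 + γ t 2 = γ 0 1 + γ 0 2 := h
    rw [h']; exact h0.2.2.2.2
  have hxM : ∀ t, 0 ≤ t → γ t 0 ≤ M := by
    refine barrier_le d0 h0.2.1 (fun t _ h => ?_)
    have hX : clamp lo hi (γ t) 0 = M := by
      simp [clamp, hlo, hhi, h, hmM]
    have h1 := D1 (a := a) (k1 := k (c0, cX)) (C := C) hk2 hk3 hk4 (hm.le.trans hmM) hX.ge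
      (hη.le.trans (hcl1 t).1) ((hcl2 t).2.trans (by linarith))
    linarith
  have hxm : ∀ t, 0 ≤ t → m ≤ γ t 0 := by
    refine barrier_ge d0 h0.1 (fun t _ h => ?_)
    have hX : clamp lo hi (γ t) 0 = m := by
      simp [clamp, hlo, hhi, h, hmM]
    have h1 := D2 (a := a) (k1 := k (c0, cX)) (C := C) (m := m) hk2 hk3 hk4
      (hX ▸ hm.le) hX.le (hη.le.trans (hcl1 t).1) ((hcl1 t).2.trans (by linarith))
      (hη.le.trans (hcl2 t).1)
    linarith
  have hyη : ∀ t, 0 ≤ t → η ≤ γ t 1 := by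
    refine barrier_ge d1 h0.2.2.1 (fun t ht h => ?_)
    have hz : γ t 2 = C - η := by have := hcons t ht; linarith
    have hY : clamp lo hi (γ t) 1 = η := by
      simp [clamp, hlo, hhi, h, hηle]
    have hZ : clamp lo hi (γ t) 2 = C - η := by
      simp [clamp, hlo, hhi, hz, hηle]
    have h1 := D3 (a := a) (C := C) (M := M) (η := η) hk3 hk4 (hm.le.trans (hcl0 t).1)
      (hcl0 t).2 (hY ▸ hη.le) hY.le hZ.ge
    linarith
  have hyC : ∀ t, 0 ≤ t → γ t 1 ≤ C - η := by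
    refine barrier_le d1 h0.2.2.2.1 (fun t ht h => ?_)
    have hz : γ t 2 = η := by have := hcons t ht; linarith
    have hY : clamp lo hi (γ t) 1 = C - η := by
      simp [clamp, hlo, hhi, h, hηle]
    have hZ : clamp lo hi (γ t) 2 = η := by
      simp [clamp, hlo, hhi, hz, hηle]
    have h1 := D4 (a := a) (C := C) (m := m) (η := η) hk3 hk4 hm.le (hcl0 t).1
      (by linarith) hY.ge hZ.le
    linarith
  exact fun t ht => ⟨hxm t ht, hxM t ht, hyη t ht, hyC t ht, hcons t ht⟩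

lemma eventually_in_box (hk2 : 0 < k (cX, c0))
    (hk3 : 0 < k (cAXY a, cZ)) (hk4 : 0 < k (cZ, cAXY a)) {C m M η : ℝ}
    (hv : Valid (k (c0, cX)) (k (cX, c0)) (k (cAXY a, cZ)) (k (cZ, cAXY a)) C a m M η)
    {γ : ℝ → Fin 3 → ℝ} (hγ : IsSolOn ((net a).field k) γ (Ici 0))
    (hpos : ∀ t, 0 ≤ t → 0 < γ t 0 ∧ 0 < γ t 1 ∧ 0 < γ t 2 ∧ γ t 1 + γ t 2 = C) :
    ∃ T, ∀ t, T ≤ t → m ≤ γ t 0 ∧ γ t 0 ≤ M ∧ η ≤ γ t 1 ∧ γ t 1 ≤ C - η := by
  obtain ⟨hm, hmM, hη, hηC, I1, I2, I3, I4⟩ := hv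
  have hγ' : IsSolOn ((net a).field k ∘ id) γ (Ici 0) := hγ
  obtain ⟨d0, -, -⟩ := coord_derivs hγ' le_rfl
  simp only [id] at d0
  -- step 1: eventually `x ≤ M`
  obtain ⟨T1, hT1, h1⟩ := eventually_le (δ := k (cX, c0) * M - k (c0, cX) - a * k (cZ, cAXY a) * C)
    (by linarith) d0 (fun t ht h => by
      obtain ⟨p0, p1, p2, p3⟩ := hpos t ht
      exact D1 (a := a) hk2 hk3 hk4 (hm.le.trans hmM) h p1.le (by linarith))
  -- step 2: eventually `m ≤ x`
  obtain ⟨T2, hT2, h2⟩ := eventually_ge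
    (δ := k (c0, cX) - k (cX, c0) * m - a * k (cAXY a, cZ) * m ^ a * C)
    (by linarith) d0 (fun t ht h => by
      obtain ⟨p0, p1, p2, p3⟩ := hpos t ht
      exact D2 (a := a) hk2 hk3 hk4 p0.le h p1.le (by linarith) p2.le)
  set T3 := max T1 T2 with hT3
  have hT30 : 0 ≤ T3 := hT1.trans (le_max_left _ _)
  obtain ⟨-, d1, -⟩ := coord_derivs hγ' hT30
  simp only [id] at d1
  -- step 3: eventually `η ≤ y`
  obtain ⟨T4, hT4, h4⟩ := eventually_ge
    (δ := -(k (cAXY a, cZ) * M ^ a * η) + k (cZ, cAXY a) * (C - η))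
    (by linarith) d1 (fun t ht h => by
      obtain ⟨p0, p1, p2, p3⟩ := hpos t (hT30.trans ht)
      exact D3 (a := a) hk3 hk4 p0.le (h1 t ((le_max_left _ _).trans ht)) p1.le h
        (by linarith))
  -- step 4: eventually `y ≤ C - η`
  obtain ⟨T5, hT5, h5⟩ := eventually_le
    (δ := k (cAXY a, cZ) * m ^ a * (C - η) - k (cZ, cAXY a) * η)
    (by linarith) d1 (fun t ht h => by
      obtain ⟨p0, p1, p2, p3⟩ := hpos t (hT30.trans ht)
      exact D4 (a := a) hk3 hk4 hm.le (h2 t ((le_max_right _ _).trans ht)) (by linarith) h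
        (by linarith))
  refine ⟨max T4 T5, fun t ht => ?_⟩
  have ht4 : T4 ≤ t := (le_max_left _ _).trans ht
  have ht5 : T5 ≤ t := (le_max_right _ _).trans ht
  have ht3 : T3 ≤ t := hT4.trans ht4
  exact ⟨h2 t ((le_max_right _ _).trans ht3), h1 t ((le_max_left _ _).trans ht3), h4 t ht4,
    h5 t ht5⟩

end dynamics

/-- Permanence of the mass-action system of `0 ⇌ X`, `aX + Y ⇌ Z` on every positive
stoichiometric class, for all positive rate constants. -/
theorem permanent_net (a : ℕ) (k : (Fin 3 → ℕ) × (Fin 3 → ℕ) → ℝ)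
    (hk : ∀ r ∈ (net a).reactions, 0 < k r) (c : Fin 3 → ℝ) (hc : ∀ i, 0 < c i) :
    Permanent ((net a).field k) ((net a).posClass c) := by
  have hk1 : 0 < k (c0, cX) := hk _ (by simp [net])
  have hk2 : 0 < k (cX, c0) := hk _ (by simp [net])
  have hk3 : 0 < k (cAXY a, cZ) := hk _ (by simp [net])
  have hk4 : 0 < k (cZ, cAXY a) := hk _ (by simp [net])
  set C := c 1 + c 2 with hCdef
  have hC : 0 < C := add_pos (hc 1) (hc 2)
  have hP : ∀ x, x ∈ (net a).posClass c ↔ (∀ i, 0 < x i) ∧ x 1 + x 2 = C := by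
    intro x
    simp only [Network.posClass, Set.mem_ofPred_eq, mem_stoich_iff, Pi.sub_apply]
    constructor <;> rintro ⟨h1, h2⟩ <;> exact ⟨h1, by linarith⟩
  have hfC : ContDiff ℝ 1 ((net a).field k) := contDiff_field (net a) k
  -- for each initial point, a global positive solution
  have key : ∀ x0 ∈ (net a).posClass c, ∃ γ : ℝ → Fin 3 → ℝ, γ 0 = x0 ∧
      IsSolOn ((net a).field k) γ (Ici 0) ∧
      (∀ t, 0 ≤ t → 0 < γ t 0 ∧ 0 < γ t 1 ∧ 0 < γ t 2 ∧ γ t 1 + γ t 2 = C) := by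
    intro x0 hx0
    obtain ⟨hpos, hsum⟩ := (hP x0).1 hx0
    obtain ⟨m, M, η, hv, hmp, hpM, hηq, hηr⟩ :=
      exists_params a hk1 hk2 hk3 hk4 (hpos 0) (hpos 1) (hpos 2)
    rw [hsum] at hv
    have hv' := hv
    obtain ⟨hm, hmM, hη, hηC, -, -, -, -⟩ := hv'
    have hηle : η ≤ C - η := by linarith
    have hlohi : ∀ i, (![m, η, η] : Fin 3 → ℝ) i ≤ (![M, C - η, C - η] : Fin 3 → ℝ) i := by
      intro i
      fin_cases i
      · simpa using hmM
      · simpa using hηle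
      · simpa using hηle
    obtain ⟨L, K, hL, hK⟩ := exists_bound_lipschitz_clamp hfC hlohi
    obtain ⟨γ, hγ0, hγ⟩ := exists_global_sol
      ((net a).field k ∘ clamp ![m, η, η] ![M, C - η, C - η]) L K hL hK x0
    have hsol : IsSolOn ((net a).field k ∘ clamp ![m, η, η] ![M, C - η, C - η]) γ (Ici 0) := hγ
    have hbox := box_invariant hk2 hk3 hk4 hv hsol
      (by rw [hγ0]; exact ⟨hmp, hpM, hηq, by linarith, hsum⟩)
    have hcl : ∀ t, 0 ≤ t → clamp ![m, η, η] ![M, C - η, C - η] (γ t) = γ t := by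
      intro t ht
      obtain ⟨b1, b2, b3, b4, b5⟩ := hbox t ht
      ext i
      fin_cases i
      · exact clamp_apply_of_mem (by simpa using b1) (by simpa using b2)
      · exact clamp_apply_of_mem (by simpa using b3) (by simpa using b4)
      · exact clamp_apply_of_mem (by simp; linarith) (by simp; linarith)
    refine ⟨γ, hγ0, fun t ht => ?_, fun t ht => ?_⟩
    · have h := hsol t ht
      rwa [Function.comp_apply, hcl t ht] at h
    · obtain ⟨b1, b2, b3, b4, b5⟩ := hbox t ht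
      exact ⟨lt_of_lt_of_le hm b1, lt_of_lt_of_le hη b3, by linarith, b5⟩
  refine ⟨fun x0 hx0 => ?_, ?_⟩
  · obtain ⟨γ, hγ0, hγsol, hγpos⟩ := key x0 hx0
    refine ⟨γ, hγ0, hγsol, fun t ht i => ?_, fun T₀ y hy0 hy t ht => ?_⟩
    · fin_cases i
      · exact (hγpos t ht).1
      · exact (hγpos t ht).2.1
      · exact (hγpos t ht).2.2.1
    · exact sol_unique hfC (fun s hs => (hγsol s hs.1).mono Ico_subset_Ici_self) hy
        (by rw [hy0, hγ0]) t ht
  · obtain ⟨m, M, η, hv, -, -, -, -⟩ :=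
      exists_params a hk1 hk2 hk3 hk4 one_pos (half_pos hC) (half_pos hC)
    have hCC : C / 2 + C / 2 = C := by ring
    rw [hCC] at hv
    have hv' := hv
    obtain ⟨hm, hmM, hη, hηC, -, -, -, -⟩ := hv'
    refine ⟨{x | m ≤ x 0 ∧ x 0 ≤ M ∧ η ≤ x 1 ∧ x 1 ≤ C - η ∧ x 1 + x 2 = C}, ?_, ?_, ?_⟩
    · have hbig : IsCompact (Set.pi univ
          (fun i => Icc ((![m, η, η] : Fin 3 → ℝ) i) ((![M, C - η, C - η] : Fin 3 → ℝ) i))) :=
        isCompact_univ_pi (fun i => isCompact_Icc)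
      refine hbig.of_isClosed_subset ?_ ?_
      · refine IsClosed.and (isClosed_le continuous_const (continuous_apply 0)) ?_
        refine IsClosed.and (isClosed_le (continuous_apply 0) continuous_const) ?_
        refine IsClosed.and (isClosed_le continuous_const (continuous_apply 1)) ?_
        refine IsClosed.and (isClosed_le (continuous_apply 1) continuous_const) ?_
        exact isClosed_eq ((continuous_apply 1).add (continuous_apply 2)) continuous_const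
      · rintro x ⟨b1, b2, b3, b4, b5⟩ i -
        fin_cases i
        · exact ⟨by simpa using b1, by simpa using b2⟩
        · exact ⟨by simpa using b3, by simpa using b4⟩
        · exact ⟨by simp; linarith, by simp; linarith⟩
    · rintro x ⟨b1, b2, b3, b4, b5⟩
      refine (hP x).2 ⟨fun i => ?_, b5⟩
      fin_cases i
      · exact lt_of_lt_of_le hm b1
      · exact lt_of_lt_of_le hη b3
      · show 0 < x 2
        linarith
    · intro x hx0 hxsol
      obtain ⟨γ, hγ0, hγsol, hγpos⟩ := key (x 0) hx0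
      have hxeq : ∀ t, 0 ≤ t → x t = γ t := by
        intro t ht
        exact sol_unique hfC (fun s hs => (hγsol s hs.1).mono Ico_subset_Ici_self)
          (fun s hs => (hxsol s hs.1).mono Ico_subset_Ici_self) (by rw [hγ0]) t
          ⟨ht, lt_add_one t⟩
      obtain ⟨T, hT⟩ := eventually_in_box hk2 hk3 hk4 hv hγsol hγpos
      refine ⟨max T 0, fun t ht => ?_⟩
      have ht0 : 0 ≤ t := (le_max_right _ _).trans ht
      rw [hxeq t ht0]
      obtain ⟨b1, b2, b3, b4⟩ := hT t ((le_max_left _ _).trans ht)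
      exact ⟨b1, b2, b3, b4, (hγpos t ht0).2.2.2⟩

end Vale.Agent.Helper14.DriverBinding
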