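import Mathlib

/-!
Mass-action systems of reaction networks: definitions (network, weak reversibility, mass-action
vector field, stoichiometric classes, permanence) and general ODE tools (global existence for the
field clamped to a box, uniqueness, barrier lemmas).
-/

namespace Vale.Agent.Helper14.MassAction

open Set

/-- A reaction network on `d` species: a finite set of reactions `y → y'` between complexes
`y, y' : Fin d → ℕ`, with `y ≠ y'`. (The complexes are the sources and targets of reactions.) -/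
structure Network (d : ℕ) where
  reactions : Finset ((Fin d → ℕ) × (Fin d → ℕ))
  ne : ∀ r ∈ reactions, r.1 ≠ r.2

variable {d : ℕ}

/-- Weak reversibility: for every reaction `y → y'` there is a directed path of reactions
from `y'` back to `y`. -/
def Network.WeaklyReversible (N : Network d) : Prop :=
  ∀ r ∈ N.reactions, Relation.TransGen (fun y y' => (y, y') ∈ N.reactions) r.2 r.1

/-- The reaction vector `y' - y` of a reaction `y → y'`, as a real vector. -/
def rvec (r : (Fin d → ℕ) × (Fin d → ℕ)) : Fin d → ℝ := fun i => (r.2 i : ℝ) - (r.1 i : ℝ)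

/-- The mass-action vector field `f(x) = ∑_{y → y'} k_{y → y'} x^y (y' - y)`,
where `x^y = ∏ i, x i ^ y i`. -/
noncomputable def Network.field (N : Network d) (k : (Fin d → ℕ) × (Fin d → ℕ) → ℝ)
    (x : Fin d → ℝ) : Fin d → ℝ :=
  ∑ r ∈ N.reactions, (k r * ∏ i, x i ^ r.1 i) • rvec r

/-- The stoichiometric subspace `S = span {y' - y : y → y' a reaction}`. -/
def Network.stoich (N : Network d) : Submodule ℝ (Fin d → ℝ) :=
  Submodule.span ℝ {v | ∃ r ∈ N.reactions, v = rvec r}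

/-- The positive stoichiometric class `(c + S) ∩ ℝ^d_{>0}` of `c`. -/
def Network.posClass (N : Network d) (c : Fin d → ℝ) : Set (Fin d → ℝ) :=
  {x | (∀ i, 0 < x i) ∧ x - c ∈ N.stoich}

/-- `x` solves `ẋ = f(x)` on the time set `T` (derivatives taken within `T`, so one-sided at
the endpoint `0` of `T = [0, ∞)` or `T = [0, T₀)`). -/
def IsSolOn (f : (Fin d → ℝ) → (Fin d → ℝ)) (x : ℝ → Fin d → ℝ) (T : Set ℝ) : Prop :=
  ∀ t ∈ T, HasDerivWithinAt x (f (x t)) T t

/-- Permanence of `ẋ = f(x)` on a set `P`: (1) from every `x0 ∈ P` there is a solution on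
`[0, ∞)` which is positive for all `t ≥ 0`, and every solution on any `[0, T₀)` starting at `x0`
coincides with it (so every solution starting in `P` exists and is positive for all `t ≥ 0`);
(2) there is a compact `K ⊆ P` such that every solution on `[0, ∞)` starting in `P` lies in `K`
for all sufficiently large `t`. -/
def Permanent (f : (Fin d → ℝ) → (Fin d → ℝ)) (P : Set (Fin d → ℝ)) : Prop :=
  (∀ x0 ∈ P, ∃ x : ℝ → Fin d → ℝ, x 0 = x0 ∧ IsSolOn f x (Ici 0) ∧
      (∀ t, 0 ≤ t → ∀ i, 0 < x t i) ∧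
      ∀ (T₀ : ℝ) (y : ℝ → Fin d → ℝ), y 0 = x0 → IsSolOn f y (Ico 0 T₀) →
        ∀ t ∈ Ico 0 T₀, y t = x t) ∧
  ∃ K : Set (Fin d → ℝ), IsCompact K ∧ K ⊆ P ∧
    ∀ x : ℝ → Fin d → ℝ, x 0 ∈ P → IsSolOn f x (Ici 0) → ∃ T : ℝ, ∀ t, T ≤ t → x t ∈ K

/-! ### Smoothness of the mass-action field -/

lemma contDiff_field (N : Network d) (k : (Fin d → ℕ) × (Fin d → ℕ) → ℝ) :
    ContDiff ℝ 1 (N.field k) := by
  unfold Network.field
  apply ContDiff.sum
  intro r _
  refine ContDiff.smul (?_ : ContDiff ℝ 1 (fun x : Fin d → ℝ => k r * ∏ i, x i ^ r.1 i))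
    contDiff_const
  refine ContDiff.mul contDiff_const ?_
  apply contDiff_prod
  intro i _
  exact (contDiff_apply ℝ ℝ i).pow _

/-! ### Clamping to a box -/

/-- coordinatewise clamp to the box `∏ [lo i, hi i]` -/
def clamp (lo hi : Fin d → ℝ) (x : Fin d → ℝ) : Fin d → ℝ :=
  fun i => max (lo i) (min (hi i) (x i))

lemma clamp_mem {lo hi : Fin d → ℝ} (h : ∀ i, lo i ≤ hi i) (x : Fin d → ℝ) :
    clamp lo hi x ∈ Set.pi univ (fun i => Icc (lo i) (hi i)) := by
  intro i _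
  exact ⟨le_max_left _ _, max_le (h i) (min_le_left _ _)⟩

lemma clamp_apply_of_mem {lo hi : Fin d → ℝ} {x : Fin d → ℝ} {i : Fin d}
    (h1 : lo i ≤ x i) (h2 : x i ≤ hi i) : clamp lo hi x i = x i := by
  simp [clamp, h1, h2]

lemma lipschitz_clamp (lo hi : Fin d → ℝ) : LipschitzWith 1 (clamp lo hi) := by
  refine LipschitzWith.of_dist_le_mul fun x y => ?_
  rw [NNReal.coe_one, one_mul]
  refine (dist_pi_le_iff dist_nonneg).2 fun i => ?_
  have h1 : LipschitzWith 1 (fun a : ℝ => max (lo i) (min (hi i) a)) :=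
    LipschitzWith.const_max (LipschitzWith.const_min LipschitzWith.id _) _
  have h2 := h1.dist_le_mul (x i) (y i)
  rw [NNReal.coe_one, one_mul] at h2
  exact h2.trans (dist_le_pi_dist x y i)

lemma exists_bound_lipschitz_clamp {f : (Fin d → ℝ) → (Fin d → ℝ)} (hf : ContDiff ℝ 1 f)
    {lo hi : Fin d → ℝ} (h : ∀ i, lo i ≤ hi i) :
    ∃ L K : NNReal, (∀ x, ‖f (clamp lo hi x)‖ ≤ L) ∧ LipschitzWith K (f ∘ clamp lo hi) := by
  have hcomp : IsCompact (Set.pi univ (fun i => Icc (lo i) (hi i))) :=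
    isCompact_univ_pi (fun i => isCompact_Icc)
  obtain ⟨C, hC⟩ := hcomp.exists_bound_of_continuousOn hf.continuous.continuousOn
  obtain ⟨K, hK⟩ := hf.locallyLipschitz.locallyLipschitzOn.exists_lipschitzOnWith_of_compact hcomp
  refine ⟨⟨max C 0, le_max_right _ _⟩, K * 1, fun x => ?_, ?_⟩
  · exact (hC _ (clamp_mem h x)).trans (le_max_left _ _)
  · rw [← lipschitzOnWith_univ]
    exact hK.comp (lipschitz_clamp lo hi).lipschitzOnWith (fun x _ => clamp_mem h x)

/-! ### Global existence for bounded Lipschitz fields -/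

lemma exists_global_sol {E : Type*} [NormedAddCommGroup E] [NormedSpace ℝ E] [CompleteSpace E]
    (g : E → E) (L K : NNReal) (hL : ∀ x, ‖g x‖ ≤ L) (hK : LipschitzWith K g) (x0 : E) :
    ∃ γ : ℝ → E, γ 0 = x0 ∧ ∀ t ∈ Ici (0 : ℝ), HasDerivWithinAt γ (g (γ t)) (Ici 0) t := by
  have hex : ∀ n : ℕ, ∃ α : ℝ → E, α 0 = x0 ∧
      ∀ t ∈ Icc (0 : ℝ) (n + 1), HasDerivWithinAt α (g (α t)) (Icc 0 (n + 1)) t := by
    intro n
    have hn : (0 : ℝ) ≤ n + 1 := by positivity
    have hPL : IsPicardLindelof (fun _ => g) (⟨0, left_mem_Icc.mpr hn⟩ : Icc (0 : ℝ) (n + 1)) x0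
        (L * ((n : NNReal) + 1)) 0 L K := by
      refine ⟨fun t _ => hK.lipschitzOnWith, fun x _ => continuousOn_const, fun t _ x _ => hL x, ?_⟩
      simp only [sub_zero, NNReal.coe_mul, NNReal.coe_add, NNReal.coe_natCast, NNReal.coe_one,
        NNReal.coe_zero, sub_self]
      rw [max_eq_left hn]
    exact hPL.exists_eq_forall_mem_Icc_hasDerivWithinAt₀
  choose α hα0 hα using hex
  have hmono : ∀ m n : ℕ, m ≤ n → EqOn (α m) (α n) (Icc 0 (m + 1)) := by
    intro m n hmn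
    have hsub : Icc (0 : ℝ) (m + 1) ⊆ Icc 0 (n + 1) :=
      Icc_subset_Icc le_rfl (by exact_mod_cast Nat.succ_le_succ hmn)
    refine ODE_solution_unique_of_mem_Icc_right (v := fun _ => g) (s := fun _ => univ) (K := K)
      (fun t _ => hK.lipschitzOnWith) ?_ ?_ (fun _ _ => mem_univ _) ?_ ?_
      (fun _ _ => mem_univ _) ?_
    · exact fun t ht => (hα m t ht).continuousWithinAt
    · intro t ht
      refine (hα m t ⟨ht.1, ht.2.le⟩).mono_of_mem_nhdsWithin ?_
      exact Icc_mem_nhdsGE_of_mem ht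
    · exact fun t ht => ((hα n t (hsub ht)).continuousWithinAt).mono hsub
    · intro t ht
      refine (hα n t (hsub ⟨ht.1, ht.2.le⟩)).mono_of_mem_nhdsWithin ?_
      exact Icc_mem_nhdsGE_of_mem ⟨ht.1, lt_of_lt_of_le ht.2 (hsub (right_mem_Icc.mpr (by positivity))).2⟩
    · rw [hα0, hα0]
  refine ⟨fun t => α ⌈t⌉₊ t, by simp [hα0], ?_⟩
  intro t ht
  have ht0 : (0 : ℝ) ≤ t := ht
  set n := ⌈t⌉₊ + 1 with hn
  have htn : t < (⌈t⌉₊ : ℝ) + 1 := lt_of_le_of_lt (Nat.le_ceil t) (lt_add_one _)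
  -- on `U = [0, ⌈t⌉ + 1)` the glued curve agrees with `α n`
  have hU : ∀ s ∈ Ico (0 : ℝ) (⌈t⌉₊ + 1), α ⌈s⌉₊ s = α n s := by
    intro s hs
    have hsn : ⌈s⌉₊ ≤ n := by
      rw [hn]
      apply Nat.ceil_le.mpr
      push_cast
      exact hs.2.le
    exact hmono ⌈s⌉₊ n hsn ⟨hs.1, (Nat.le_ceil s).trans (le_add_of_nonneg_right zero_le_one)⟩
  have htU : t ∈ Ico (0 : ℝ) (⌈t⌉₊ + 1) := ⟨ht0, htn⟩
  have htIcc : t ∈ Icc (0 : ℝ) ((n : ℝ) + 1) := by
    refine ⟨ht0, ?_⟩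
    rw [hn]; push_cast; linarith
  have hsubU : Ico (0 : ℝ) (⌈t⌉₊ + 1) ⊆ Icc 0 ((n : ℝ) + 1) := by
    intro s hs
    refine ⟨hs.1, ?_⟩
    rw [hn]; push_cast; linarith [hs.2]
  have h1 : HasDerivWithinAt (α n) (g (α n t)) (Ico 0 (⌈t⌉₊ + 1)) t := (hα n t htIcc).mono hsubU
  have h2 : HasDerivWithinAt (fun s => α ⌈s⌉₊ s) (g (α n t)) (Ico 0 (⌈t⌉₊ + 1)) t :=
    h1.congr hU (hU t htU)
  have h3 : HasDerivWithinAt (fun s => α ⌈s⌉₊ s) (g (α n t)) (Ici 0) t := by
    refine h2.mono_of_mem_nhdsWithin ?_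
    have : Ico (0 : ℝ) (⌈t⌉₊ + 1) = Ici (0 : ℝ) ∩ Iio ((⌈t⌉₊ : ℝ) + 1) := by
      ext s; simp
    rw [this]
    exact inter_mem_nhdsWithin _ (Iio_mem_nhds htn)
  simpa [hU t htU] using h3

/-! ### Uniqueness -/

lemma sol_unique {f : (Fin d → ℝ) → (Fin d → ℝ)} (hf : ContDiff ℝ 1 f) {x y : ℝ → Fin d → ℝ}
    {T₀ : ℝ} (hx : IsSolOn f x (Ico 0 T₀)) (hy : IsSolOn f y (Ico 0 T₀)) (h0 : y 0 = x 0) :
    ∀ t ∈ Ico 0 T₀, y t = x t := by
  intro t ht
  set b := (t + T₀) / 2 with hb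
  have hb1 : t < b := by rw [hb]; linarith [ht.2]
  have hb2 : b < T₀ := by rw [hb]; linarith [ht.2]
  have hsub : Icc 0 b ⊆ Ico 0 T₀ := fun s hs => ⟨hs.1, lt_of_le_of_lt hs.2 hb2⟩
  have hxc : ContinuousOn x (Icc 0 b) :=
    fun s hs => ((hx s (hsub hs)).continuousWithinAt).mono hsub
  have hyc : ContinuousOn y (Icc 0 b) :=
    fun s hs => ((hy s (hsub hs)).continuousWithinAt).mono hsub
  have hcx : IsCompact (x '' Icc 0 b) := isCompact_Icc.image_of_continuousOn hxc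
  have hcy : IsCompact (y '' Icc 0 b) := isCompact_Icc.image_of_continuousOn hyc
  obtain ⟨K, hK⟩ :=
    hf.locallyLipschitz.locallyLipschitzOn.exists_lipschitzOnWith_of_compact (hcx.union hcy)
  have key := ODE_solution_unique_of_mem_Icc_right (v := fun _ => f)
    (s := fun _ => x '' Icc 0 b ∪ y '' Icc 0 b) (K := K) (a := 0) (b := b) (f := y) (g := x)
    (fun _ _ => hK) hyc ?_ ?_ hxc ?_ ?_ h0
  · exact key ⟨ht.1, hb1.le⟩
  · intro s hs
    have hs' : s ∈ Ico 0 T₀ := ⟨hs.1, hs.2.trans hb2⟩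
    exact (hy s hs').mono_of_mem_nhdsWithin (Ico_mem_nhdsGE_of_mem hs')
  · intro s hs
    exact Or.inr ⟨s, ⟨hs.1, hs.2.le⟩, rfl⟩
  · intro s hs
    have hs' : s ∈ Ico 0 T₀ := ⟨hs.1, hs.2.trans hb2⟩
    exact (hx s hs').mono_of_mem_nhdsWithin (Ico_mem_nhdsGE_of_mem hs')
  · intro s hs
    exact Or.inl ⟨s, ⟨hs.1, hs.2.le⟩, rfl⟩

/-! ### Barrier lemmas for scalar functions -/

lemma barrier_le {u u' : ℝ → ℝ} {a M : ℝ}
    (hu : ∀ t ∈ Ici a, HasDerivWithinAt u (u' t) (Ici a) t) (ha : u a ≤ M)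
    (hb : ∀ t, a ≤ t → u t = M → u' t < 0) : ∀ t, a ≤ t → u t ≤ M := by
  intro t ht
  have hc : ContinuousOn u (Icc a t) :=
    fun s hs => ((hu s hs.1).continuousWithinAt).mono (fun _ h => h.1)
  have hd : ∀ s ∈ Ico a t, HasDerivWithinAt u (u' s) (Ici s) s :=
    fun s hs => (hu s hs.1).mono (Ici_subset_Ici.mpr hs.1)
  exact image_le_of_deriv_right_lt_deriv_boundary' hc hd (B := fun _ => M) (B' := fun _ => 0) ha
    continuousOn_const (fun s _ => hasDerivWithinAt_const s _ M) (fun s hs h => hb s hs.1 h)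
    (right_mem_Icc.mpr ht)

lemma barrier_ge {u u' : ℝ → ℝ} {a m : ℝ}
    (hu : ∀ t ∈ Ici a, HasDerivWithinAt u (u' t) (Ici a) t) (ha : m ≤ u a)
    (hb : ∀ t, a ≤ t → u t = m → 0 < u' t) : ∀ t, a ≤ t → m ≤ u t := by
  intro t ht
  have := barrier_le (u := fun s => -u s) (u' := fun s => -u' s) (a := a) (M := -m)
    (fun s hs => (hu s hs).neg) (by simpa using ha)
    (fun s hs h => by have := hb s hs (by simpa using h); simpa using this) t ht
  simpa using this

lemma eventually_le {u u' : ℝ → ℝ} {a M δ : ℝ} (hδ : 0 < δ)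
    (hu : ∀ t ∈ Ici a, HasDerivWithinAt u (u' t) (Ici a) t)
    (hb : ∀ t, a ≤ t → M ≤ u t → u' t ≤ -δ) : ∃ T, a ≤ T ∧ ∀ t, T ≤ t → u t ≤ M := by
  have h1 : ∃ T, a ≤ T ∧ u T ≤ M := by
    by_contra hcon
    push Not at hcon
    set b := a + (u a - M) / δ + 1 with hbdef
    have hpos : 0 < (u a - M) / δ := div_pos (by linarith [hcon a le_rfl]) hδ
    have hab : a ≤ b := by rw [hbdef]; linarith
    have hc : ContinuousOn u (Icc a b) :=
      fun s hs => ((hu s hs.1).continuousWithinAt).mono (fun _ h => h.1)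
    have hd : ∀ s ∈ Ico a b, HasDerivWithinAt u (u' s) (Ici s) s :=
      fun s hs => (hu s hs.1).mono (Ici_subset_Ici.mpr hs.1)
    have hB : ∀ s : ℝ, HasDerivAt (fun s => u a - δ * (s - a)) (-δ) s := by
      intro s
      have h1 : HasDerivAt (fun s : ℝ => δ * (s - a)) (δ * 1) s :=
        ((hasDerivAt_id' s).sub_const a).const_mul δ
      simpa using h1.const_sub (u a)
    have key := image_le_of_deriv_right_le_deriv_boundary hc hd
      (B := fun s => u a - δ * (s - a)) (B' := fun _ => -δ) (by simp)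
      (fun s _ => (hB s).continuousAt.continuousWithinAt)
      (fun s _ => (hB s).hasDerivWithinAt)
      (fun s hs => hb s hs.1 (hcon s hs.1).le) (right_mem_Icc.mpr hab)
    have h2 := hcon b hab
    have h3 : δ * (b - a) = (u a - M) + δ := by
      rw [hbdef]; field_simp; ring
    linarith
  obtain ⟨T, hT, huT⟩ := h1
  refine ⟨T, hT, ?_⟩
  exact barrier_le (fun t ht => (hu t (hT.trans ht)).mono (Ici_subset_Ici.mpr hT)) huT
    (fun t ht h => by have := hb t (hT.trans ht) h.ge; linarith)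

lemma eventually_ge {u u' : ℝ → ℝ} {a m δ : ℝ} (hδ : 0 < δ)
    (hu : ∀ t ∈ Ici a, HasDerivWithinAt u (u' t) (Ici a) t)
    (hb : ∀ t, a ≤ t → u t ≤ m → δ ≤ u' t) : ∃ T, a ≤ T ∧ ∀ t, T ≤ t → m ≤ u t := by
  obtain ⟨T, hT, h⟩ := eventually_le (u := fun s => -u s) (u' := fun s => -u' s) (a := a)
    (M := -m) hδ (fun s hs => (hu s hs).neg)
    (fun s hs h => by have := hb s hs (by simpa using h); simpa using this)
  exact ⟨T, hT, fun t ht => by simpa using h t ht⟩

/-- coordinates of a solution -/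
lemma IsSolOn.coord {f : (Fin d → ℝ) → (Fin d → ℝ)} {x : ℝ → Fin d → ℝ}
    (hx : IsSolOn f x (Ici 0)) (i : Fin d) {a : ℝ} (ha : 0 ≤ a) :
    ∀ t ∈ Ici a, HasDerivWithinAt (fun s => x s i) (f (x t) i) (Ici a) t := by
  intro t ht
  have h1 := (hasDerivWithinAt_pi.1 (hx t (ha.trans ht))) i
  exact h1.mono (Ici_subset_Ici.mpr ha)

end Vale.Agent.Helper14.MassAction
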