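import Vale.Agent.Helper14.Switches

/-!
The open reversible Michaelis-Menten mechanism `0 ⇌ S`, `0 ⇌ P`, `E + S ⇌ ES ⇌ E + P`
(species `S, P, E, ES` = indices `0, 1, 2, 3`): weakly reversible, two linkage classes, and
permanent on every positive stoichiometric class for all positive rate constants.
-/

namespace Vale.Agent.Helper14.MichaelisMenten

open Vale.Agent.Helper14.MassAction Vale.Agent.Helper14.Switches

/-- the zero complex -/
def c0 : Fin 4 → ℕ := ![0, 0, 0, 0]
/-- the complex `S` -/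
def cS : Fin 4 → ℕ := ![1, 0, 0, 0]
/-- the complex `P` -/
def cP : Fin 4 → ℕ := ![0, 1, 0, 0]
/-- the complex `ES` -/
def cES : Fin 4 → ℕ := ![0, 0, 0, 1]
/-- the complex `E + S` -/
def cE_S : Fin 4 → ℕ := ![1, 0, 1, 0]
/-- the complex `E + P` -/
def cE_P : Fin 4 → ℕ := ![0, 1, 1, 0]

/-- The open reversible Michaelis-Menten network: `0 ⇌ S`, `0 ⇌ P`, `E + S ⇌ ES`,
`ES ⇌ E + P` on the species `S, P, E, ES` (indices `0, 1, 2, 3`). -/
def mm : Network 4 where
  reactions := {(c0, cS), (cS, c0), (c0, cP), (cP, c0), (cE_S, cES), (cES, cE_S),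
    (cES, cE_P), (cE_P, cES)}
  ne := by
    intro r hr
    simp only [Finset.mem_insert, Finset.mem_singleton] at hr
    rcases hr with rfl | rfl | rfl | rfl | rfl | rfl | rfl | rfl <;> decide

lemma mm_weaklyReversible : mm.WeaklyReversible := by
  intro r hr
  simp only [mm, Finset.mem_insert, Finset.mem_singleton] at hr
  rcases hr with rfl | rfl | rfl | rfl | rfl | rfl | rfl | rfl <;>
    exact Relation.TransGen.single (by simp [mm])

lemma c0_eq : (0 : Fin 4 → ℕ) = c0 := by decide
lemma single0 : (Pi.single 0 1 : Fin 4 → ℕ) = cS := by decide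
lemma single1 : (Pi.single 1 1 : Fin 4 → ℕ) = cP := by decide

/-- Permanence of the open reversible Michaelis-Menten mechanism. -/
theorem mm_permanent (k : (Fin 4 → ℕ) × (Fin 4 → ℕ) → ℝ) (hk : ∀ r ∈ mm.reactions, 0 < k r)
    (c : Fin 4 → ℝ) (hc : ∀ i, 0 < c i) : Permanent (mm.field k) (mm.posClass c) := by
  refine permanent_switch mm ![1, 1, 1, 2] ?_ ![0, 1, 3, 2] ?_ ⟨![0, 2, 0, 1], ?_⟩ ?_ ?_ k hk c hc
  · intro i
    fin_cases i <;> simp
  · intro r hr i hi
    simp only [mm, Finset.mem_insert, Finset.mem_singleton] at hr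
    rcases hr with rfl | rfl | rfl | rfl | rfl | rfl | rfl | rfl <;>
      fin_cases i <;> simp [c0, cS, cP, cES, cE_S, cE_P] at hi ⊢
  · intro i
    fin_cases i
    · exact ⟨(c0, cS), by simp [mm], by simp [c0], by simp [cS],
        fun j hj => by fin_cases j <;> simp [c0] at hj⟩
    · exact ⟨(cES, cE_P), by simp [mm], by simp [cES], by simp [cE_P],
        fun j hj => by fin_cases j <;> simp [cES] at hj ⊢⟩
    · exact ⟨(cES, cE_S), by simp [mm], by simp [cES], by simp [cE_S],
        fun j hj => by fin_cases j <;> simp [cES] at hj ⊢⟩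
    · exact ⟨(cE_S, cES), by simp [mm], by simp [cE_S], by simp [cES],
        fun j hj => by fin_cases j <;> simp [cE_S] at hj ⊢⟩
  · intro i hi
    fin_cases i
    · show ((Pi.single (0 : Fin 4) 1 : Fin 4 → ℕ), (0 : Fin 4 → ℕ)) ∈ mm.reactions
      rw [single0, c0_eq]
      simp [mm]
    · show ((Pi.single (1 : Fin 4) 1 : Fin 4 → ℕ), (0 : Fin 4 → ℕ)) ∈ mm.reactions
      rw [single1, c0_eq]
      simp [mm]
    · simp at hi
    · simp at hi
  · intro r hr h0
    simp only [mm, Finset.mem_insert, Finset.mem_singleton] at hr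
    rcases hr with rfl | rfl | rfl | rfl | rfl | rfl | rfl | rfl
    · exact absurd c0_eq.symm h0
    · simp [Fin.sum_univ_four, c0, cS]
    · exact absurd c0_eq.symm h0
    · simp [Fin.sum_univ_four, c0, cP]
    · simp [Fin.sum_univ_four, cE_S, cES]; norm_num
    · simp [Fin.sum_univ_four, cE_S, cES]; norm_num
    · simp [Fin.sum_univ_four, cE_P, cES]; norm_num
    · simp [Fin.sum_univ_four, cE_P, cES]; norm_num

end Vale.Agent.Helper14.MichaelisMenten
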