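import Vale.Agent.Helper14.MassAction

/-!
Open mass-action networks: if every species has an inflow `0 → X_i` and an outflow `X_i → 0`, and
some positive weight `ω` is non-increasing along every reaction whose source is not the zero
complex, then the mass-action system is permanent (on the whole positive orthant, which is the
only positive stoichiometric class), for all positive rate constants.
-/

namespace Vale.Agent.Helper14.OpenNetworks

open Set Vale.Agent.Helper14.MassAction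

variable {d : ℕ}

lemma exists_pos_le {ι : Type*} [Finite ι] (κ : ι → ℝ) (h : ∀ i, 0 < κ i) :
    ∃ β, 0 < β ∧ ∀ i, β ≤ κ i := by
  rcases isEmpty_or_nonempty ι with h0 | h0
  · exact ⟨1, one_pos, fun i => (h0.false i).elim⟩
  · obtain ⟨i0, hi0⟩ := Finite.exists_min κ
    exact ⟨κ i0, h i0, hi0⟩

lemma field_apply (N : Network d) (k : (Fin d → ℕ) × (Fin d → ℕ) → ℝ) (x : Fin d → ℝ)
    (i : Fin d) :
    N.field k x i = ∑ r ∈ N.reactions, (k r * ∏ j, x j ^ r.1 j) * rvec r i := by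
  simp [Network.field, Finset.sum_apply]

/-- At a point with `x i = 0` the `i`-th component of the field is at least the inflow rate. -/
lemma field_ge_of_zero {N : Network d} {k : (Fin d → ℕ) × (Fin d → ℕ) → ℝ}
    (hk : ∀ r ∈ N.reactions, 0 ≤ k r) (i : Fin d)
    (hin : ((0 : Fin d → ℕ), (Pi.single i 1 : Fin d → ℕ)) ∈ N.reactions) {x : Fin d → ℝ}
    (hx : ∀ j, 0 ≤ x j) (hxi : x i = 0) :
    k ((0 : Fin d → ℕ), (Pi.single i 1 : Fin d → ℕ)) ≤ N.field k x i := by
  rw [field_apply]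
  have e : k ((0 : Fin d → ℕ), (Pi.single i 1 : Fin d → ℕ)) =
      ∑ r ∈ N.reactions, if r = ((0 : Fin d → ℕ), (Pi.single i 1 : Fin d → ℕ)) then k r else 0 := by
    rw [Finset.sum_ite_eq']
    simp [hin]
  rw [e]
  refine Finset.sum_le_sum fun r hr => ?_
  split_ifs with h
  · subst h
    simp [rvec]
  · by_cases hri : r.1 i = 0
    · have h1 : 0 ≤ rvec r i := by simp [rvec, hri]
      have h2 : 0 ≤ ∏ j, x j ^ r.1 j := Finset.prod_nonneg fun j _ => pow_nonneg (hx j) _
      exact mul_nonneg (mul_nonneg (hk r hr) h2) h1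
    · have h2 : ∏ j, x j ^ r.1 j = 0 :=
        Finset.prod_eq_zero (Finset.mem_univ i) (by rw [hxi]; exact zero_pow hri)
      simp [h2]

/-- Lower bound for the `i`-th component of the field on a box `∏ [0, hi j]`, in terms of a
Lipschitz constant of the field on the box. -/
lemma field_lower {N : Network d} {k : (Fin d → ℕ) × (Fin d → ℕ) → ℝ}
    (hk : ∀ r ∈ N.reactions, 0 ≤ k r) {hi : Fin d → ℝ} {K : NNReal}
    (hK : LipschitzOnWith K (N.field k) (Set.pi univ fun j => Icc (0 : ℝ) (hi j))) (i : Fin d)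
    (hin : ((0 : Fin d → ℕ), (Pi.single i 1 : Fin d → ℕ)) ∈ N.reactions) {x : Fin d → ℝ}
    (hx : x ∈ Set.pi univ fun j => Icc (0 : ℝ) (hi j)) :
    k ((0 : Fin d → ℕ), (Pi.single i 1 : Fin d → ℕ)) - K * x i ≤ N.field k x i := by
  have hxi := hx i (mem_univ i)
  have hx' : Function.update x i 0 ∈ Set.pi univ fun j => Icc (0 : ℝ) (hi j) := by
    intro j _
    by_cases hj : j = i
    · subst hj
      simpa using hxi.1.trans hxi.2
    · simpa [Function.update_of_ne hj] using hx j (mem_univ j)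
  have h1 : k ((0 : Fin d → ℕ), (Pi.single i 1 : Fin d → ℕ)) ≤
      N.field k (Function.update x i 0) i :=
    field_ge_of_zero hk i hin (fun j => (hx' j (mem_univ j)).1) (by simp)
  have h2 : dist (N.field k x) (N.field k (Function.update x i 0)) ≤
      K * dist x (Function.update x i 0) := hK.dist_le_mul x hx _ hx'
  have h3 : dist x (Function.update x i 0) ≤ x i := by
    refine (dist_pi_le_iff hxi.1).2 fun j => ?_
    by_cases hj : j = i
    · subst hj
      simp [abs_of_nonneg hxi.1]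
    · simp [Function.update_of_ne hj, hxi.1]
  have h4 : dist (N.field k x i) (N.field k (Function.update x i 0) i) ≤
      dist (N.field k x) (N.field k (Function.update x i 0)) := dist_le_pi_dist _ _ i
  rw [Real.dist_eq] at h4
  have h5 := abs_le.1 h4
  have h6 : (K : ℝ) * dist x (Function.update x i 0) ≤ K * x i :=
    mul_le_mul_of_nonneg_left h3 K.coe_nonneg
  linarith [h5.1]

/-- The weighted sum `∑ ω i * x i` is dissipated: its derivative along the field is at most
`A - β * ∑ ω i * x i`. -/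
lemma dissipation {N : Network d} {k : (Fin d → ℕ) × (Fin d → ℕ) → ℝ}
    (hk : ∀ r ∈ N.reactions, 0 ≤ k r) {ω : Fin d → ℝ} (hω : ∀ i, 0 ≤ ω i)
    (hout : ∀ i, ((Pi.single i 1 : Fin d → ℕ), (0 : Fin d → ℕ)) ∈ N.reactions)
    (hdiss : ∀ r ∈ N.reactions, r.1 ≠ 0 → ∑ i, ω i * ((r.2 i : ℝ) - (r.1 i : ℝ)) ≤ 0)
    {β : ℝ} (hβ : ∀ i, β ≤ k ((Pi.single i 1 : Fin d → ℕ), (0 : Fin d → ℕ)))
    {x : Fin d → ℝ} (hx : ∀ i, 0 ≤ x i) :
    ∑ i, ω i * N.field k x i ≤
      (∑ r ∈ N.reactions, k r * ∑ i, ω i * (r.2 i : ℝ)) - β * ∑ i, ω i * x i := by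
  classical
  have e1 : ∑ i, ω i * N.field k x i =
      ∑ r ∈ N.reactions, (k r * ∏ j, x j ^ r.1 j) * ∑ i, ω i * rvec r i := by
    simp only [field_apply, Finset.mul_sum]
    rw [Finset.sum_comm]
    exact Finset.sum_congr rfl fun r _ => Finset.sum_congr rfl fun i _ => by ring
  set Out : Finset ((Fin d → ℕ) × (Fin d → ℕ)) :=
    Finset.univ.image (fun i : Fin d => ((Pi.single i 1 : Fin d → ℕ), (0 : Fin d → ℕ))) with hOut
  have hsub : Out ⊆ N.reactions := by
    intro r hr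
    rw [hOut, Finset.mem_image] at hr
    obtain ⟨i, -, rfl⟩ := hr
    exact hout i
  have hinj : Set.InjOn (fun i : Fin d => ((Pi.single i 1 : Fin d → ℕ), (0 : Fin d → ℕ)))
      (↑(Finset.univ : Finset (Fin d))) := by
    intro i _ j _ hij
    have h1 : (Pi.single i 1 : Fin d → ℕ) = Pi.single j 1 := congrArg Prod.fst hij
    by_contra hne
    have h2 := congrFun h1 i
    simp [hne] at h2
  rw [e1, ← Finset.sum_sdiff hsub, hOut, Finset.sum_image hinj, ← hOut]
  -- the outflow part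
  have hpart1 : ∑ i, (k ((Pi.single i 1 : Fin d → ℕ), (0 : Fin d → ℕ)) *
      ∏ j, x j ^ (Pi.single i 1 : Fin d → ℕ) j) *
      ∑ l, ω l * rvec ((Pi.single i 1 : Fin d → ℕ), (0 : Fin d → ℕ)) l ≤
      -(β * ∑ i, ω i * x i) := by
    rw [Finset.mul_sum, ← Finset.sum_neg_distrib]
    refine Finset.sum_le_sum fun i _ => ?_
    have hp : ∏ j, x j ^ (Pi.single i 1 : Fin d → ℕ) j = x i := by
      rw [Fintype.prod_eq_single i (fun j hj => by simp [hj])]
      simp
    have hs : ∑ l, ω l * rvec ((Pi.single i 1 : Fin d → ℕ), (0 : Fin d → ℕ)) l = -ω i := by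
      rw [Fintype.sum_eq_single i (fun j hj => by simp [rvec, hj])]
      simp [rvec]
    rw [hp, hs]
    have h1 : 0 ≤ ω i * x i := mul_nonneg (hω i) (hx i)
    nlinarith [hβ i]
  -- the rest
  have hpart2 : ∑ r ∈ N.reactions \ Out, (k r * ∏ j, x j ^ r.1 j) * ∑ i, ω i * rvec r i ≤
      ∑ r ∈ N.reactions, k r * ∑ i, ω i * (r.2 i : ℝ) := by
    have hnn : ∀ r ∈ N.reactions, 0 ≤ k r * ∑ i, ω i * (r.2 i : ℝ) := fun r hr =>
      mul_nonneg (hk r hr) (Finset.sum_nonneg fun i _ => mul_nonneg (hω i) (Nat.cast_nonneg _))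
    refine le_trans (Finset.sum_le_sum fun r hr => ?_)
      (Finset.sum_le_sum_of_subset_of_nonneg Finset.sdiff_subset (fun r hr _ => hnn r hr))
    have hr' : r ∈ N.reactions := (Finset.mem_sdiff.1 hr).1
    by_cases h0 : r.1 = 0
    · have hp : ∏ j, x j ^ r.1 j = 1 := by simp [h0]
      have hs : ∑ i, ω i * rvec r i = ∑ i, ω i * (r.2 i : ℝ) := by simp [rvec, h0]
      rw [hp, hs, mul_one]
    · have h2 : 0 ≤ ∏ j, x j ^ r.1 j := Finset.prod_nonneg fun j _ => pow_nonneg (hx j) _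
      exact le_trans (mul_nonpos_of_nonneg_of_nonpos (mul_nonneg (hk r hr') h2)
        (hdiss r hr' h0)) (hnn r hr')
  linarith

/-! ### Dynamics -/

section dynamics

variable {N : Network d} {k : (Fin d → ℕ) × (Fin d → ℕ) → ℝ} {ω : Fin d → ℝ}

/-- From every positive initial point there is a global positive solution. -/
lemma exists_sol (hk : ∀ r ∈ N.reactions, 0 < k r) (hω : ∀ i, 0 < ω i)
    (hin : ∀ i, ((0 : Fin d → ℕ), (Pi.single i 1 : Fin d → ℕ)) ∈ N.reactions)
    (hout : ∀ i, ((Pi.single i 1 : Fin d → ℕ), (0 : Fin d → ℕ)) ∈ N.reactions)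
    (hdiss : ∀ r ∈ N.reactions, r.1 ≠ 0 → ∑ i, ω i * ((r.2 i : ℝ) - (r.1 i : ℝ)) ≤ 0)
    (x0 : Fin d → ℝ) (hx0 : ∀ i, 0 < x0 i) :
    ∃ γ : ℝ → Fin d → ℝ, γ 0 = x0 ∧ IsSolOn (N.field k) γ (Ici 0) ∧
      ∀ t, 0 ≤ t → ∀ i, 0 < γ t i := by
  have hk0 : ∀ r ∈ N.reactions, 0 ≤ k r := fun r hr => (hk r hr).le
  have hω0 : ∀ i, 0 ≤ ω i := fun i => (hω i).le
  obtain ⟨β, hβ0, hβ⟩ := exists_pos_le
    (fun i : Fin d => k ((Pi.single i 1 : Fin d → ℕ), (0 : Fin d → ℕ))) (fun i => hk _ (hout i))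
  obtain ⟨κ, hκ0, hκ⟩ := exists_pos_le
    (fun i : Fin d => k ((0 : Fin d → ℕ), (Pi.single i 1 : Fin d → ℕ))) (fun i => hk _ (hin i))
  set A := ∑ r ∈ N.reactions, k r * ∑ i, ω i * (r.2 i : ℝ) with hA
  have hA0 : 0 ≤ A := Finset.sum_nonneg fun r hr =>
    mul_nonneg (hk0 r hr) (Finset.sum_nonneg fun i _ => mul_nonneg (hω0 i) (Nat.cast_nonneg _))
  set M := max (∑ i, ω i * x0 i) (A / β + 1) with hM
  have hM1 : A + β ≤ β * M := by
    have h1 : A / β + 1 ≤ M := le_max_right _ _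
    have h2 : A / β ≤ M - 1 := by linarith
    rw [div_le_iff₀ hβ0] at h2
    nlinarith
  have hMpos : 0 < M := lt_of_lt_of_le (by positivity) (le_max_right _ _)
  set hi : Fin d → ℝ := fun j => M / ω j with hhidef
  have hhi : ∀ j, 0 < hi j := fun j => div_pos hMpos (hω j)
  have hcomp : IsCompact (Set.pi univ fun j => Icc (0 : ℝ) (hi j)) :=
    isCompact_univ_pi fun _ => isCompact_Icc
  obtain ⟨K, hK⟩ :=
    (contDiff_field N k).locallyLipschitz.locallyLipschitzOn.exists_lipschitzOnWith_of_compact hcomp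
  obtain ⟨m1, hm10, hm1⟩ := exists_pos_le x0 hx0
  obtain ⟨m2, hm20, hm2⟩ := exists_pos_le hi hhi
  have hK1 : (0 : ℝ) < 2 * (K + 1) := by positivity
  set m := min (min m1 m2) (κ / (2 * (K + 1))) with hm
  have hm0 : 0 < m := lt_min (lt_min hm10 hm20) (div_pos hκ0 hK1)
  have hmK : (K : ℝ) * m < κ := by
    have h1 : m ≤ κ / (2 * (K + 1)) := min_le_right _ _
    rw [le_div_iff₀ hK1] at h1
    nlinarith [K.coe_nonneg]
  set lo : Fin d → ℝ := fun _ => m with hlodef
  have hlohi : ∀ j, lo j ≤ hi j := fun j =>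
    ((min_le_left _ _).trans (min_le_right _ _)).trans (hm2 j)
  obtain ⟨L', K', hL', hK'⟩ := exists_bound_lipschitz_clamp (contDiff_field N k) hlohi
  obtain ⟨γ, hγ0, hγ⟩ := exists_global_sol (N.field k ∘ clamp lo hi) L' K' hL' hK' x0
  have hsol : IsSolOn (N.field k ∘ clamp lo hi) γ (Ici 0) := hγ
  have hclbox : ∀ t, clamp lo hi (γ t) ∈ Set.pi univ fun j => Icc (0 : ℝ) (hi j) := by
    intro t j _
    have h := clamp_mem hlohi (γ t) j (mem_univ j)
    exact ⟨hm0.le.trans h.1, h.2⟩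
  -- lower barriers
  have hlow : ∀ i, ∀ t, 0 ≤ t → m ≤ γ t i := by
    intro i
    refine barrier_ge (hsol.coord i le_rfl)
      (by rw [hγ0]; exact ((min_le_left _ _).trans (min_le_left _ _)).trans (hm1 i))
      (fun t _ h => ?_)
    have hci : clamp lo hi (γ t) i = m := by
      rw [clamp_apply_of_mem (by rw [h]) (by rw [h]; exact hlohi i)]
      exact h
    have h1 := field_lower hk0 hK i (hin i) (hclbox t)
    rw [hci] at h1
    have h2 : (N.field k ∘ clamp lo hi) (γ t) i = N.field k (clamp lo hi (γ t)) i := rfl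
    rw [h2]
    linarith [hκ i]
  -- upper barrier for the weighted sum
  have hderivL : ∀ t ∈ Ici (0 : ℝ), HasDerivWithinAt (fun s => ∑ j, ω j * γ s j)
      (∑ j, ω j * (N.field k ∘ clamp lo hi) (γ t) j) (Ici 0) t := by
    intro t ht
    exact HasDerivWithinAt.fun_sum fun j _ => (hsol.coord j le_rfl t ht).const_mul (ω j)
  have hhile : ∀ t, 0 ≤ t → ∑ j, ω j * γ t j ≤ M → ∀ j, γ t j ≤ hi j := by
    intro t ht h j
    have h1 : ω j * γ t j ≤ ∑ j, ω j * γ t j :=
      Finset.single_le_sum (fun l _ => mul_nonneg (hω0 l) (hm0.le.trans (hlow l t ht)))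
        (Finset.mem_univ j)
    rw [hhidef, le_div_iff₀ (hω j)]
    linarith
  have hup : ∀ t, 0 ≤ t → ∑ j, ω j * γ t j ≤ M := by
    refine barrier_le hderivL (by rw [hγ0]; exact le_max_left _ _) (fun t ht h => ?_)
    have hcl : clamp lo hi (γ t) = γ t := by
      ext j
      exact clamp_apply_of_mem (hlow j t ht) (hhile t ht h.le j)
    simp only [Function.comp_apply, hcl]
    have h1 := dissipation hk0 hω0 hout hdiss hβ (x := γ t)
      (fun j => hm0.le.trans (hlow j t ht))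
    rw [h] at h1
    linarith
  have hcl : ∀ t, 0 ≤ t → clamp lo hi (γ t) = γ t := by
    intro t ht
    ext j
    exact clamp_apply_of_mem (hlow j t ht) (hhile t ht (hup t ht) j)
  refine ⟨γ, hγ0, fun t ht => ?_, fun t ht i => lt_of_lt_of_le hm0 (hlow i t ht)⟩
  have h := hsol t ht
  rwa [Function.comp_apply, hcl t ht] at h

/-- All global positive solutions eventually enter one fixed region
`{x | (∀ i, m ≤ x i) ∧ ∑ ω i * x i ≤ M}`. -/
lemma eventually_in (hk : ∀ r ∈ N.reactions, 0 < k r) (hω : ∀ i, 0 < ω i)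
    (hin : ∀ i, ((0 : Fin d → ℕ), (Pi.single i 1 : Fin d → ℕ)) ∈ N.reactions)
    (hout : ∀ i, ((Pi.single i 1 : Fin d → ℕ), (0 : Fin d → ℕ)) ∈ N.reactions)
    (hdiss : ∀ r ∈ N.reactions, r.1 ≠ 0 → ∑ i, ω i * ((r.2 i : ℝ) - (r.1 i : ℝ)) ≤ 0) :
    ∃ m M : ℝ, 0 < m ∧ ∀ γ : ℝ → Fin d → ℝ, IsSolOn (N.field k) γ (Ici 0) →
      (∀ t, 0 ≤ t → ∀ i, 0 < γ t i) →
      ∃ T, ∀ t, T ≤ t → (∀ i, m ≤ γ t i) ∧ ∑ i, ω i * γ t i ≤ M := by
  have hk0 : ∀ r ∈ N.reactions, 0 ≤ k r := fun r hr => (hk r hr).le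
  have hω0 : ∀ i, 0 ≤ ω i := fun i => (hω i).le
  obtain ⟨β, hβ0, hβ⟩ := exists_pos_le
    (fun i : Fin d => k ((Pi.single i 1 : Fin d → ℕ), (0 : Fin d → ℕ))) (fun i => hk _ (hout i))
  obtain ⟨κ, hκ0, hκ⟩ := exists_pos_le
    (fun i : Fin d => k ((0 : Fin d → ℕ), (Pi.single i 1 : Fin d → ℕ))) (fun i => hk _ (hin i))
  set A := ∑ r ∈ N.reactions, k r * ∑ i, ω i * (r.2 i : ℝ) with hA
  have hA0 : 0 ≤ A := Finset.sum_nonneg fun r hr =>
    mul_nonneg (hk0 r hr) (Finset.sum_nonneg fun i _ => mul_nonneg (hω0 i) (Nat.cast_nonneg _))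
  set M := A / β + 1 with hM
  have hM1 : β * M = A + β := by
    rw [hM]; field_simp
  have hMpos : 0 < M := by positivity
  set hi : Fin d → ℝ := fun j => M / ω j with hhidef
  have hcomp : IsCompact (Set.pi univ fun j => Icc (0 : ℝ) (hi j)) :=
    isCompact_univ_pi fun _ => isCompact_Icc
  obtain ⟨K, hK⟩ :=
    (contDiff_field N k).locallyLipschitz.locallyLipschitzOn.exists_lipschitzOnWith_of_compact hcomp
  have hK1 : (0 : ℝ) < 2 * (K + 1) := by positivity
  set m := κ / (2 * (K + 1)) with hm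
  have hm0 : 0 < m := div_pos hκ0 hK1
  have hmK : (K : ℝ) * m ≤ κ / 2 := by
    have h1 : m * (2 * (K + 1)) = κ := by rw [hm]; field_simp
    nlinarith [K.coe_nonneg]
  refine ⟨m, M, hm0, fun γ hγ hpos => ?_⟩
  have hderivL : ∀ t ∈ Ici (0 : ℝ), HasDerivWithinAt (fun s => ∑ j, ω j * γ s j)
      (∑ j, ω j * N.field k (γ t) j) (Ici 0) t := by
    intro t ht
    exact HasDerivWithinAt.fun_sum fun j _ => (hγ.coord j le_rfl t ht).const_mul (ω j)
  obtain ⟨T1, hT1, h1⟩ := eventually_le (δ := β) (M := M) hβ0 hderivL (fun t ht h => by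
    have h2 := dissipation hk0 hω0 hout hdiss hβ (x := γ t) (fun j => (hpos t ht j).le)
    have h3 : β * M ≤ β * ∑ i, ω i * γ t i := mul_le_mul_of_nonneg_left h hβ0.le
    linarith)
  have hbox : ∀ t, T1 ≤ t → γ t ∈ Set.pi univ fun j => Icc (0 : ℝ) (hi j) := by
    intro t ht j _
    have ht0 : 0 ≤ t := hT1.trans ht
    refine ⟨(hpos t ht0 j).le, ?_⟩
    have h2 : ω j * γ t j ≤ ∑ j, ω j * γ t j :=
      Finset.single_le_sum (fun l _ => mul_nonneg (hω0 l) (hpos t ht0 l).le) (Finset.mem_univ j)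
    rw [hhidef, le_div_iff₀ (hω j)]
    linarith [h1 t ht]
  have hcoord : ∀ i, ∃ T, T1 ≤ T ∧ ∀ t, T ≤ t → m ≤ γ t i := by
    intro i
    refine eventually_ge (δ := κ / 2) (half_pos hκ0) (hγ.coord i hT1) (fun t ht h => ?_)
    have h2 := field_lower hk0 hK i (hin i) (hbox t ht)
    have h3 : (K : ℝ) * γ t i ≤ K * m := mul_le_mul_of_nonneg_left h K.coe_nonneg
    linarith [hκ i]
  choose T hT1' hT using hcoord
  obtain ⟨Tmax, hTmax⟩ := Finite.bddAbove_range T
  refine ⟨max Tmax T1, fun t ht => ⟨fun i => ?_, h1 t ((le_max_right _ _).trans ht)⟩⟩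
  exact hT i t ((hTmax (mem_range_self i)).trans ((le_max_left _ _).trans ht))

end dynamics

/-- **Permanence of open dissipative mass-action networks.** Let `N` be a reaction network on
`d` species containing the inflow `0 → X_i` and the outflow `X_i → 0` of every species, and
suppose there is a positive weight vector `ω` such that `ω · (y' - y) ≤ 0` for every reaction
`y → y'` with `y ≠ 0`. Then for all positive rate constants the mass-action system is permanent
on every positive stoichiometric class. -/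
theorem permanent_open (N : Network d) (k : (Fin d → ℕ) × (Fin d → ℕ) → ℝ)
    (hk : ∀ r ∈ N.reactions, 0 < k r) (ω : Fin d → ℝ) (hω : ∀ i, 0 < ω i)
    (hin : ∀ i, ((0 : Fin d → ℕ), (Pi.single i 1 : Fin d → ℕ)) ∈ N.reactions)
    (hout : ∀ i, ((Pi.single i 1 : Fin d → ℕ), (0 : Fin d → ℕ)) ∈ N.reactions)
    (hdiss : ∀ r ∈ N.reactions, r.1 ≠ 0 → ∑ i, ω i * ((r.2 i : ℝ) - (r.1 i : ℝ)) ≤ 0)
    (c : Fin d → ℝ) : Permanent (N.field k) (N.posClass c) := by
  have hfC : ContDiff ℝ 1 (N.field k) := contDiff_field N k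
  have hstoich : ∀ v : Fin d → ℝ, v ∈ N.stoich := by
    intro v
    have hv : v = ∑ i, v i • rvec ((0 : Fin d → ℕ), (Pi.single i 1 : Fin d → ℕ)) := by
      ext j
      simp [rvec, Finset.sum_apply, Pi.single_apply]
    rw [hv]
    exact Submodule.sum_mem _ fun i _ =>
      Submodule.smul_mem _ _ (Submodule.subset_span ⟨_, hin i, rfl⟩)
  have hP : ∀ x, x ∈ N.posClass c ↔ ∀ i, 0 < x i :=
    fun x => ⟨fun h => h.1, fun h => ⟨h, hstoich _⟩⟩
  obtain ⟨m, M, hm0, hev⟩ := eventually_in (k := k) hk hω hin hout hdiss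
  refine ⟨fun x0 hx0 => ?_, ?_⟩
  · obtain ⟨γ, hγ0, hγsol, hγpos⟩ := exists_sol hk hω hin hout hdiss x0 ((hP x0).1 hx0)
    exact ⟨γ, hγ0, hγsol, hγpos, fun T₀ y hy0 hy t ht =>
      sol_unique hfC (fun s hs => (hγsol s hs.1).mono Ico_subset_Ici_self) hy
        (by rw [hy0, hγ0]) t ht⟩
  · refine ⟨{x | (∀ i, m ≤ x i) ∧ ∑ i, ω i * x i ≤ M}, ?_, ?_, ?_⟩
    · have hbig : IsCompact (Set.pi univ fun i => Icc m (M / ω i)) :=
        isCompact_univ_pi fun _ => isCompact_Icc
      refine hbig.of_isClosed_subset ?_ ?_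
      · refine IsClosed.and ?_ ?_
        · have e : {x : Fin d → ℝ | ∀ i, m ≤ x i} = ⋂ i, {x : Fin d → ℝ | m ≤ x i} := by
            ext x; simp
          rw [e]
          exact isClosed_iInter fun i => isClosed_le continuous_const (continuous_apply i)
        · exact isClosed_le (continuous_finsetSum _ fun i _ =>
            continuous_const.mul (continuous_apply i)) continuous_const
      · rintro x ⟨h1, h2⟩ i -
        refine ⟨h1 i, ?_⟩
        have h3 : ω i * x i ≤ ∑ j, ω j * x j :=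
          Finset.single_le_sum (fun l _ => mul_nonneg (hω l).le (hm0.le.trans (h1 l)))
            (Finset.mem_univ i)
        rw [le_div_iff₀ (hω i)]
        linarith
    · rintro x ⟨h1, -⟩
      exact (hP x).2 fun i => lt_of_lt_of_le hm0 (h1 i)
    · intro x hx0 hxsol
      obtain ⟨γ, hγ0, hγsol, hγpos⟩ := exists_sol hk hω hin hout hdiss (x 0) ((hP _).1 hx0)
      have hxeq : ∀ t, 0 ≤ t → x t = γ t := by
        intro t ht
        exact sol_unique hfC (fun s hs => (hγsol s hs.1).mono Ico_subset_Ici_self)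
          (fun s hs => (hxsol s hs.1).mono Ico_subset_Ici_self) (by rw [hγ0]) t
          ⟨ht, lt_add_one t⟩
      obtain ⟨T, hT⟩ := hev γ hγsol hγpos
      refine ⟨max T 0, fun t ht => ?_⟩
      rw [hxeq t ((le_max_right _ _).trans ht)]
      exact hT t ((le_max_left _ _).trans ht)

/-! ### Fully open extensions -/

/-- The fully open extension of a network `G`: the reactions of `G` together with the inflow
`0 → X_i` and the outflow `X_i → 0` of every species `i`. -/
def openExt (G : Network d) : Network d where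
  reactions := G.reactions ∪
    (Finset.univ.image (fun i : Fin d => ((0 : Fin d → ℕ), (Pi.single i 1 : Fin d → ℕ))) ∪
      Finset.univ.image (fun i : Fin d => ((Pi.single i 1 : Fin d → ℕ), (0 : Fin d → ℕ))))
  ne := by
    intro r hr
    simp only [Finset.mem_union, Finset.mem_image, Finset.mem_univ, true_and] at hr
    rcases hr with hr | ⟨i, rfl⟩ | ⟨i, rfl⟩
    · exact G.ne r hr
    · intro h
      have h1 := congrFun h i
      simp at h1
    · intro h
      have h1 := congrFun h i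
      simp at h1

lemma mem_openExt {G : Network d} {r : (Fin d → ℕ) × (Fin d → ℕ)} :
    r ∈ (openExt G).reactions ↔ r ∈ G.reactions ∨
      (∃ i : Fin d, ((0 : Fin d → ℕ), (Pi.single i 1 : Fin d → ℕ)) = r) ∨
      (∃ i : Fin d, ((Pi.single i 1 : Fin d → ℕ), (0 : Fin d → ℕ)) = r) := by
  simp only [openExt, Finset.mem_union, Finset.mem_image, Finset.mem_univ, true_and]

lemma openExt_weaklyReversible (G : Network d) (hG : G.WeaklyReversible) :
    (openExt G).WeaklyReversible := by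
  intro r hr
  rcases mem_openExt.1 hr with hr | ⟨i, rfl⟩ | ⟨i, rfl⟩
  · exact Relation.TransGen.mono (fun y y' h => mem_openExt.2 (Or.inl h)) _ _ (hG r hr)
  · exact Relation.TransGen.single (mem_openExt.2 (Or.inr (Or.inr ⟨i, rfl⟩)))
  · exact Relation.TransGen.single (mem_openExt.2 (Or.inr (Or.inl ⟨i, rfl⟩)))

/-- The fully open extension of a network conserving a positive weight `ω` is permanent. -/
theorem permanent_openExt (G : Network d) (ω : Fin d → ℝ) (hω : ∀ i, 0 < ω i)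
    (hcons : ∀ r ∈ G.reactions, ∑ i, ω i * (r.2 i : ℝ) = ∑ i, ω i * (r.1 i : ℝ))
    (k : (Fin d → ℕ) × (Fin d → ℕ) → ℝ) (hk : ∀ r ∈ (openExt G).reactions, 0 < k r)
    (c : Fin d → ℝ) : Permanent ((openExt G).field k) ((openExt G).posClass c) := by
  refine permanent_open (openExt G) k hk ω hω
    (fun i => mem_openExt.2 (Or.inr (Or.inl ⟨i, rfl⟩)))
    (fun i => mem_openExt.2 (Or.inr (Or.inr ⟨i, rfl⟩))) (fun r hr h0 => ?_) c
  rcases mem_openExt.1 hr with hr | ⟨i, rfl⟩ | ⟨i, rfl⟩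
  · have h1 := hcons r hr
    simp only [mul_sub, Finset.sum_sub_distrib]
    linarith
  · exact absurd rfl h0
  · refine Finset.sum_nonpos fun j _ => ?_
    have h1 : (0 : ℝ) ≤ ((Pi.single i 1 : Fin d → ℕ) j : ℝ) := Nat.cast_nonneg _
    have h2 := (hω j).le
    simp only [Pi.zero_apply, Nat.cast_zero, zero_sub]
    nlinarith

end Vale.Agent.Helper14.OpenNetworks
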