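import Vale.Agent.Helper14.OpenNetworks

/-!
Weakly reversible mass-action networks with an outflow `X_i → 0` of every species and a positive
weight `ω` that does not increase along reactions with nonzero source are permanent, for all
positive rate constants. (Weak reversibility is used to show that every species can be produced,
step by step, from the zero complex.)
-/

namespace Vale.Agent.Helper14.OutflowNetworks

open Set Vale.Agent.Helper14.MassAction Vale.Agent.Helper14.OpenNetworks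

variable {d : ℕ}

/-- `Steps N n c`: the complex `c` is reached from the zero complex by a path of exactly `n`
reactions of `N`. -/
def Steps (N : Network d) : ℕ → (Fin d → ℕ) → Prop
  | 0, c => c = 0
  | n + 1, c => ∃ c', Steps N n c' ∧ (c', c) ∈ N.reactions

lemma steps_of_transGen {N : Network d} {c : Fin d → ℕ}
    (h : Relation.TransGen (fun y y' => (y, y') ∈ N.reactions) 0 c) : ∃ n, Steps N n c := by
  induction h with
  | single h => exact ⟨1, 0, rfl, h⟩
  | tail _ h ih =>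
    obtain ⟨n, hn⟩ := ih
    exact ⟨n + 1, _, hn, h⟩

/-- If every species occurs in a complex reachable from `0`, the species can be ranked so that
each species is produced by a reaction whose source only involves species of lower rank. -/
lemma exists_rank {N : Network d} (hreach : ∀ i : Fin d, ∃ n c, Steps N n c ∧ c i ≠ 0) :
    ∃ ρ : Fin d → ℕ, ∀ i, ∃ r ∈ N.reactions, r.1 i = 0 ∧ r.2 i ≠ 0 ∧
      ∀ j, r.1 j ≠ 0 → ρ j < ρ i := by
  classical
  have key : ∀ i, ∃ r ∈ N.reactions, r.1 i = 0 ∧ r.2 i ≠ 0 ∧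
      ∀ j, r.1 j ≠ 0 → Nat.find (hreach j) < Nat.find (hreach i) := by
    intro i
    obtain ⟨c, hc, hci⟩ := Nat.find_spec (hreach i)
    have hmin : ∀ m, m < Nat.find (hreach i) → ¬ ∃ c, Steps N m c ∧ c i ≠ 0 :=
      fun m hm => Nat.find_min (hreach i) hm
    generalize Nat.find (hreach i) = n0 at hc hmin ⊢
    cases n0 with
    | zero =>
      have h0 : c = 0 := hc
      rw [h0] at hci
      exact absurd rfl hci
    | succ n =>
      obtain ⟨c', hc', hr⟩ := hc
      refine ⟨(c', c), hr, ?_, hci, fun j hj => ?_⟩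
      · by_contra h
        exact hmin n (Nat.lt_succ_self n) ⟨c', hc', h⟩
      · have h1 : Nat.find (hreach j) ≤ n := Nat.find_min' (hreach j) ⟨c', hc', hj⟩
        exact Nat.lt_succ_of_le h1
  exact ⟨fun i => Nat.find (hreach i), key⟩

/-- At a point with `x i = 0`, the `i`-th component of the field is at least the rate of any
reaction producing species `i` without consuming it. -/
lemma field_ge_of_zero' {N : Network d} {k : (Fin d → ℕ) × (Fin d → ℕ) → ℝ}
    (hk : ∀ r ∈ N.reactions, 0 ≤ k r) (i : Fin d) {r : (Fin d → ℕ) × (Fin d → ℕ)}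
    (hr : r ∈ N.reactions) (hr1 : r.1 i = 0) (hr2 : r.2 i ≠ 0) {x : Fin d → ℝ}
    (hx : ∀ j, 0 ≤ x j) (hxi : x i = 0) :
    k r * ∏ j, x j ^ r.1 j ≤ N.field k x i := by
  classical
  rw [field_apply]
  have e : k r * ∏ j, x j ^ r.1 j =
      ∑ r' ∈ N.reactions, if r' = r then k r' * ∏ j, x j ^ r'.1 j else 0 := by
    rw [Finset.sum_ite_eq']
    simp [hr]
  rw [e]
  refine Finset.sum_le_sum fun r' hr' => ?_
  have hprod : ∀ r'' : (Fin d → ℕ) × (Fin d → ℕ), 0 ≤ ∏ j, x j ^ r''.1 j :=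
    fun r'' => Finset.prod_nonneg fun j _ => pow_nonneg (hx j) _
  split_ifs with h
  · subst h
    have h1 : (1 : ℝ) ≤ rvec r' i := by
      have h2 : 1 ≤ r'.2 i := Nat.one_le_iff_ne_zero.2 hr2
      have h3 : (1 : ℝ) ≤ (r'.2 i : ℝ) := by exact_mod_cast h2
      simp only [rvec, hr1, Nat.cast_zero, sub_zero]
      exact h3
    have h4 : 0 ≤ k r' * ∏ j, x j ^ r'.1 j := mul_nonneg (hk r' hr') (hprod r')
    nlinarith
  · by_cases hri : r'.1 i = 0
    · have h1 : 0 ≤ rvec r' i := by simp [rvec, hri]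
      exact mul_nonneg (mul_nonneg (hk r' hr') (hprod r')) h1
    · have h2 : ∏ j, x j ^ r'.1 j = 0 :=
        Finset.prod_eq_zero (Finset.mem_univ i) (by rw [hxi]; exact zero_pow hri)
      simp [h2]

/-- Lower bound for the `i`-th component of the field on a box `∏ [0, hi j]`. -/
lemma field_lower' {N : Network d} {k : (Fin d → ℕ) × (Fin d → ℕ) → ℝ}
    (hk : ∀ r ∈ N.reactions, 0 ≤ k r) {hi : Fin d → ℝ} {K : NNReal}
    (hK : LipschitzOnWith K (N.field k) (Set.pi univ fun j => Icc (0 : ℝ) (hi j))) (i : Fin d)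
    {r : (Fin d → ℕ) × (Fin d → ℕ)}
    (hr : r ∈ N.reactions) (hr1 : r.1 i = 0) (hr2 : r.2 i ≠ 0) {x : Fin d → ℝ}
    (hx : x ∈ Set.pi univ fun j => Icc (0 : ℝ) (hi j)) :
    k r * ∏ j, x j ^ r.1 j - K * x i ≤ N.field k x i := by
  have hxi := hx i (mem_univ i)
  have hx' : Function.update x i 0 ∈ Set.pi univ fun j => Icc (0 : ℝ) (hi j) := by
    intro j _
    by_cases hj : j = i
    · subst hj
      simpa using hxi.1.trans hxi.2
    · simpa [Function.update_of_ne hj] using hx j (mem_univ j)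
  have hprod : ∏ j, Function.update x i 0 j ^ r.1 j = ∏ j, x j ^ r.1 j := by
    refine Finset.prod_congr rfl fun j _ => ?_
    by_cases hj : j = i
    · subst hj
      rw [hr1, pow_zero, pow_zero]
    · rw [Function.update_of_ne hj]
  have h1 : k r * ∏ j, x j ^ r.1 j ≤ N.field k (Function.update x i 0) i := by
    rw [← hprod]
    exact field_ge_of_zero' hk i hr hr1 hr2 (fun j => (hx' j (mem_univ j)).1) (by simp)
  have h2 : dist (N.field k x) (N.field k (Function.update x i 0)) ≤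
      K * dist x (Function.update x i 0) := hK.dist_le_mul x hx _ hx'
  have h3 : dist x (Function.update x i 0) ≤ x i := by
    refine (dist_pi_le_iff hxi.1).2 fun j => ?_
    by_cases hj : j = i
    · subst hj
      simp [abs_of_nonneg hxi.1]
    · simp [Function.update_of_ne hj, hxi.1]
  have h4 : dist (N.field k x i) (N.field k (Function.update x i 0) i) ≤
      dist (N.field k x) (N.field k (Function.update x i 0)) := dist_le_pi_dist _ _ i
  rw [Real.dist_eq] at h4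
  have h5 := abs_le.1 h4
  have h6 : (K : ℝ) * dist x (Function.update x i 0) ≤ K * x i :=
    mul_le_mul_of_nonneg_left h3 K.coe_nonneg
  linarith [h5.1]

/-- Nested lower bounds `m i` adapted to a ranking of the species. -/
lemma exists_lower {k : (Fin d → ℕ) × (Fin d → ℕ) → ℝ} (ρ : Fin d → ℕ)
    (w : Fin d → (Fin d → ℕ) × (Fin d → ℕ)) (hkw : ∀ i, 0 < k (w i))
    (hw : ∀ i j, (w i).1 j ≠ 0 → ρ j < ρ i) {K : ℝ} (hK : 0 ≤ K) {m0 : ℝ} (hm0 : 0 < m0) :
    ∃ m : Fin d → ℝ, (∀ i, 0 < m i) ∧ (∀ i, m i ≤ m0) ∧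
      ∀ i, K * m i < k (w i) * ∏ j, m j ^ (w i).1 j := by
  obtain ⟨κ, hκ0, hκ⟩ := exists_pos_le (fun i => k (w i)) hkw
  set D : ℕ := ∑ i, ∑ j, (w i).1 j with hD
  have hDi : ∀ i, ∑ j, (w i).1 j ≤ D := fun i =>
    Finset.single_le_sum (f := fun i => ∑ j, (w i).1 j) (fun _ _ => Nat.zero_le _)
      (Finset.mem_univ i)
  have hK1 : (0 : ℝ) < 2 * (K + 1) := by positivity
  obtain ⟨μ, hμ0, hμs⟩ : ∃ μ : ℕ → ℝ, μ 0 = min 1 m0 ∧
      ∀ n, μ (n + 1) = min (μ n) (κ * μ n ^ D / (2 * (K + 1))) :=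
    ⟨fun n => Nat.rec (min 1 m0) (fun _ a => min a (κ * a ^ D / (2 * (K + 1)))) n, rfl,
      fun n => rfl⟩
  have hμpos : ∀ n, 0 < μ n := by
    intro n
    induction n with
    | zero => rw [hμ0]; exact lt_min one_pos hm0
    | succ n ih => rw [hμs]; exact lt_min ih (div_pos (mul_pos hκ0 (pow_pos ih D)) hK1)
  have hμanti : Antitone μ :=
    antitone_nat_of_succ_le fun n => by rw [hμs]; exact min_le_left _ _
  have hμle1 : ∀ n, μ n ≤ 1 := fun n =>
    (hμanti (Nat.zero_le n)).trans (by rw [hμ0]; exact min_le_left _ _)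
  have hμlem0 : ∀ n, μ n ≤ m0 := fun n =>
    (hμanti (Nat.zero_le n)).trans (by rw [hμ0]; exact min_le_right _ _)
  refine ⟨fun i => μ (ρ i + 1), fun i => hμpos (ρ i + 1), fun i => hμlem0 (ρ i + 1), fun i => ?_⟩
  have h1 : μ (ρ i) ^ D ≤ ∏ j, μ (ρ j + 1) ^ (w i).1 j := by
    calc μ (ρ i) ^ D ≤ μ (ρ i) ^ (∑ j, (w i).1 j) :=
          pow_le_pow_of_le_one (hμpos _).le (hμle1 _) (hDi i)
      _ = ∏ j, μ (ρ i) ^ (w i).1 j := (Finset.prod_pow_eq_pow_sum _ _ _).symm
      _ ≤ ∏ j, μ (ρ j + 1) ^ (w i).1 j := by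
        refine Finset.prod_le_prod (fun j _ => pow_nonneg (hμpos _).le _) (fun j _ => ?_)
        by_cases h : (w i).1 j = 0
        · rw [h, pow_zero, pow_zero]
        · exact pow_le_pow_left₀ (hμpos _).le (hμanti (hw i j h)) _
  have h2 : μ (ρ i + 1) ≤ κ * μ (ρ i) ^ D / (2 * (K + 1)) := by
    rw [hμs]; exact min_le_right _ _
  rw [le_div_iff₀ hK1] at h2
  have h3 : 0 < μ (ρ i + 1) := hμpos _
  have hP : 0 < κ * μ (ρ i) ^ D := mul_pos hκ0 (pow_pos (hμpos _) D)
  have h4 : κ * μ (ρ i) ^ D ≤ k (w i) * ∏ j, μ (ρ j + 1) ^ (w i).1 j :=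
    le_trans (mul_le_mul_of_nonneg_right (hκ i) (pow_nonneg (hμpos _).le _))
      (mul_le_mul_of_nonneg_left h1 (hkw i).le)
  have h5 : μ (ρ i + 1) * (2 * (K + 1)) = 2 * (K * μ (ρ i + 1)) + 2 * μ (ρ i + 1) := by ring
  show K * μ (ρ i + 1) < k (w i) * ∏ j, μ (ρ j + 1) ^ (w i).1 j
  linarith

/-! ### Dynamics -/

section dynamics

variable {N : Network d} {k : (Fin d → ℕ) × (Fin d → ℕ) → ℝ} {ω : Fin d → ℝ}

/-- From every positive initial point there is a global positive solution. -/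
lemma exists_sol' (hk : ∀ r ∈ N.reactions, 0 < k r) (hω : ∀ i, 0 < ω i)
    (ρ : Fin d → ℕ) (w : Fin d → (Fin d → ℕ) × (Fin d → ℕ))
    (hwmem : ∀ i, w i ∈ N.reactions) (hw1 : ∀ i, (w i).1 i = 0) (hw2 : ∀ i, (w i).2 i ≠ 0)
    (hw : ∀ i j, (w i).1 j ≠ 0 → ρ j < ρ i)
    (hout : ∀ i, ((Pi.single i 1 : Fin d → ℕ), (0 : Fin d → ℕ)) ∈ N.reactions)
    (hdiss : ∀ r ∈ N.reactions, r.1 ≠ 0 → ∑ i, ω i * ((r.2 i : ℝ) - (r.1 i : ℝ)) ≤ 0)
    (x0 : Fin d → ℝ) (hx0 : ∀ i, 0 < x0 i) :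
    ∃ γ : ℝ → Fin d → ℝ, γ 0 = x0 ∧ IsSolOn (N.field k) γ (Ici 0) ∧
      ∀ t, 0 ≤ t → ∀ i, 0 < γ t i := by
  have hk0 : ∀ r ∈ N.reactions, 0 ≤ k r := fun r hr => (hk r hr).le
  have hω0 : ∀ i, 0 ≤ ω i := fun i => (hω i).le
  obtain ⟨β, hβ0, hβ⟩ := exists_pos_le
    (fun i : Fin d => k ((Pi.single i 1 : Fin d → ℕ), (0 : Fin d → ℕ))) (fun i => hk _ (hout i))
  set A := ∑ r ∈ N.reactions, k r * ∑ i, ω i * (r.2 i : ℝ) with hA
  have hA0 : 0 ≤ A := Finset.sum_nonneg fun r hr =>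
    mul_nonneg (hk0 r hr) (Finset.sum_nonneg fun i _ => mul_nonneg (hω0 i) (Nat.cast_nonneg _))
  set M := max (∑ i, ω i * x0 i) (A / β + 1) with hM
  have hM1 : A + β ≤ β * M := by
    have h1 : A / β + 1 ≤ M := le_max_right _ _
    have h2 : A / β ≤ M - 1 := by linarith
    rw [div_le_iff₀ hβ0] at h2
    nlinarith
  have hMpos : 0 < M := lt_of_lt_of_le (by positivity) (le_max_right _ _)
  set hi : Fin d → ℝ := fun j => M / ω j with hhidef
  have hhi : ∀ j, 0 < hi j := fun j => div_pos hMpos (hω j)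
  have hcomp : IsCompact (Set.pi univ fun j => Icc (0 : ℝ) (hi j)) :=
    isCompact_univ_pi fun _ => isCompact_Icc
  obtain ⟨K, hK⟩ :=
    (contDiff_field N k).locallyLipschitz.locallyLipschitzOn.exists_lipschitzOnWith_of_compact hcomp
  obtain ⟨m1, hm10, hm1⟩ := exists_pos_le x0 hx0
  obtain ⟨m2, hm20, hm2⟩ := exists_pos_le hi hhi
  obtain ⟨m, hm0, hmle, hmK⟩ := exists_lower (k := k) ρ w (fun i => hk _ (hwmem i)) hw
    K.coe_nonneg (lt_min hm10 hm20)
  have hlohi : ∀ j, m j ≤ hi j := fun j => ((hmle j).trans (min_le_right _ _)).trans (hm2 j)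
  obtain ⟨L', K', hL', hK'⟩ := exists_bound_lipschitz_clamp (contDiff_field N k) hlohi
  obtain ⟨γ, hγ0, hγ⟩ := exists_global_sol (N.field k ∘ clamp m hi) L' K' hL' hK' x0
  have hsol : IsSolOn (N.field k ∘ clamp m hi) γ (Ici 0) := hγ
  have hclbox : ∀ t, clamp m hi (γ t) ∈ Set.pi univ fun j => Icc (0 : ℝ) (hi j) := by
    intro t j _
    have h := clamp_mem hlohi (γ t) j (mem_univ j)
    exact ⟨(hm0 j).le.trans h.1, h.2⟩
  -- lower barriers
  have hlow : ∀ i, ∀ t, 0 ≤ t → m i ≤ γ t i := by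
    intro i
    refine barrier_ge (hsol.coord i le_rfl)
      (by rw [hγ0]; exact ((hmle i).trans (min_le_left _ _)).trans (hm1 i))
      (fun t _ h => ?_)
    have hci : clamp m hi (γ t) i = m i := by
      rw [clamp_apply_of_mem (by rw [h]) (by rw [h]; exact hlohi i)]
      exact h
    have h1 := field_lower' hk0 hK i (hwmem i) (hw1 i) (hw2 i) (hclbox t)
    rw [hci] at h1
    have h3 : ∏ j, m j ^ (w i).1 j ≤ ∏ j, clamp m hi (γ t) j ^ (w i).1 j :=
      Finset.prod_le_prod (fun j _ => pow_nonneg (hm0 j).le _)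
        (fun j _ => pow_le_pow_left₀ (hm0 j).le (clamp_mem hlohi (γ t) j (mem_univ j)).1 _)
    have h4 := mul_le_mul_of_nonneg_left h3 (hk0 _ (hwmem i))
    have h2 : (N.field k ∘ clamp m hi) (γ t) i = N.field k (clamp m hi (γ t)) i := rfl
    rw [h2]
    linarith [hmK i]
  -- upper barrier for the weighted sum
  have hderivL : ∀ t ∈ Ici (0 : ℝ), HasDerivWithinAt (fun s => ∑ j, ω j * γ s j)
      (∑ j, ω j * (N.field k ∘ clamp m hi) (γ t) j) (Ici 0) t := by
    intro t ht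
    exact HasDerivWithinAt.fun_sum fun j _ => (hsol.coord j le_rfl t ht).const_mul (ω j)
  have hhile : ∀ t, 0 ≤ t → ∑ j, ω j * γ t j ≤ M → ∀ j, γ t j ≤ hi j := by
    intro t ht h j
    have h1 : ω j * γ t j ≤ ∑ j, ω j * γ t j :=
      Finset.single_le_sum (fun l _ => mul_nonneg (hω0 l) ((hm0 l).le.trans (hlow l t ht)))
        (Finset.mem_univ j)
    rw [hhidef, le_div_iff₀ (hω j)]
    linarith
  have hup : ∀ t, 0 ≤ t → ∑ j, ω j * γ t j ≤ M := by
    refine barrier_le hderivL (by rw [hγ0]; exact le_max_left _ _) (fun t ht h => ?_)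
    have hcl : clamp m hi (γ t) = γ t := by
      ext j
      exact clamp_apply_of_mem (hlow j t ht) (hhile t ht h.le j)
    simp only [Function.comp_apply, hcl]
    have h1 := dissipation hk0 hω0 hout hdiss hβ (x := γ t)
      (fun j => (hm0 j).le.trans (hlow j t ht))
    rw [h] at h1
    linarith
  have hcl : ∀ t, 0 ≤ t → clamp m hi (γ t) = γ t := by
    intro t ht
    ext j
    exact clamp_apply_of_mem (hlow j t ht) (hhile t ht (hup t ht) j)
  refine ⟨γ, hγ0, fun t ht => ?_, fun t ht i => lt_of_lt_of_le (hm0 i) (hlow i t ht)⟩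
  have h := hsol t ht
  rwa [Function.comp_apply, hcl t ht] at h

/-- All global positive solutions eventually enter one fixed region
`{x | (∀ i, m i ≤ x i) ∧ ∑ ω i * x i ≤ M}`. -/
lemma eventually_in' (hk : ∀ r ∈ N.reactions, 0 < k r) (hω : ∀ i, 0 < ω i)
    (ρ : Fin d → ℕ) (w : Fin d → (Fin d → ℕ) × (Fin d → ℕ))
    (hwmem : ∀ i, w i ∈ N.reactions) (hw1 : ∀ i, (w i).1 i = 0) (hw2 : ∀ i, (w i).2 i ≠ 0)
    (hw : ∀ i j, (w i).1 j ≠ 0 → ρ j < ρ i)
    (hout : ∀ i, ((Pi.single i 1 : Fin d → ℕ), (0 : Fin d → ℕ)) ∈ N.reactions)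
    (hdiss : ∀ r ∈ N.reactions, r.1 ≠ 0 → ∑ i, ω i * ((r.2 i : ℝ) - (r.1 i : ℝ)) ≤ 0) :
    ∃ (m : Fin d → ℝ) (M : ℝ), (∀ i, 0 < m i) ∧ ∀ γ : ℝ → Fin d → ℝ,
      IsSolOn (N.field k) γ (Ici 0) → (∀ t, 0 ≤ t → ∀ i, 0 < γ t i) →
      ∃ T, ∀ t, T ≤ t → (∀ i, m i ≤ γ t i) ∧ ∑ i, ω i * γ t i ≤ M := by
  have hk0 : ∀ r ∈ N.reactions, 0 ≤ k r := fun r hr => (hk r hr).le
  have hω0 : ∀ i, 0 ≤ ω i := fun i => (hω i).le
  obtain ⟨β, hβ0, hβ⟩ := exists_pos_le
    (fun i : Fin d => k ((Pi.single i 1 : Fin d → ℕ), (0 : Fin d → ℕ))) (fun i => hk _ (hout i))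
  set A := ∑ r ∈ N.reactions, k r * ∑ i, ω i * (r.2 i : ℝ) with hA
  have hA0 : 0 ≤ A := Finset.sum_nonneg fun r hr =>
    mul_nonneg (hk0 r hr) (Finset.sum_nonneg fun i _ => mul_nonneg (hω0 i) (Nat.cast_nonneg _))
  set M := A / β + 1 with hM
  have hM1 : β * M = A + β := by
    rw [hM]; field_simp
  have hMpos : 0 < M := by positivity
  set hi : Fin d → ℝ := fun j => M / ω j with hhidef
  have hcomp : IsCompact (Set.pi univ fun j => Icc (0 : ℝ) (hi j)) :=
    isCompact_univ_pi fun _ => isCompact_Icc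
  obtain ⟨K, hK⟩ :=
    (contDiff_field N k).locallyLipschitz.locallyLipschitzOn.exists_lipschitzOnWith_of_compact hcomp
  obtain ⟨m, hm0, -, hmK⟩ := exists_lower (k := k) ρ w (fun i => hk _ (hwmem i)) hw
    K.coe_nonneg one_pos
  refine ⟨m, M, hm0, fun γ hγ hpos => ?_⟩
  have hderivL : ∀ t ∈ Ici (0 : ℝ), HasDerivWithinAt (fun s => ∑ j, ω j * γ s j)
      (∑ j, ω j * N.field k (γ t) j) (Ici 0) t := by
    intro t ht
    exact HasDerivWithinAt.fun_sum fun j _ => (hγ.coord j le_rfl t ht).const_mul (ω j)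
  obtain ⟨T1, hT1, h1⟩ := eventually_le (δ := β) (M := M) hβ0 hderivL (fun t ht h => by
    have h2 := dissipation hk0 hω0 hout hdiss hβ (x := γ t) (fun j => (hpos t ht j).le)
    have h3 : β * M ≤ β * ∑ i, ω i * γ t i := mul_le_mul_of_nonneg_left h hβ0.le
    linarith)
  have hbox : ∀ t, T1 ≤ t → γ t ∈ Set.pi univ fun j => Icc (0 : ℝ) (hi j) := by
    intro t ht j _
    have ht0 : 0 ≤ t := hT1.trans ht
    refine ⟨(hpos t ht0 j).le, ?_⟩
    have h2 : ω j * γ t j ≤ ∑ j, ω j * γ t j :=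
      Finset.single_le_sum (fun l _ => mul_nonneg (hω0 l) (hpos t ht0 l).le) (Finset.mem_univ j)
    rw [hhidef, le_div_iff₀ (hω j)]
    linarith [h1 t ht]
  have hcoord : ∀ n, ∀ i, ρ i = n → ∃ T, T1 ≤ T ∧ ∀ t, T ≤ t → m i ≤ γ t i := by
    intro n
    induction n using Nat.strong_induction_on with
    | _ n ih =>
      intro i hin
      have hj : ∀ j, ∃ T, T1 ≤ T ∧ ((w i).1 j ≠ 0 → ∀ t, T ≤ t → m j ≤ γ t j) := by
        intro j
        by_cases h : (w i).1 j = 0
        · exact ⟨T1, le_rfl, fun h' => absurd h h'⟩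
        · obtain ⟨T, hT, hT'⟩ := ih (ρ j) (by rw [← hin]; exact hw i j h) j rfl
          exact ⟨T, hT, fun _ => hT'⟩
      choose Tj hTj1 hTj using hj
      obtain ⟨Tmax, hTmax⟩ := Finite.bddAbove_range Tj
      have hT2 : T1 ≤ max Tmax T1 := le_max_right _ _
      have hT20 : 0 ≤ max Tmax T1 := hT1.trans hT2
      have hev : ∃ T, max Tmax T1 ≤ T ∧ ∀ t, T ≤ t → m i ≤ γ t i := by
        refine eventually_ge (δ := k (w i) * ∏ j, m j ^ (w i).1 j - K * m i)
          (by linarith [hmK i]) (hγ.coord i hT20) (fun t ht h => ?_)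
        have h2 := field_lower' hk0 hK i (hwmem i) (hw1 i) (hw2 i) (hbox t (hT2.trans ht))
        have h3 : ∏ j, m j ^ (w i).1 j ≤ ∏ j, γ t j ^ (w i).1 j := by
          refine Finset.prod_le_prod (fun j _ => pow_nonneg (hm0 j).le _) (fun j _ => ?_)
          by_cases hz : (w i).1 j = 0
          · rw [hz, pow_zero, pow_zero]
          · exact pow_le_pow_left₀ (hm0 j).le (hTj j hz t
              (((hTmax (mem_range_self j)).trans (le_max_left _ _)).trans ht)) _
        have h4 := mul_le_mul_of_nonneg_left h3 (hk0 _ (hwmem i))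
        have h5 : (K : ℝ) * γ t i ≤ K * m i := mul_le_mul_of_nonneg_left h K.coe_nonneg
        linarith
      obtain ⟨T, hT, hT'⟩ := hev
      exact ⟨T, hT2.trans hT, hT'⟩
  have hcoord' : ∀ i, ∃ T, T1 ≤ T ∧ ∀ t, T ≤ t → m i ≤ γ t i := fun i => hcoord (ρ i) i rfl
  choose T hT1' hT using hcoord'
  obtain ⟨Tmax, hTmax⟩ := Finite.bddAbove_range T
  refine ⟨max Tmax T1, fun t ht => ⟨fun i => ?_, h1 t ((le_max_right _ _).trans ht)⟩⟩
  exact hT i t ((hTmax (mem_range_self i)).trans ((le_max_left _ _).trans ht))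

end dynamics

/-- Permanence for networks in which every species has an outflow `X_i → 0`, occurs in some
complex reachable from the zero complex, and a positive weight `ω` is non-increasing along
every reaction with nonzero source. -/
theorem permanent_of_reach (N : Network d) (k : (Fin d → ℕ) × (Fin d → ℕ) → ℝ)
    (hk : ∀ r ∈ N.reactions, 0 < k r) (ω : Fin d → ℝ) (hω : ∀ i, 0 < ω i)
    (hreach : ∀ i : Fin d, ∃ n c, Steps N n c ∧ c i ≠ 0)
    (hout : ∀ i, ((Pi.single i 1 : Fin d → ℕ), (0 : Fin d → ℕ)) ∈ N.reactions)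
    (hdiss : ∀ r ∈ N.reactions, r.1 ≠ 0 → ∑ i, ω i * ((r.2 i : ℝ) - (r.1 i : ℝ)) ≤ 0)
    (c : Fin d → ℝ) : Permanent (N.field k) (N.posClass c) := by
  obtain ⟨ρ, hρ⟩ := exists_rank hreach
  choose w hwmem hw1 hw2 hw using hρ
  have hfC : ContDiff ℝ 1 (N.field k) := contDiff_field N k
  have hstoich : ∀ v : Fin d → ℝ, v ∈ N.stoich := by
    intro v
    have hv : v = ∑ i, (-v i) • rvec ((Pi.single i 1 : Fin d → ℕ), (0 : Fin d → ℕ)) := by
      ext j
      simp [rvec, Finset.sum_apply, Pi.single_apply]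
    rw [hv]
    exact Submodule.sum_mem _ fun i _ =>
      Submodule.smul_mem _ _ (Submodule.subset_span ⟨_, hout i, rfl⟩)
  have hP : ∀ x, x ∈ N.posClass c ↔ ∀ i, 0 < x i :=
    fun x => ⟨fun h => h.1, fun h => ⟨h, hstoich _⟩⟩
  obtain ⟨m, M, hm0, hev⟩ := eventually_in' (k := k) hk hω ρ w hwmem hw1 hw2 hw hout hdiss
  refine ⟨fun x0 hx0 => ?_, ?_⟩
  · obtain ⟨γ, hγ0, hγsol, hγpos⟩ :=
      exists_sol' hk hω ρ w hwmem hw1 hw2 hw hout hdiss x0 ((hP x0).1 hx0)
    exact ⟨γ, hγ0, hγsol, hγpos, fun T₀ y hy0 hy t ht =>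
      sol_unique hfC (fun s hs => (hγsol s hs.1).mono Ico_subset_Ici_self) hy
        (by rw [hy0, hγ0]) t ht⟩
  · refine ⟨{x | (∀ i, m i ≤ x i) ∧ ∑ i, ω i * x i ≤ M}, ?_, ?_, ?_⟩
    · have hbig : IsCompact (Set.pi univ fun i => Icc (m i) (M / ω i)) :=
        isCompact_univ_pi fun _ => isCompact_Icc
      refine hbig.of_isClosed_subset ?_ ?_
      · refine IsClosed.and ?_ ?_
        · have e : {x : Fin d → ℝ | ∀ i, m i ≤ x i} = ⋂ i, {x : Fin d → ℝ | m i ≤ x i} := by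
            ext x; simp
          rw [e]
          exact isClosed_iInter fun i => isClosed_le continuous_const (continuous_apply i)
        · exact isClosed_le (continuous_finsetSum _ fun i _ =>
            continuous_const.mul (continuous_apply i)) continuous_const
      · rintro x ⟨h1, h2⟩ i -
        refine ⟨h1 i, ?_⟩
        have h3 : ω i * x i ≤ ∑ j, ω j * x j :=
          Finset.single_le_sum (fun l _ => mul_nonneg (hω l).le ((hm0 l).le.trans (h1 l)))
            (Finset.mem_univ i)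
        rw [le_div_iff₀ (hω i)]
        linarith
    · rintro x ⟨h1, -⟩
      exact (hP x).2 fun i => lt_of_lt_of_le (hm0 i) (h1 i)
    · intro x hx0 hxsol
      obtain ⟨γ, hγ0, hγsol, hγpos⟩ :=
        exists_sol' hk hω ρ w hwmem hw1 hw2 hw hout hdiss (x 0) ((hP _).1 hx0)
      have hxeq : ∀ t, 0 ≤ t → x t = γ t := by
        intro t ht
        exact sol_unique hfC (fun s hs => (hγsol s hs.1).mono Ico_subset_Ici_self)
          (fun s hs => (hxsol s hs.1).mono Ico_subset_Ici_self) (by rw [hγ0]) t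
          ⟨ht, lt_add_one t⟩
      obtain ⟨T, hT⟩ := hev γ hγsol hγpos
      refine ⟨max T 0, fun t ht => ?_⟩
      rw [hxeq t ((le_max_right _ _).trans ht)]
      exact hT t ((le_max_left _ _).trans ht)

/-- **Permanence of weakly reversible networks with outflows and a dissipative weight.** -/
theorem permanent_weaklyReversible (N : Network d) (hN : N.WeaklyReversible)
    (k : (Fin d → ℕ) × (Fin d → ℕ) → ℝ) (hk : ∀ r ∈ N.reactions, 0 < k r) (ω : Fin d → ℝ)
    (hω : ∀ i, 0 < ω i)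
    (hout : ∀ i, ((Pi.single i 1 : Fin d → ℕ), (0 : Fin d → ℕ)) ∈ N.reactions)
    (hdiss : ∀ r ∈ N.reactions, r.1 ≠ 0 → ∑ i, ω i * ((r.2 i : ℝ) - (r.1 i : ℝ)) ≤ 0)
    (c : Fin d → ℝ) : Permanent (N.field k) (N.posClass c) := by
  refine permanent_of_reach N k hk ω hω (fun i => ?_) hout hdiss c
  obtain ⟨n, hn⟩ := steps_of_transGen (hN _ (hout i))
  exact ⟨n, _, hn, by simp⟩

end Vale.Agent.Helper14.OutflowNetworks
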