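import Mathlib

/-!
Averaging identities over all functions `Fin s → Fin n` (support lemmas for P037).
-/

namespace Helper14.P037Sums

open Finset

/-- Averaging a function of one coordinate, over an arbitrary finite index type. -/
theorem sum_fun_single_gen {ι : Type*} [Fintype ι] [DecidableEq ι] (n : ℕ)
    (g : Fin n → ℕ) (i : ι) :
    n * ∑ f : ι → Fin n, g (f i) = n ^ Fintype.card ι * ∑ q, g q := by
  have h1 : ∑ f : ι → Fin n, g (f i) = ∑ p : Fin n × ({j // j ≠ i} → Fin n), g p.1 := by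
    apply Fintype.sum_equiv (Equiv.funSplitAt i (Fin n))
    intro f
    rfl
  have hc : Fintype.card {j // j ≠ i} + 1 = Fintype.card ι := by
    have h2 := Fintype.card_subtype_compl (fun j : ι => j = i)
    have h3 : Fintype.card {j : ι // j = i} = 1 := Fintype.card_subtype_eq i
    have h4 : 0 < Fintype.card ι := Fintype.card_pos_iff.mpr ⟨i⟩
    have h5 : Fintype.card {j // j ≠ i} = Fintype.card {j : ι // ¬ j = i} := rfl
    omega
  rw [h1, Fintype.sum_prod_type]
  simp only [Finset.sum_const, Finset.card_univ, smul_eq_mul, Fintype.card_pi,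
    Finset.prod_const, Fintype.card_fin]
  rw [← Finset.mul_sum, ← hc, pow_succ]
  ring

/-- (G2) Averaging a function of one coordinate. -/
theorem sum_fun_single (s n : ℕ) (g : Fin n → ℕ) (i : Fin s) :
    n * ∑ f : Fin s → Fin n, g (f i) = n ^ s * ∑ q, g q := by
  have h := sum_fun_single_gen n g i
  rwa [Fintype.card_fin] at h

/-- Averaging a function of two distinct coordinates, arbitrary finite index type. -/
theorem sum_fun_pair_gen {ι : Type*} [Fintype ι] [DecidableEq ι] (n : ℕ)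
    (g : Fin n → Fin n → ℕ) (i j : ι) (hij : i ≠ j) :
    n ^ 2 * ∑ f : ι → Fin n, g (f i) (f j) = n ^ Fintype.card ι * ∑ q, ∑ q2, g q q2 := by
  have h1 : ∑ f : ι → Fin n, g (f i) (f j)
      = ∑ p : Fin n × ({k // k ≠ i} → Fin n), g p.1 (p.2 ⟨j, hij.symm⟩) := by
    apply Fintype.sum_equiv (Equiv.funSplitAt i (Fin n))
    intro f
    rfl
  have hc : Fintype.card {j // j ≠ i} + 1 = Fintype.card ι := by
    have h2 := Fintype.card_subtype_compl (fun j : ι => j = i)
    have h3 : Fintype.card {j : ι // j = i} = 1 := Fintype.card_subtype_eq i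
    have h4 : 0 < Fintype.card ι := Fintype.card_pos_iff.mpr ⟨i⟩
    have h5 : Fintype.card {j // j ≠ i} = Fintype.card {j : ι // ¬ j = i} := rfl
    omega
  rw [h1, Fintype.sum_prod_type]
  have h6 : ∀ q : Fin n, n * ∑ r : {k // k ≠ i} → Fin n, g q (r ⟨j, hij.symm⟩)
      = n ^ Fintype.card {k // k ≠ i} * ∑ q2, g q q2 := fun q =>
    sum_fun_single_gen n (g q) (⟨j, hij.symm⟩ : {k // k ≠ i})
  calc n ^ 2 * ∑ q, ∑ r : {k // k ≠ i} → Fin n, g q (r ⟨j, hij.symm⟩)
      = n * ∑ q, n * ∑ r : {k // k ≠ i} → Fin n, g q (r ⟨j, hij.symm⟩) := by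
        rw [← Finset.mul_sum]; ring
    _ = n * ∑ q, n ^ Fintype.card {k // k ≠ i} * ∑ q2, g q q2 := by
        simp only [h6]
    _ = n ^ Fintype.card ι * ∑ q, ∑ q2, g q q2 := by
        rw [← Finset.mul_sum, ← hc, pow_succ]; ring

/-- (G1) Averaging a function of two distinct coordinates. -/
theorem sum_fun_pair (s n : ℕ) (g : Fin n → Fin n → ℕ) (i j : Fin s) (hij : i ≠ j) :
    n ^ 2 * ∑ f : Fin s → Fin n, g (f i) (f j) = n ^ s * ∑ q, ∑ q2, g q q2 := by
  have h := sum_fun_pair_gen n g i j hij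
  rwa [Fintype.card_fin] at h

theorem pow_succ_add_le (n s : ℕ) : n ^ (s + 1) + (s + 1) * n ^ s ≤ (n + 1) ^ (s + 1) := by
  induction s with
  | zero => simp
  | succ s ih =>
    have h1 : (n ^ (s + 1) + (s + 1) * n ^ s) * (n + 1)
        = n ^ (s + 1 + 1) + (s + 1 + 1) * n ^ (s + 1) + (s + 1) * n ^ s := by ring
    have h2 : (n ^ (s + 1) + (s + 1) * n ^ s) * (n + 1) ≤ (n + 1) ^ (s + 1) * (n + 1) :=
      Nat.mul_le_mul_right _ ih
    have h3 : (n + 1) ^ (s + 1) * (n + 1) = (n + 1) ^ (s + 1 + 1) := by ring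
    omega

theorem succ_mul_sum_pow_le (s n : ℕ) : (s + 1) * ∑ j ∈ range n, j ^ s ≤ n ^ (s + 1) := by
  induction n with
  | zero => simp
  | succ n ih =>
    rw [Finset.sum_range_succ, Nat.mul_add]
    have := pow_succ_add_le n s
    omega

theorem succ_mul_sum_sub_pow_le (s n : ℕ) :
    (s + 1) * ∑ k ∈ range n, (n - k) ^ s ≤ n ^ (s + 1) + (s + 1) * n ^ s := by
  have h1 : ∑ k ∈ range n, (n - k) ^ s = ∑ j ∈ range n, (j + 1) ^ s := by
    rw [← Finset.sum_range_reflect (fun j => (j + 1) ^ s) n]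
    apply Finset.sum_congr rfl
    intro k hk
    rw [Finset.mem_range] at hk
    congr 1
    omega
  have h2 : ∑ j ∈ range (n + 1), j ^ s = ∑ j ∈ range n, (j + 1) ^ s + 0 ^ s :=
    Finset.sum_range_succ' (fun j => j ^ s) n
  have h3 : ∑ j ∈ range (n + 1), j ^ s = ∑ j ∈ range n, j ^ s + n ^ s :=
    Finset.sum_range_succ (fun j => j ^ s) n
  have h4 : ∑ j ∈ range n, (j + 1) ^ s ≤ ∑ j ∈ range n, j ^ s + n ^ s := by
    generalize (0 : ℕ) ^ s = z at h2
    omega
  have h5 := succ_mul_sum_pow_le s n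
  calc (s + 1) * ∑ k ∈ range n, (n - k) ^ s
      = (s + 1) * ∑ j ∈ range n, (j + 1) ^ s := by rw [h1]
    _ ≤ (s + 1) * (∑ j ∈ range n, j ^ s + n ^ s) := Nat.mul_le_mul_left _ h4
    _ = (s + 1) * ∑ j ∈ range n, j ^ s + (s + 1) * n ^ s := by ring
    _ ≤ n ^ (s + 1) + (s + 1) * n ^ s := by omega

theorem card_avoid (s n : ℕ) (K : Finset (Fin n)) :
    (Finset.univ.filter fun f : Fin s → Fin n => ∀ i, f i ∉ K).card = (n - K.card) ^ s := by
  have h : (Finset.univ.filter fun f : Fin s → Fin n => ∀ i, f i ∉ K)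
      = Fintype.piFinset (fun _ => Kᶜ) := by
    ext f
    simp [Fintype.mem_piFinset]
  rw [h, Fintype.card_piFinset]
  simp [Finset.card_compl]

/-- (G5) -/
theorem sum_unserved (s n : ℕ) (J : Finset (Fin n)) :
    (s + 1) * ∑ f : Fin s → Fin n, (J.filter fun r => ∀ i, ¬ (f i < r ∧ f i ∈ J)).card
      ≤ n ^ (s + 1) + (s + 1) * n ^ s := by
  classical
  set rank : Fin n → ℕ := fun r => (J.filter (· < r)).card with hrank
  have hinj : Set.InjOn rank (J : Set (Fin n)) := by
    have key : ∀ r1 ∈ J, ∀ r2 ∈ J, r1 < r2 → rank r1 < rank r2 := by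
      intro r1 h1 r2 _ h12
      apply Finset.card_lt_card
      rw [Finset.ssubset_iff_of_subset]
      · exact ⟨r1, by simp [h1, h12], by simp⟩
      · intro q hq
        simp only [Finset.mem_filter] at hq ⊢
        exact ⟨hq.1, lt_trans hq.2 h12⟩
    intro r1 h1 r2 h2 h12
    rcases lt_trichotomy r1 r2 with h | h | h
    · have := key r1 h1 r2 h2 h
      omega
    · exact h
    · have := key r2 h2 r1 h1 h
      omega
  have hlt : ∀ r ∈ J, rank r < n := by
    intro r hr
    have h1 : (J.filter (· < r)).card < J.card := by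
      apply Finset.card_lt_card
      rw [Finset.filter_ssubset]
      exact ⟨r, hr, lt_irrefl r⟩
    have h2 : J.card ≤ Fintype.card (Fin n) := Finset.card_le_univ J
    rw [Fintype.card_fin] at h2
    show (J.filter (· < r)).card < n
    omega
  have hsum : ∑ f : Fin s → Fin n, (J.filter fun r => ∀ i, ¬ (f i < r ∧ f i ∈ J)).card
      = ∑ r ∈ J, (n - rank r) ^ s := by
    simp only [Finset.card_filter]
    rw [Finset.sum_comm]
    apply Finset.sum_congr rfl
    intro r _
    rw [← card_avoid s n (J.filter (· < r)), Finset.card_filter]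
    apply Finset.sum_congr rfl
    intro f _
    have hiff : (∀ i, ¬ (f i < r ∧ f i ∈ J)) ↔ (∀ i, f i ∉ J.filter (· < r)) := by
      constructor
      · intro h i hi
        rw [Finset.mem_filter] at hi
        exact h i ⟨hi.2, hi.1⟩
      · intro h i hi
        exact h i (Finset.mem_filter.mpr ⟨hi.2, hi.1⟩)
    simp only [hiff]
  have hle : ∑ r ∈ J, (n - rank r) ^ s ≤ ∑ k ∈ range n, (n - k) ^ s := by
    rw [← Finset.sum_image (f := fun k => (n - k) ^ s) hinj]
    apply Finset.sum_le_sum_of_subset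
    intro k hk
    rw [Finset.mem_image] at hk
    obtain ⟨r, hr, rfl⟩ := hk
    exact Finset.mem_range.mpr (hlt r hr)
  rw [hsum]
  exact le_trans (Nat.mul_le_mul_left _ hle) (succ_mul_sum_sub_pow_le s n)

end Helper14.P037Sums
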