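import Mathlib
import Vale.Agent.Helper14.P037Sums

/-!
Supersaturation for complete four-partite blow-ups of a set of quadruples, and the count of
non-injective tuples (support lemmas for P037).
-/

namespace Helper14.P037Super

open Finset

/-- One Jensen step: blowing up the first coordinate of a two-variable weight. -/
theorem jensen_step {X Y : Type*} [Fintype X] [Fintype Y] (g : X → Y → ℕ) (a : ℕ) :
    (∑ y, ∑ x, g x y) ^ (a + 1)
      ≤ (Fintype.card Y) ^ a * ∑ y, ∑ p : Fin (a + 1) → X, ∏ i, g (p i) y := by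
  have h := pow_sum_le_card_mul_sum_pow (s := (Finset.univ : Finset Y))
    (f := fun y => ∑ x, g x y) (fun _ _ => Nat.zero_le _) a
  simp only [Finset.card_univ, Nat.cast_id] at h
  calc (∑ y, ∑ x, g x y) ^ (a + 1)
      ≤ (Fintype.card Y) ^ a * ∑ y, (∑ x, g x y) ^ (a + 1) := h
    _ = (Fintype.card Y) ^ a * ∑ y, ∑ p : Fin (a + 1) → X, ∏ i, g (p i) y := by
      congr 1
      apply Finset.sum_congr rfl
      intro y _
      exact Fintype.sum_pow (fun x => g x y) (a + 1)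

section Rot

variable {A B C D : Type*} [Fintype A] [Fintype B] [Fintype C] [Fintype D]

theorem rot3 (f : A → B → C → D → ℕ) :
    ∑ a, ∑ b, ∑ d, ∑ c, f a b c d = ∑ a, ∑ b, ∑ c, ∑ d, f a b c d :=
  Finset.sum_congr rfl fun _ _ => Finset.sum_congr rfl fun _ _ => Finset.sum_comm

theorem rot2 (f : A → B → C → D → ℕ) :
    ∑ a, ∑ c, ∑ d, ∑ b, f a b c d = ∑ a, ∑ b, ∑ c, ∑ d, f a b c d := by
  calc ∑ a, ∑ c, ∑ d, ∑ b, f a b c d
      = ∑ a, ∑ c, ∑ b, ∑ d, f a b c d :=
        Finset.sum_congr rfl fun _ _ => Finset.sum_congr rfl fun _ _ => Finset.sum_comm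
    _ = ∑ a, ∑ b, ∑ c, ∑ d, f a b c d :=
        Finset.sum_congr rfl fun _ _ => Finset.sum_comm

theorem rot1 (f : A → B → C → D → ℕ) :
    ∑ b, ∑ c, ∑ d, ∑ a, f a b c d = ∑ a, ∑ b, ∑ c, ∑ d, f a b c d := by
  calc ∑ b, ∑ c, ∑ d, ∑ a, f a b c d
      = ∑ b, ∑ c, ∑ a, ∑ d, f a b c d :=
        Finset.sum_congr rfl fun _ _ => Finset.sum_congr rfl fun _ _ => Finset.sum_comm
    _ = ∑ b, ∑ a, ∑ c, ∑ d, f a b c d :=
        Finset.sum_congr rfl fun _ _ => Finset.sum_comm
    _ = ∑ a, ∑ b, ∑ c, ∑ d, f a b c d := Finset.sum_comm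

end Rot

/-- Chaining two power inequalities. -/
theorem chain {U V W n p q e f : ℕ} (h : U ^ p ≤ n ^ e * V) (h' : V ^ q ≤ n ^ f * W) :
    U ^ (p * q) ≤ n ^ (e * q + f) * W := by
  calc U ^ (p * q) = (U ^ p) ^ q := by rw [pow_mul]
    _ ≤ (n ^ e * V) ^ q := Nat.pow_le_pow_left h q
    _ = n ^ (e * q) * V ^ q := by rw [mul_pow, ← pow_mul]
    _ ≤ n ^ (e * q) * (n ^ f * W) := Nat.mul_le_mul_left _ h'
    _ = n ^ (e * q + f) * W := by rw [pow_add, mul_assoc]

section Weights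

variable {n : ℕ}

/-- Indicator weight of a set of quadruples. -/
def w0 (E : Finset (Fin n × Fin n × Fin n × Fin n)) : Fin n → Fin n → Fin n → Fin n → ℕ :=
  fun r r' c c' => if (r, r', c, c') ∈ E then 1 else 0

/-- Weight after blowing up the first coordinate. -/
def w1 (E : Finset (Fin n × Fin n × Fin n × Fin n)) (α : ℕ) :
    (Fin (α + 1) → Fin n) → Fin n → Fin n → Fin n → ℕ :=
  fun x r' c c' => ∏ i, w0 E (x i) r' c c'

/-- Weight after blowing up the first two coordinates. -/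
def w2 (E : Finset (Fin n × Fin n × Fin n × Fin n)) (α β : ℕ) :
    (Fin (α + 1) → Fin n) → (Fin (β + 1) → Fin n) → Fin n → Fin n → ℕ :=
  fun x x' c c' => ∏ j, w1 E α x (x' j) c c'

/-- Weight after blowing up the first three coordinates. -/
def w3 (E : Finset (Fin n × Fin n × Fin n × Fin n)) (α β γ : ℕ) :
    (Fin (α + 1) → Fin n) → (Fin (β + 1) → Fin n) → (Fin (γ + 1) → Fin n) → Fin n → ℕ :=
  fun x x' y c' => ∏ l, w2 E α β x x' (y l) c'

/-- Weight after blowing up all four coordinates. -/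
def w4 (E : Finset (Fin n × Fin n × Fin n × Fin n)) (α β γ δ : ℕ) :
    (Fin (α + 1) → Fin n) → (Fin (β + 1) → Fin n) → (Fin (γ + 1) → Fin n) →
      (Fin (δ + 1) → Fin n) → ℕ :=
  fun x x' y y' => ∏ m, w3 E α β γ x x' y (y' m)

theorem sum_w0 (E : Finset (Fin n × Fin n × Fin n × Fin n)) :
    ∑ r, ∑ r', ∑ c, ∑ c', w0 E r r' c c' = E.card := by
  have h : E.card = ∑ t : Fin n × Fin n × Fin n × Fin n, if t ∈ E then 1 else 0 := by
    simp
  rw [h]
  simp only [Fintype.sum_prod_type]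
  rfl

theorem step1 (E : Finset (Fin n × Fin n × Fin n × Fin n)) (α : ℕ) :
    (∑ r, ∑ r', ∑ c, ∑ c', w0 E r r' c c') ^ (α + 1)
      ≤ n ^ (3 * α) * ∑ x, ∑ r', ∑ c, ∑ c', w1 E α x r' c c' := by
  have h := jensen_step (fun (r : Fin n) (y : Fin n × Fin n × Fin n) => w0 E r y.1 y.2.1 y.2.2) α
  beta_reduce at h
  have e1 : ∑ y : Fin n × Fin n × Fin n, ∑ r, w0 E r y.1 y.2.1 y.2.2
      = ∑ r, ∑ r', ∑ c, ∑ c', w0 E r r' c c' := by
    simp only [Fintype.sum_prod_type]
    exact rot1 (w0 E)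
  have e2 : ∑ y : Fin n × Fin n × Fin n, ∑ p : Fin (α + 1) → Fin n,
        ∏ i, w0 E (p i) y.1 y.2.1 y.2.2
      = ∑ x, ∑ r', ∑ c, ∑ c', w1 E α x r' c c' := by
    simp only [Fintype.sum_prod_type]
    exact rot1 (w1 E α)
  have e3 : Fintype.card (Fin n × Fin n × Fin n) = n ^ 3 := by
    simp only [Fintype.card_prod, Fintype.card_fin]
    ring
  rw [e1, e2, e3, ← pow_mul] at h
  exact h

theorem step2 (E : Finset (Fin n × Fin n × Fin n × Fin n)) (α β : ℕ) :
    (∑ x, ∑ r', ∑ c, ∑ c', w1 E α x r' c c') ^ (β + 1)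
      ≤ n ^ ((α + 3) * β) * ∑ x, ∑ x', ∑ c, ∑ c', w2 E α β x x' c c' := by
  have h := jensen_step
    (fun (r' : Fin n) (y : (Fin (α + 1) → Fin n) × Fin n × Fin n) =>
      w1 E α y.1 r' y.2.1 y.2.2) β
  beta_reduce at h
  have e1 : ∑ y : (Fin (α + 1) → Fin n) × Fin n × Fin n, ∑ r', w1 E α y.1 r' y.2.1 y.2.2
      = ∑ x, ∑ r', ∑ c, ∑ c', w1 E α x r' c c' := by
    simp only [Fintype.sum_prod_type]
    exact rot2 (w1 E α)
  have e2 : ∑ y : (Fin (α + 1) → Fin n) × Fin n × Fin n, ∑ p : Fin (β + 1) → Fin n,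
        ∏ j, w1 E α y.1 (p j) y.2.1 y.2.2
      = ∑ x, ∑ x', ∑ c, ∑ c', w2 E α β x x' c c' := by
    simp only [Fintype.sum_prod_type]
    exact rot2 (w2 E α β)
  have e3 : Fintype.card ((Fin (α + 1) → Fin n) × Fin n × Fin n) = n ^ (α + 3) := by
    simp only [Fintype.card_prod, Fintype.card_fin, Fintype.card_pi, Finset.prod_const,
      Finset.card_univ]
    ring
  rw [e1, e2, e3, ← pow_mul] at h
  exact h

theorem step3 (E : Finset (Fin n × Fin n × Fin n × Fin n)) (α β γ : ℕ) :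
    (∑ x, ∑ x', ∑ c, ∑ c', w2 E α β x x' c c') ^ (γ + 1)
      ≤ n ^ ((α + β + 3) * γ) * ∑ x, ∑ x', ∑ y, ∑ c', w3 E α β γ x x' y c' := by
  have h := jensen_step
    (fun (c : Fin n) (y : (Fin (α + 1) → Fin n) × (Fin (β + 1) → Fin n) × Fin n) =>
      w2 E α β y.1 y.2.1 c y.2.2) γ
  beta_reduce at h
  have e1 : ∑ y : (Fin (α + 1) → Fin n) × (Fin (β + 1) → Fin n) × Fin n,
        ∑ c, w2 E α β y.1 y.2.1 c y.2.2
      = ∑ x, ∑ x', ∑ c, ∑ c', w2 E α β x x' c c' := by
    simp only [Fintype.sum_prod_type]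
    exact rot3 (w2 E α β)
  have e2 : ∑ y : (Fin (α + 1) → Fin n) × (Fin (β + 1) → Fin n) × Fin n,
        ∑ p : Fin (γ + 1) → Fin n, ∏ l, w2 E α β y.1 y.2.1 (p l) y.2.2
      = ∑ x, ∑ x', ∑ y, ∑ c', w3 E α β γ x x' y c' := by
    simp only [Fintype.sum_prod_type]
    exact rot3 (w3 E α β γ)
  have e3 : Fintype.card ((Fin (α + 1) → Fin n) × (Fin (β + 1) → Fin n) × Fin n)
      = n ^ (α + β + 3) := by
    simp only [Fintype.card_prod, Fintype.card_fin, Fintype.card_pi, Finset.prod_const,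
      Finset.card_univ]
    ring
  rw [e1, e2, e3, ← pow_mul] at h
  exact h

theorem step4 (E : Finset (Fin n × Fin n × Fin n × Fin n)) (α β γ δ : ℕ) :
    (∑ x, ∑ x', ∑ y, ∑ c', w3 E α β γ x x' y c') ^ (δ + 1)
      ≤ n ^ ((α + β + γ + 3) * δ) * ∑ x, ∑ x', ∑ y, ∑ y', w4 E α β γ δ x x' y y' := by
  have h := jensen_step
    (fun (c' : Fin n) (y : (Fin (α + 1) → Fin n) × (Fin (β + 1) → Fin n) ×
        (Fin (γ + 1) → Fin n)) => w3 E α β γ y.1 y.2.1 y.2.2 c') δ
  beta_reduce at h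
  have e1 : ∑ y : (Fin (α + 1) → Fin n) × (Fin (β + 1) → Fin n) × (Fin (γ + 1) → Fin n),
        ∑ c', w3 E α β γ y.1 y.2.1 y.2.2 c'
      = ∑ x, ∑ x', ∑ y, ∑ c', w3 E α β γ x x' y c' := by
    simp only [Fintype.sum_prod_type]
  have e2 : ∑ y : (Fin (α + 1) → Fin n) × (Fin (β + 1) → Fin n) × (Fin (γ + 1) → Fin n),
        ∑ p : Fin (δ + 1) → Fin n, ∏ m, w3 E α β γ y.1 y.2.1 y.2.2 (p m)
      = ∑ x, ∑ x', ∑ y, ∑ y', w4 E α β γ δ x x' y y' := by
    simp only [Fintype.sum_prod_type]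
    rfl
  have e3 : Fintype.card ((Fin (α + 1) → Fin n) × (Fin (β + 1) → Fin n) ×
      (Fin (γ + 1) → Fin n)) = n ^ (α + β + γ + 3) := by
    simp only [Fintype.card_prod, Fintype.card_fin, Fintype.card_pi, Finset.prod_const,
      Finset.card_univ]
    ring
  rw [e1, e2, e3, ← pow_mul] at h
  exact h

theorem sum_w4 (E : Finset (Fin n × Fin n × Fin n × Fin n)) (α β γ δ : ℕ) :
    ∑ x, ∑ x', ∑ y, ∑ y', w4 E α β γ δ x x' y y'
      = (Finset.univ.filter fun t : (Fin (α + 1) → Fin n) × (Fin (β + 1) → Fin n) ×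
          (Fin (γ + 1) → Fin n) × (Fin (δ + 1) → Fin n) =>
            ∀ i j l m, (t.1 i, t.2.1 j, t.2.2.1 l, t.2.2.2 m) ∈ E).card := by
  rw [Finset.card_filter]
  simp only [Fintype.sum_prod_type]
  apply Finset.sum_congr rfl
  intro x _
  apply Finset.sum_congr rfl
  intro x' _
  apply Finset.sum_congr rfl
  intro y _
  apply Finset.sum_congr rfl
  intro y' _
  have hiff : (∀ m l j i, (x i, x' j, y l, y' m) ∈ E)
      ↔ (∀ i j l m, (x i, x' j, y l, y' m) ∈ E) :=
    ⟨fun h i j l m => h m l j i, fun h m l j i => h i j l m⟩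
  simp only [w4, w3, w2, w1, w0, Finset.prod_boole, Finset.mem_univ, forall_true_left, hiff]

end Weights

/-- (S) Supersaturation: a set `E` of quadruples spans at least the expected number of
complete four-partite blow-ups. -/
theorem supersat (n a b c d : ℕ) (ha : 1 ≤ a) (hb : 1 ≤ b) (hc : 1 ≤ c) (hd : 1 ≤ d)
    (E : Finset (Fin n × Fin n × Fin n × Fin n)) :
    E.card ^ (a * b * c * d) * n ^ (a + b + c + d)
      ≤ n ^ (4 * (a * b * c * d)) *
        (Finset.univ.filter fun t : (Fin a → Fin n) × (Fin b → Fin n) × (Fin c → Fin n) ×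
          (Fin d → Fin n) => ∀ i j l m, (t.1 i, t.2.1 j, t.2.2.1 l, t.2.2.2 m) ∈ E).card := by
  obtain ⟨α, rfl⟩ : ∃ α, a = α + 1 := ⟨a - 1, by omega⟩
  obtain ⟨β, rfl⟩ : ∃ β, b = β + 1 := ⟨b - 1, by omega⟩
  obtain ⟨γ, rfl⟩ : ∃ γ, c = γ + 1 := ⟨c - 1, by omega⟩
  obtain ⟨δ, rfl⟩ : ∃ δ, d = δ + 1 := ⟨d - 1, by omega⟩
  have h12 := chain (step1 E α) (step2 E α β)
  have h123 := chain h12 (step3 E α β γ)
  have h1234 := chain h123 (step4 E α β γ δ)
  rw [sum_w0, sum_w4] at h1234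
  have hexp : ((3 * α * (β + 1) + (α + 3) * β) * (γ + 1) + (α + β + 3) * γ) * (δ + 1)
      + (α + β + γ + 3) * δ + (α + 1 + (β + 1) + (γ + 1) + (δ + 1))
      = 4 * ((α + 1) * (β + 1) * (γ + 1) * (δ + 1)) := by ring
  calc E.card ^ ((α + 1) * (β + 1) * (γ + 1) * (δ + 1)) * n ^ (α + 1 + (β + 1) + (γ + 1) + (δ + 1))
      ≤ (n ^ (((3 * α * (β + 1) + (α + 3) * β) * (γ + 1) + (α + β + 3) * γ) * (δ + 1)
          + (α + β + γ + 3) * δ) * _) * n ^ (α + 1 + (β + 1) + (γ + 1) + (δ + 1)) :=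
        Nat.mul_le_mul_right _ h1234
    _ = n ^ (4 * ((α + 1) * (β + 1) * (γ + 1) * (δ + 1))) * _ := by
        rw [← hexp, pow_add]
        ring

/-- (N) Few tuples are non-injective. -/
theorem card_not_injective (n a : ℕ) :
    (Finset.univ.filter fun x : Fin a → Fin n => ¬ Function.Injective x).card * n
      ≤ a ^ 2 * n ^ a := by
  classical
  have hpair : ∀ i j : Fin a, i ≠ j →
      (Finset.univ.filter fun x : Fin a → Fin n => x i = x j).card * n ≤ n ^ a := by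
    intro i j hij
    have h := Helper14.P037Sums.sum_fun_pair a n (fun q q2 => if q = q2 then 1 else 0) i j hij
    have h2 : ∑ q : Fin n, ∑ q2 : Fin n, (if q = q2 then 1 else 0 : ℕ) = n := by simp
    rw [h2, ← Finset.card_filter] at h
    rcases Nat.eq_zero_or_pos n with hn | hn
    · subst hn
      simp
    · have h3 : n * (n * (Finset.univ.filter fun x : Fin a → Fin n => x i = x j).card)
          = n * n ^ a := by
        rw [← mul_assoc, ← sq, h, mul_comm]
      have h4 := Nat.eq_of_mul_eq_mul_left hn h3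
      rw [mul_comm]
      exact le_of_eq h4
  have hsub : (Finset.univ.filter fun x : Fin a → Fin n => ¬ Function.Injective x)
      ⊆ ((Finset.univ : Finset (Fin a × Fin a)).filter fun p => p.1 ≠ p.2).biUnion
        (fun p => Finset.univ.filter fun x : Fin a → Fin n => x p.1 = x p.2) := by
    intro x hx
    rw [Finset.mem_filter] at hx
    have hx2 := hx.2
    unfold Function.Injective at hx2
    push Not at hx2
    obtain ⟨i, j, hij, hne⟩ := hx2
    rw [Finset.mem_biUnion]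
    exact ⟨(i, j), by simp [hne], by simp [hij]⟩
  have hcard := Finset.card_le_card hsub
  have hbi := Finset.card_biUnion_le
    (s := (Finset.univ : Finset (Fin a × Fin a)).filter fun p => p.1 ≠ p.2)
    (t := fun p => Finset.univ.filter fun x : Fin a → Fin n => x p.1 = x p.2)
  have hsum : (∑ p ∈ (Finset.univ : Finset (Fin a × Fin a)).filter fun p => p.1 ≠ p.2,
      (Finset.univ.filter fun x : Fin a → Fin n => x p.1 = x p.2).card) * n
      ≤ a ^ 2 * n ^ a := by
    rw [Finset.sum_mul]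
    calc ∑ p ∈ (Finset.univ : Finset (Fin a × Fin a)).filter fun p => p.1 ≠ p.2,
          (Finset.univ.filter fun x : Fin a → Fin n => x p.1 = x p.2).card * n
        ≤ ∑ p ∈ (Finset.univ : Finset (Fin a × Fin a)).filter fun p => p.1 ≠ p.2, n ^ a := by
          apply Finset.sum_le_sum
          intro p hp
          rw [Finset.mem_filter] at hp
          exact hpair p.1 p.2 hp.2
      _ = ((Finset.univ : Finset (Fin a × Fin a)).filter fun p => p.1 ≠ p.2).card * n ^ a := by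
          rw [Finset.sum_const, smul_eq_mul]
      _ ≤ a ^ 2 * n ^ a := by
          apply Nat.mul_le_mul_right
          calc ((Finset.univ : Finset (Fin a × Fin a)).filter fun p => p.1 ≠ p.2).card
              ≤ (Finset.univ : Finset (Fin a × Fin a)).card := Finset.card_filter_le _ _
            _ = a ^ 2 := by simp [sq]
  calc (Finset.univ.filter fun x : Fin a → Fin n => ¬ Function.Injective x).card * n
      ≤ (∑ p ∈ (Finset.univ : Finset (Fin a × Fin a)).filter fun p => p.1 ≠ p.2,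
          (Finset.univ.filter fun x : Fin a → Fin n => x p.1 = x p.2).card) * n :=
        Nat.mul_le_mul_right _ (le_trans hcard hbi)
    _ ≤ a ^ 2 * n ^ a := hsum

end Helper14.P037Super
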