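import Mathlib
import Vale.Agent.Helper14.P037Super
import Vale.Agent.Helper8.P037.BlowSort

/-!
Polynomial removal for ordered blow-ups of a `2 × 2` pattern: final assembly (P037).
-/

namespace Helper14.P037Block

open Finset Nat
open Vale.Agent.Helper20
open Vale.Agent.Helper8.P037Blow

/-- The real-number core of the assembly: large and small `n`. -/
theorem real_core (NH h hi hnon F x D : ℝ) (k : ℕ) (hk : 1 ≤ k) (hx : 1 ≤ x)
    (hD0 : 0 < D) (hD1 : D ≤ 1) (hF : 1 ≤ F) (hN : 1 ≤ NH)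
    (h1 : D * x ^ (2 * k) ≤ h) (h2 : hnon * x ≤ 2 * (k : ℝ) ^ 2 * x ^ (2 * k))
    (h3 : h ≤ hi + hnon) (h4 : hi ≤ F * NH) :
    D ^ (2 * k) / (2 * F * (4 * (k : ℝ) ^ 2) ^ (2 * k)) * x ^ (2 * k) ≤ NH := by
  have hx0 : 0 < x := by linarith
  have hk0 : (1 : ℝ) ≤ (k : ℝ) := by exact_mod_cast hk
  have hKc : (1 : ℝ) ≤ 4 * (k : ℝ) ^ 2 := by nlinarith
  have hKp : (1 : ℝ) ≤ (4 * (k : ℝ) ^ 2) ^ (2 * k) := one_le_pow₀ hKc
  have hQ : 0 < 2 * F * (4 * (k : ℝ) ^ 2) ^ (2 * k) := by positivity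
  rw [div_mul_eq_mul_div, div_le_iff₀ hQ]
  have hxp : 0 < x ^ (2 * k) := by positivity
  by_cases hcase : 4 * (k : ℝ) ^ 2 ≤ D * x
  · have h5 : hnon * x ≤ (D * x ^ (2 * k) / 2) * x := by
      have h5a : 2 * (k : ℝ) ^ 2 * x ^ (2 * k) ≤ (D * x / 2) * x ^ (2 * k) := by
        apply mul_le_mul_of_nonneg_right _ hxp.le
        linarith
      calc hnon * x ≤ 2 * (k : ℝ) ^ 2 * x ^ (2 * k) := h2
        _ ≤ (D * x / 2) * x ^ (2 * k) := h5a
        _ = (D * x ^ (2 * k) / 2) * x := by ring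
    have h6 : hnon ≤ D * x ^ (2 * k) / 2 := le_of_mul_le_mul_right h5 hx0
    have h7 : D * x ^ (2 * k) / 2 ≤ F * NH := by linarith
    have h8 : D ^ (2 * k) ≤ D := by
      calc D ^ (2 * k) ≤ D ^ 1 := pow_le_pow_of_le_one hD0.le hD1 (by omega)
        _ = D := pow_one D
    have h9 : D ^ (2 * k) * x ^ (2 * k) ≤ D * x ^ (2 * k) :=
      mul_le_mul_of_nonneg_right h8 hxp.le
    have h10 : 2 * F * NH ≤ NH * (2 * F * (4 * (k : ℝ) ^ 2) ^ (2 * k)) := by
      have h10a : 2 * F * NH * 1 ≤ 2 * F * NH * (4 * (k : ℝ) ^ 2) ^ (2 * k) :=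
        mul_le_mul_of_nonneg_left hKp (by positivity)
      linarith
    linarith
  · push Not at hcase
    have h5 : (D * x) ^ (2 * k) ≤ (4 * (k : ℝ) ^ 2) ^ (2 * k) :=
      pow_le_pow_left₀ (by positivity) hcase.le _
    have h6 : D ^ (2 * k) * x ^ (2 * k) = (D * x) ^ (2 * k) := by rw [mul_pow]
    have h7 : (4 * (k : ℝ) ^ 2) ^ (2 * k) ≤ NH * (2 * F * (4 * (k : ℝ) ^ 2) ^ (2 * k)) := by
      have h7a : 1 * (4 * (k : ℝ) ^ 2) ^ (2 * k)
          ≤ (NH * (2 * F)) * (4 * (k : ℝ) ^ 2) ^ (2 * k) := by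
        apply mul_le_mul_of_nonneg_right _ (by positivity)
        nlinarith
      linarith
    linarith

section Count

variable {n : ℕ}

/-- The tuples with a non-injective component are few. -/
theorem card_noninj_le (E : Finset (Fin n × Fin n × Fin n × Fin n)) (a b c d : ℕ) :
    ((homs E a b c d).filter fun t => ¬ (Function.Injective t.1 ∧ Function.Injective t.2.1 ∧
        Function.Injective t.2.2.1 ∧ Function.Injective t.2.2.2)).card * n
      ≤ (a ^ 2 + b ^ 2 + c ^ 2 + d ^ 2) * n ^ (a + b + c + d) := by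
  classical
  have hsub : ((homs E a b c d).filter fun t => ¬ (Function.Injective t.1 ∧
        Function.Injective t.2.1 ∧ Function.Injective t.2.2.1 ∧ Function.Injective t.2.2.2))
      ⊆ (((univ.filter fun x : Fin a → Fin n => ¬ Function.Injective x) ×ˢ
            (univ : Finset ((Fin b → Fin n) × (Fin c → Fin n) × (Fin d → Fin n))))
          ∪ ((univ : Finset (Fin a → Fin n)) ×ˢ
            ((univ.filter fun x : Fin b → Fin n => ¬ Function.Injective x) ×ˢ
              (univ : Finset ((Fin c → Fin n) × (Fin d → Fin n))))))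
        ∪ (((univ : Finset (Fin a → Fin n)) ×ˢ ((univ : Finset (Fin b → Fin n)) ×ˢ
            ((univ.filter fun x : Fin c → Fin n => ¬ Function.Injective x) ×ˢ
              (univ : Finset (Fin d → Fin n)))))
          ∪ ((univ : Finset (Fin a → Fin n)) ×ˢ ((univ : Finset (Fin b → Fin n)) ×ˢ
            ((univ : Finset (Fin c → Fin n)) ×ˢ
              (univ.filter fun x : Fin d → Fin n => ¬ Function.Injective x))))) := by
    intro t ht
    rw [mem_filter] at ht
    have h2 := ht.2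
    simp only [mem_union, mem_product, mem_filter, mem_univ, true_and, and_true]
    tauto
  have hcard := card_le_card hsub
  have hA := Helper14.P037Super.card_not_injective n a
  have hB := Helper14.P037Super.card_not_injective n b
  have hC := Helper14.P037Super.card_not_injective n c
  have hD := Helper14.P037Super.card_not_injective n d
  have hu1 := card_union_le
    (((univ.filter fun x : Fin a → Fin n => ¬ Function.Injective x) ×ˢ
            (univ : Finset ((Fin b → Fin n) × (Fin c → Fin n) × (Fin d → Fin n))))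
          ∪ ((univ : Finset (Fin a → Fin n)) ×ˢ
            ((univ.filter fun x : Fin b → Fin n => ¬ Function.Injective x) ×ˢ
              (univ : Finset ((Fin c → Fin n) × (Fin d → Fin n))))))
    (((univ : Finset (Fin a → Fin n)) ×ˢ ((univ : Finset (Fin b → Fin n)) ×ˢ
            ((univ.filter fun x : Fin c → Fin n => ¬ Function.Injective x) ×ˢ
              (univ : Finset (Fin d → Fin n)))))
          ∪ ((univ : Finset (Fin a → Fin n)) ×ˢ ((univ : Finset (Fin b → Fin n)) ×ˢ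
            ((univ : Finset (Fin c → Fin n)) ×ˢ
              (univ.filter fun x : Fin d → Fin n => ¬ Function.Injective x)))))
  have hu2 := card_union_le
    ((univ.filter fun x : Fin a → Fin n => ¬ Function.Injective x) ×ˢ
            (univ : Finset ((Fin b → Fin n) × (Fin c → Fin n) × (Fin d → Fin n))))
    ((univ : Finset (Fin a → Fin n)) ×ˢ
            ((univ.filter fun x : Fin b → Fin n => ¬ Function.Injective x) ×ˢ
              (univ : Finset ((Fin c → Fin n) × (Fin d → Fin n)))))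
  have hu3 := card_union_le
    ((univ : Finset (Fin a → Fin n)) ×ˢ ((univ : Finset (Fin b → Fin n)) ×ˢ
            ((univ.filter fun x : Fin c → Fin n => ¬ Function.Injective x) ×ˢ
              (univ : Finset (Fin d → Fin n)))))
    ((univ : Finset (Fin a → Fin n)) ×ˢ ((univ : Finset (Fin b → Fin n)) ×ˢ
            ((univ : Finset (Fin c → Fin n)) ×ˢ
              (univ.filter fun x : Fin d → Fin n => ¬ Function.Injective x))))
  simp only [Finset.card_product, Finset.card_univ, Fintype.card_prod, Fintype.card_pi,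
    Finset.prod_const, Fintype.card_fin] at hu1 hu2 hu3
  generalize (univ.filter fun x : Fin a → Fin n => ¬ Function.Injective x).card = qa at *
  generalize (univ.filter fun x : Fin b → Fin n => ¬ Function.Injective x).card = qb at *
  generalize (univ.filter fun x : Fin c → Fin n => ¬ Function.Injective x).card = qc at *
  generalize (univ.filter fun x : Fin d → Fin n => ¬ Function.Injective x).card = qd at *
  have e : n ^ (a + b + c + d) = n ^ a * n ^ b * n ^ c * n ^ d := by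
    rw [pow_add, pow_add, pow_add]
  have t1 : qa * (n ^ b * (n ^ c * n ^ d)) * n ≤ a ^ 2 * (n ^ a * n ^ b * n ^ c * n ^ d) := by
    calc qa * (n ^ b * (n ^ c * n ^ d)) * n = (qa * n) * (n ^ b * (n ^ c * n ^ d)) := by ring
      _ ≤ (a ^ 2 * n ^ a) * (n ^ b * (n ^ c * n ^ d)) := Nat.mul_le_mul_right _ hA
      _ = a ^ 2 * (n ^ a * n ^ b * n ^ c * n ^ d) := by ring
  have t2 : n ^ a * (qb * (n ^ c * n ^ d)) * n ≤ b ^ 2 * (n ^ a * n ^ b * n ^ c * n ^ d) := by
    calc n ^ a * (qb * (n ^ c * n ^ d)) * n = (qb * n) * (n ^ a * (n ^ c * n ^ d)) := by ring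
      _ ≤ (b ^ 2 * n ^ b) * (n ^ a * (n ^ c * n ^ d)) := Nat.mul_le_mul_right _ hB
      _ = b ^ 2 * (n ^ a * n ^ b * n ^ c * n ^ d) := by ring
  have t3 : n ^ a * (n ^ b * (qc * n ^ d)) * n ≤ c ^ 2 * (n ^ a * n ^ b * n ^ c * n ^ d) := by
    calc n ^ a * (n ^ b * (qc * n ^ d)) * n = (qc * n) * (n ^ a * (n ^ b * n ^ d)) := by ring
      _ ≤ (c ^ 2 * n ^ c) * (n ^ a * (n ^ b * n ^ d)) := Nat.mul_le_mul_right _ hC
      _ = c ^ 2 * (n ^ a * n ^ b * n ^ c * n ^ d) := by ring
  have t4 : n ^ a * (n ^ b * (n ^ c * qd)) * n ≤ d ^ 2 * (n ^ a * n ^ b * n ^ c * n ^ d) := by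
    calc n ^ a * (n ^ b * (n ^ c * qd)) * n = (qd * n) * (n ^ a * (n ^ b * n ^ c)) := by ring
      _ ≤ (d ^ 2 * n ^ d) * (n ^ a * (n ^ b * n ^ c)) := Nat.mul_le_mul_right _ hD
      _ = d ^ 2 * (n ^ a * n ^ b * n ^ c * n ^ d) := by ring
  rw [e]
  have hmul := Nat.mul_le_mul_right n (le_trans hcard (le_trans hu1 (Nat.add_le_add hu2 hu3)))
  nlinarith [hmul, t1, t2, t3, t4]

end Count

section Main

variable {n : ℕ}

theorem diff_self (A : Matrix (Fin n) (Fin n) Bool) : OrdMat.diff A A = 0 := by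
  simp [OrdMat.diff]

theorem card_quad_le (P : Matrix (Fin 2) (Fin 2) Bool) (A : Matrix (Fin n) (Fin n) Bool) :
    (quad P A).card ≤ n ^ 4 := by
  calc (quad P A).card ≤ (univ : Finset (Fin n × Fin n × Fin n × Fin n)).card :=
        Finset.card_le_univ _
    _ = n ^ 4 := by
        simp only [Finset.card_univ, Fintype.card_prod, Fintype.card_fin]
        ring

theorem sq_add_sq_le (a b : ℕ) : a ^ 2 + b ^ 2 ≤ (a + b) ^ 2 := by
  have h : (a + b) ^ 2 = a ^ 2 + b ^ 2 + 2 * (a * b) := by ring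
  omega

/-- Polynomial removal for every ordered blow-up of a `2 × 2` pattern that has a polynomial
removal bound. -/
theorem block_polyRemoval (P : Matrix (Fin 2) (Fin 2) Bool) (c1 : ℝ) (C1 : ℕ) (hc1 : 0 < c1)
    (hP : OrdMat.PolyRemoval P c1 C1) (k a c : ℕ) (ha : 0 < a) (hak : a < k)
    (hc : 0 < c) (hck : c < k) :
    ∃ c0 : ℝ, 0 < c0 ∧ ∃ C : ℕ, OrdMat.PolyRemoval (blowup P k a c) c0 C := by
  obtain ⟨b, hab⟩ : ∃ b, a + b = k := ⟨k - a, by omega⟩
  obtain ⟨d, hcd⟩ : ∃ d, c + d = k := ⟨k - c, by omega⟩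
  have hb : 0 < b := by omega
  have hd : 0 < d := by omega
  obtain ⟨M, hM⟩ : ∃ M, M = a * b * c * d := ⟨_, rfl⟩
  obtain ⟨F, hF⟩ : ∃ F, F = a ! * b ! * c ! * d ! := ⟨_, rfl⟩
  have hFpos : 0 < F := by
    rw [hF]
    positivity
  have hFr : (1 : ℝ) ≤ (F : ℝ) := by exact_mod_cast hFpos
  have hk1 : 1 ≤ k := by omega
  have hkr : (1 : ℝ) ≤ (k : ℝ) := by exact_mod_cast hk1
  refine ⟨c1 ^ (2 * k * M) / (2 * (F : ℝ) * (4 * (k : ℝ) ^ 2) ^ (2 * k)), by positivity,
    C1 * (2 * k * M), ?_⟩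
  intro n A ε hε hfar
  rcases Nat.eq_zero_or_pos n with hn | hn
  · subst hn
    have h2k : 2 * k ≠ 0 := by omega
    simp [h2k]
  have hPfar : ∀ B : Matrix (Fin n) (Fin n) Bool, OrdMat.copies P B = ∅ →
      ε * (n : ℝ) ^ 2 ≤ (OrdMat.diff A B : ℝ) :=
    fun B hB => hfar B (blowup_free P B ha hak hc hck hB)
  have hNP : c1 * ε ^ C1 * (n : ℝ) ^ 4 ≤ ((OrdMat.copies P A).card : ℝ) :=
    hP n A ε hε hPfar
  have hx1 : (1 : ℝ) ≤ (n : ℝ) := by exact_mod_cast hn
  have hx0 : (0 : ℝ) < (n : ℝ) := by linarith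
  have hδ0 : 0 < c1 * ε ^ C1 := by positivity
  have hq1 : ((OrdMat.copies P A).card : ℝ) ≤ ((quad P A).card : ℝ) := by
    exact_mod_cast card_copies_le_quad P A
  have hq2 : ((quad P A).card : ℝ) ≤ (n : ℝ) ^ 4 := by
    exact_mod_cast card_quad_le P A
  have hδq : c1 * ε ^ C1 * (n : ℝ) ^ 4 ≤ ((quad P A).card : ℝ) := le_trans hNP hq1
  have hδ1 : c1 * ε ^ C1 ≤ 1 := by
    have h4 : (0 : ℝ) < (n : ℝ) ^ 4 := by positivity
    by_contra hcon
    push Not at hcon
    nlinarith
  -- supersaturation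
  have hS := Helper14.P037Super.supersat n a b c d ha hb hc hd (quad P A)
  have hS' : ((quad P A).card : ℝ) ^ M * (n : ℝ) ^ (2 * k)
      ≤ (n : ℝ) ^ (4 * M) * ((homs (quad P A) a b c d).card : ℝ) := by
    have e : a + b + c + d = 2 * k := by omega
    rw [e, ← hM] at hS
    have hS2 : (quad P A).card ^ M * n ^ (2 * k)
        ≤ n ^ (4 * M) * (homs (quad P A) a b c d).card := hS
    exact_mod_cast hS2
  have h1 : (c1 * ε ^ C1) ^ M * (n : ℝ) ^ (2 * k)
      ≤ ((homs (quad P A) a b c d).card : ℝ) := by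
    have hp : (c1 * ε ^ C1 * (n : ℝ) ^ 4) ^ M ≤ ((quad P A).card : ℝ) ^ M :=
      pow_le_pow_left₀ (by positivity) hδq M
    have hp2 : (c1 * ε ^ C1 * (n : ℝ) ^ 4) ^ M = (n : ℝ) ^ (4 * M) * (c1 * ε ^ C1) ^ M := by
      rw [mul_pow, ← pow_mul]
      ring
    have hpos : (0 : ℝ) < (n : ℝ) ^ (4 * M) := by positivity
    have hchain : (n : ℝ) ^ (4 * M) * ((c1 * ε ^ C1) ^ M * (n : ℝ) ^ (2 * k))
        ≤ (n : ℝ) ^ (4 * M) * ((homs (quad P A) a b c d).card : ℝ) := by
      calc (n : ℝ) ^ (4 * M) * ((c1 * ε ^ C1) ^ M * (n : ℝ) ^ (2 * k))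
          = (c1 * ε ^ C1 * (n : ℝ) ^ 4) ^ M * (n : ℝ) ^ (2 * k) := by
            rw [hp2]
            ring
        _ ≤ ((quad P A).card : ℝ) ^ M * (n : ℝ) ^ (2 * k) :=
            mul_le_mul_of_nonneg_right hp (by positivity)
        _ ≤ (n : ℝ) ^ (4 * M) * ((homs (quad P A) a b c d).card : ℝ) := hS'
    exact le_of_mul_le_mul_left hchain hpos
  -- injective and non-injective tuples
  have hsplit : ((homs (quad P A) a b c d).filter fun t => Function.Injective t.1 ∧
        Function.Injective t.2.1 ∧ Function.Injective t.2.2.1 ∧ Function.Injective t.2.2.2).card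
      + ((homs (quad P A) a b c d).filter fun t => ¬ (Function.Injective t.1 ∧
        Function.Injective t.2.1 ∧ Function.Injective t.2.2.1 ∧ Function.Injective t.2.2.2)).card
      = (homs (quad P A) a b c d).card :=
    Finset.card_filter_add_card_filter_not _
  have hnon := card_noninj_le (quad P A) a b c d
  have hinj := card_inj_homs_le (quad P A) a b c d
  have hmono := card_mono_homs_le_copies P A hab hcd ha hb hc hd
  rw [← hF] at hinj
  have hN1 : 1 ≤ (OrdMat.copies (blowup P k a c) A).card := by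
    by_contra hcon
    have h0 : OrdMat.copies (blowup P k a c) A = ∅ := by
      rw [← Finset.card_eq_zero]
      omega
    have h00 := hfar A h0
    rw [diff_self] at h00
    have hpos : 0 < ε * (n : ℝ) ^ 2 := by positivity
    have h01 : ((0 : ℕ) : ℝ) = 0 := Nat.cast_zero
    linarith
  generalize ((homs (quad P A) a b c d).filter fun t => Function.Injective t.1 ∧
        Function.Injective t.2.1 ∧ Function.Injective t.2.2.1 ∧
        Function.Injective t.2.2.2).card = vi at hsplit hinj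
  generalize ((homs (quad P A) a b c d).filter fun t => ¬ (Function.Injective t.1 ∧
        Function.Injective t.2.1 ∧ Function.Injective t.2.2.1 ∧
        Function.Injective t.2.2.2)).card = vn at hsplit hnon
  generalize ((homs (quad P A) a b c d).filter fun t => StrictMono t.1 ∧
        StrictMono t.2.1 ∧ StrictMono t.2.2.1 ∧ StrictMono t.2.2.2).card = vm at hinj hmono
  generalize (homs (quad P A) a b c d).card = vh at hsplit h1
  generalize (OrdMat.copies (blowup P k a c) A).card = NH at hmono hN1 ⊢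
  have h2 : (vn : ℝ) * (n : ℝ) ≤ 2 * (k : ℝ) ^ 2 * (n : ℝ) ^ (2 * k) := by
    have e : a + b + c + d = 2 * k := by omega
    rw [e] at hnon
    have hsq : a ^ 2 + b ^ 2 + c ^ 2 + d ^ 2 ≤ 2 * k ^ 2 := by
      have s1 := sq_add_sq_le a b
      have s2 := sq_add_sq_le c d
      rw [hab] at s1
      rw [hcd] at s2
      omega
    have hnat : vn * n ≤ 2 * k ^ 2 * n ^ (2 * k) :=
      le_trans hnon (Nat.mul_le_mul_right _ hsq)
    exact_mod_cast hnat
  have h3 : (vh : ℝ) ≤ (vi : ℝ) + (vn : ℝ) := by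
    have hnat : vh ≤ vi + vn := le_of_eq hsplit.symm
    exact_mod_cast hnat
  have h4 : (vi : ℝ) ≤ (F : ℝ) * (NH : ℝ) := by
    have hnat : vi ≤ F * NH := le_trans hinj (Nat.mul_le_mul_left _ hmono)
    exact_mod_cast hnat
  have hNr : (1 : ℝ) ≤ (NH : ℝ) := by exact_mod_cast hN1
  have key := real_core (NH : ℝ) (vh : ℝ) (vi : ℝ) (vn : ℝ) (F : ℝ) (n : ℝ)
    ((c1 * ε ^ C1) ^ M) k hk1 hx1 (by positivity) (pow_le_one₀ hδ0.le hδ1) hFr hNr h1 h2 h3 h4
  have e1 : ((c1 * ε ^ C1) ^ M) ^ (2 * k) = c1 ^ (2 * k * M) * ε ^ (C1 * (2 * k * M)) := by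
    rw [← pow_mul, mul_pow, ← pow_mul]
    have e2 : M * (2 * k) = 2 * k * M := by ring
    rw [e2]
  calc c1 ^ (2 * k * M) / (2 * (F : ℝ) * (4 * (k : ℝ) ^ 2) ^ (2 * k)) * ε ^ (C1 * (2 * k * M))
        * (n : ℝ) ^ (2 * k)
      = ((c1 * ε ^ C1) ^ M) ^ (2 * k) / (2 * (F : ℝ) * (4 * (k : ℝ) ^ 2) ^ (2 * k))
        * (n : ℝ) ^ (2 * k) := by
        rw [e1]
        ring
    _ ≤ (NH : ℝ) := key

end Main

end Helper14.P037Block
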