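import Mathlib

/-!
A long chain inside an up-closed set of a transitive relation (support lemma for P037).
-/

namespace Helper14.P037Chain

open Finset

section Aux

variable {α : Type*} [LinearOrder α]

open Classical in
/-- Twice the number of increasing pairs of a finite set, plus its size, is its size squared. -/
theorem two_mul_card_lt_pairs (W : Finset α) :
    2 * ((W ×ˢ W).filter fun p => p.1 < p.2).card + W.card = W.card * W.card := by
  have hswap : ((W ×ˢ W).filter fun p => p.2 < p.1).card
      = ((W ×ˢ W).filter fun p => p.1 < p.2).card := by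
    apply Finset.card_equiv (Equiv.prodComm α α)
    intro p
    simp only [Finset.mem_filter, Finset.mem_product, Equiv.prodComm_apply, Prod.fst_swap,
      Prod.snd_swap]
    tauto
  have hdiag : ((W ×ˢ W).filter fun p => p.1 = p.2).card = W.card := by
    have h : ((W ×ˢ W).filter fun p => p.1 = p.2) = W.image (fun a => (a, a)) := by
      ext p
      simp only [Finset.mem_filter, Finset.mem_product, Finset.mem_image]
      constructor
      · rintro ⟨⟨h1, _⟩, h3⟩
        exact ⟨p.1, h1, by rw [Prod.ext_iff]; exact ⟨rfl, h3⟩⟩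
      · rintro ⟨a, ha, rfl⟩
        exact ⟨⟨ha, ha⟩, rfl⟩
    rw [h, Finset.card_image_of_injective]
    intro a b hab
    exact (Prod.ext_iff.mp hab).1
  have htot : ((W ×ˢ W).filter fun p => p.1 < p.2).card
      + ((W ×ˢ W).filter fun p => p.2 < p.1).card
      + ((W ×ˢ W).filter fun p => p.1 = p.2).card = (W ×ˢ W).card := by
    simp only [Finset.card_filter]
    rw [← Finset.sum_add_distrib, ← Finset.sum_add_distrib, Finset.card_eq_sum_ones]
    apply Finset.sum_congr rfl
    intro p _
    rcases lt_trichotomy p.1 p.2 with h | h | h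
    · simp [h, h.ne, h.le.not_gt]
    · simp [h]
    · simp [h, h.ne', h.le.not_gt]
  rw [Finset.card_product] at htot
  omega

end Aux

section Main

variable {α : Type*} [LinearOrder α]

open Classical in
/-- (D) In an up-closed nonempty set `B` of a transitive relation `T` refining `<`, some
principal up-set `P` misses so few elements of `B` that the missed elements are paid for by
pairs of `B` not related by `T`. -/
theorem exists_long_chain (T : α → α → Prop)
    (hlt : ∀ x y, T x y → x < y) (htrans : ∀ x y z, T x y → T y z → T x z)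
    (B : Finset α) (hB : ∀ x ∈ B, ∀ y, T x y → y ∈ B) (hne : B.Nonempty) :
    ∃ x ∈ B, ∀ P : Finset α, (∀ y, y ∈ P ↔ y = x ∨ T x y) →
      (B \ P).card * ((B \ P).card + 1)
        ≤ 2 * ((B ×ˢ B).filter fun p => p.1 < p.2 ∧ ¬ T p.1 p.2).card := by
  obtain ⟨x, hxB, hxmax⟩ :=
    Finset.exists_max_image B (fun z => (B.filter (fun y => T z y)).card) hne
  refine ⟨x, hxB, ?_⟩
  intro P hP
  have hPB : P ⊆ B := by
    intro y hy
    rcases (hP y).mp hy with h | h
    · rw [h]; exact hxB
    · exact hB x hxB y h
  have hPcard : P.card = (B.filter (fun y => T x y)).card + 1 := by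
    have h : P = insert x (B.filter (fun y => T x y)) := by
      ext y
      rw [hP y, Finset.mem_insert, Finset.mem_filter]
      constructor
      · rintro (h | h)
        · exact Or.inl h
        · exact Or.inr ⟨hB x hxB y h, h⟩
      · rintro (h | h)
        · exact Or.inl h
        · exact Or.inr h.2
    rw [h, Finset.card_insert_of_notMem]
    intro h'
    exact lt_irrefl x (hlt x x (Finset.mem_filter.mp h').2)
  obtain ⟨W, hW⟩ : ∃ W, W = B \ P := ⟨_, rfl⟩
  rw [← hW]
  have hWB : W ⊆ B := by rw [hW]; exact Finset.sdiff_subset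
  have hWP : Disjoint W P := by rw [hW]; exact Finset.sdiff_disjoint
  have hPW : Disjoint P W := hWP.symm
  have hBu : B = W ∪ P := by rw [hW]; exact (Finset.sdiff_union_of_subset hPB).symm
  have hWnot : ∀ w ∈ W, w ∉ P := by
    intro w hw
    rw [hW] at hw
    exact (Finset.mem_sdiff.mp hw).2
  -- key inequality for each missed element
  have key : ∀ w ∈ W, (W.filter (fun y => T w y)).card + 1
      ≤ (P.filter (fun p => ¬ T w p)).card := by
    intro w hw
    have h1 := hxmax w (hWB hw)
    have h2 : (B.filter (fun y => T w y)).card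
        = (W.filter (fun y => T w y)).card + (P.filter (fun y => T w y)).card := by
      rw [hBu, Finset.filter_union, Finset.card_union_of_disjoint]
      exact Finset.disjoint_filter_filter hWP
    have h3 : (P.filter (fun y => T w y)).card + (P.filter (fun p => ¬ T w p)).card = P.card :=
      Finset.card_filter_add_card_filter_not _
    have h1' : (B.filter (fun y => T w y)).card ≤ (B.filter (fun y => T x y)).card := h1
    omega
  -- the three families of unrelated pairs
  have hA : ((W ×ˢ W).filter fun p => p.1 < p.2 ∧ ¬ T p.1 p.2).card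
      + ((W ×ˢ P).filter fun p => p.1 < p.2 ∧ ¬ T p.1 p.2).card
      + ((P ×ˢ W).filter fun p => p.1 < p.2 ∧ ¬ T p.1 p.2).card
      ≤ ((B ×ˢ B).filter fun p => p.1 < p.2 ∧ ¬ T p.1 p.2).card := by
    have d1 : Disjoint ((W ×ˢ W).filter fun p => p.1 < p.2 ∧ ¬ T p.1 p.2)
        ((W ×ˢ P).filter fun p => p.1 < p.2 ∧ ¬ T p.1 p.2) :=
      Finset.disjoint_filter_filter (Finset.disjoint_product.mpr (Or.inr hWP))
    have d2 : Disjoint (((W ×ˢ W).filter fun p => p.1 < p.2 ∧ ¬ T p.1 p.2)
        ∪ ((W ×ˢ P).filter fun p => p.1 < p.2 ∧ ¬ T p.1 p.2))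
        ((P ×ˢ W).filter fun p => p.1 < p.2 ∧ ¬ T p.1 p.2) := by
      rw [Finset.disjoint_union_left]
      exact ⟨Finset.disjoint_filter_filter (Finset.disjoint_product.mpr (Or.inl hWP)),
        Finset.disjoint_filter_filter (Finset.disjoint_product.mpr (Or.inl hWP))⟩
    rw [← Finset.card_union_of_disjoint d1, ← Finset.card_union_of_disjoint d2]
    apply Finset.card_le_card
    apply Finset.union_subset (Finset.union_subset ?_ ?_) ?_
    · exact Finset.filter_subset_filter _ (Finset.product_subset_product hWB hWB)
    · exact Finset.filter_subset_filter _ (Finset.product_subset_product hWB hPB)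
    · exact Finset.filter_subset_filter _ (Finset.product_subset_product hPB hWB)
  have hBB : ((W ×ˢ W).filter fun p => p.1 < p.2 ∧ ¬ T p.1 p.2).card
      + ((W ×ˢ W).filter fun p => T p.1 p.2).card
      = ((W ×ˢ W).filter fun p => p.1 < p.2).card := by
    have h := Finset.card_filter_add_card_filter_not
      (s := (W ×ˢ W).filter fun p => p.1 < p.2) (fun p : α × α => T p.1 p.2)
    rw [Finset.filter_filter, Finset.filter_filter] at h
    have h2 : ((W ×ˢ W).filter fun p => p.1 < p.2 ∧ T p.1 p.2)
        = ((W ×ˢ W).filter fun p => T p.1 p.2) := by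
      apply Finset.filter_congr
      intro p _
      exact ⟨fun h => h.2, fun h => ⟨hlt _ _ h, h⟩⟩
    rw [h2] at h
    omega
  have hC := two_mul_card_lt_pairs W
  have hD : ((W ×ˢ P).filter fun p => p.1 < p.2 ∧ ¬ T p.1 p.2).card
      + ((P ×ˢ W).filter fun p => p.1 < p.2 ∧ ¬ T p.1 p.2).card
      = ∑ w ∈ W, (P.filter (fun p => ¬ T w p)).card := by
    simp only [Finset.card_filter]
    rw [Finset.sum_product, Finset.sum_product_right, ← Finset.sum_add_distrib]
    apply Finset.sum_congr rfl
    intro w hw
    rw [← Finset.sum_add_distrib]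
    apply Finset.sum_congr rfl
    intro p hp
    have hne' : p ≠ w := fun h => hWnot w hw (h ▸ hp)
    rcases lt_or_gt_of_ne hne' with h | h
    · -- p < w
      have h1 : ¬ T p w := by
        intro hT
        apply hWnot w hw
        rw [hP w]
        rcases (hP p).mp hp with h2 | h2
        · right; rw [← h2]; exact hT
        · right; exact htrans x p w h2 hT
      have h2 : ¬ T w p := fun hT => lt_asymm h (hlt _ _ hT)
      simp [h, h1, h2, h.le.not_gt]
    · -- w < p
      simp [h, h.le.not_gt]
  have hE : ∑ w ∈ W, (W.filter (fun y => T w y)).card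
      = ((W ×ˢ W).filter fun p => T p.1 p.2).card := by
    simp only [Finset.card_filter]
    rw [Finset.sum_product]
  have hsum : ∑ w ∈ W, ((W.filter (fun y => T w y)).card + 1)
      ≤ ∑ w ∈ W, (P.filter (fun p => ¬ T w p)).card := Finset.sum_le_sum key
  rw [Finset.sum_add_distrib, Finset.sum_const, smul_eq_mul, mul_one] at hsum
  have hexp : W.card * (W.card + 1) = W.card * W.card + W.card := by ring
  omega

/-- Version of `exists_long_chain` for an arbitrary decidability instance. -/
theorem exists_long_chain_inst (T : α → α → Prop)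
    [inst : DecidablePred fun p : α × α => p.1 < p.2 ∧ ¬ T p.1 p.2]
    (hlt : ∀ x y, T x y → x < y) (htrans : ∀ x y z, T x y → T y z → T x z)
    (B : Finset α) (hB : ∀ x ∈ B, ∀ y, T x y → y ∈ B) (hne : B.Nonempty) :
    ∃ x ∈ B, ∀ P : Finset α, (∀ y, y ∈ P ↔ y = x ∨ T x y) →
      (B \ P).card * ((B \ P).card + 1)
        ≤ 2 * ((B ×ˢ B).filter fun p => p.1 < p.2 ∧ ¬ T p.1 p.2).card := by
  have h := exists_long_chain T hlt htrans B hB hne
  convert h

end Main

end Helper14.P037Chain
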