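import Mathlib

/-!
Final parameter choice (a pure real-number inequality) for the P037 Gamma-pattern bound.
-/

namespace Helper14.P037Param

/-- The real-number core: with `S ε² ∈ [64, 65]` and `Ee ≤ ε⁵ a / 135200 < Ee + 1`
the eight error terms add up to less than `ε a²`. -/
theorem core (a ε N S Ee : ℝ) (hε : 0 < ε) (hε1 : ε < 1) (ha0 : 0 < a)
    (ha : 64 ≤ ε ^ 2 * a) (hSl : 64 ≤ S * ε ^ 2) (hSu : S * ε ^ 2 ≤ 65) (hE0 : 0 ≤ Ee)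
    (hE1 : Ee ≤ ε ^ 5 * a / 135200) (hE2 : ε ^ 5 * a / 135200 < Ee + 1)
    (hN0 : 0 ≤ N) (hN : N ≤ ε ^ 13 * a ^ 4 / 10 ^ 14) :
    (a * S ^ 2 * (ε * a / (8 * S ^ 2)) / 2 + 2 * a * S ^ 2 * Ee + a * S * Ee
          + a * (ε * a / 4) / 2 + 2 * S * Ee * a ^ 2 / (ε * a / 4))
        + (2 * a / (ε * a / (8 * S ^ 2)) * (S ^ 2 * N / a ^ 2)
          + 4 * a / (Ee + 1) ^ 2 * (S * N / a)
          + 1 / (ε * a / 4) * (a ^ 2 * (a / (S + 1) + 1))) < ε * a ^ 2 := by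
  have hε2 : 0 < ε ^ 2 := by positivity
  have hS0 : 0 < S := by
    by_contra h
    push Not at h
    nlinarith
  have hSne : S ≠ 0 := hS0.ne'
  have hεne : ε ≠ 0 := hε.ne'
  have hane : a ≠ 0 := ha0.ne'
  obtain ⟨u, hu⟩ : ∃ u, u = S * ε ^ 2 := ⟨_, rfl⟩
  have hul : 64 ≤ u := by rw [hu]; exact hSl
  have huu : u ≤ 65 := by rw [hu]; exact hSu
  have hu0 : 0 ≤ u := by linarith
  have hw0 : 0 < ε ^ 5 * a / 135200 := by positivity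
  have hX : 0 < ε * a ^ 2 := by positivity
  have e2 : ε ^ 2 ≤ ε := by nlinarith
  have e3 : ε ^ 3 ≤ ε := by nlinarith
  have e4 : ε ^ 4 ≤ ε := by nlinarith
  have ha2 : 0 < a ^ 2 := by positivity
  -- T1
  have T1 : a * S ^ 2 * (ε * a / (8 * S ^ 2)) / 2 = 1 / 16 * (ε * a ^ 2) := by
    field_simp
    ring
  -- T2
  have T2 : 2 * a * S ^ 2 * Ee ≤ 1 / 16 * (ε * a ^ 2) := by
    have h1 : 2 * a * S ^ 2 * Ee ≤ 2 * a * S ^ 2 * (ε ^ 5 * a / 135200) :=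
      mul_le_mul_of_nonneg_left hE1 (by positivity)
    have h2 : 2 * a * S ^ 2 * (ε ^ 5 * a / 135200) = 2 * a ^ 2 * ε / 135200 * u ^ 2 := by
      rw [hu]; ring
    have h3 : u ^ 2 ≤ 65 ^ 2 := pow_le_pow_left₀ hu0 huu 2
    have h4 : 2 * a ^ 2 * ε / 135200 * u ^ 2 ≤ 2 * a ^ 2 * ε / 135200 * 65 ^ 2 :=
      mul_le_mul_of_nonneg_left h3 (by positivity)
    have h5 : 2 * a ^ 2 * ε / 135200 * 65 ^ 2 = 1 / 16 * (ε * a ^ 2) := by ring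
    linarith
  -- T3
  have T3 : a * S * Ee ≤ 65 / 135200 * (ε * a ^ 2) := by
    have h1 : a * S * Ee ≤ a * S * (ε ^ 5 * a / 135200) :=
      mul_le_mul_of_nonneg_left hE1 (by positivity)
    have h2 : a * S * (ε ^ 5 * a / 135200) = a ^ 2 * ε ^ 3 / 135200 * u := by
      rw [hu]; ring
    have h3 : a ^ 2 * ε ^ 3 / 135200 * u ≤ a ^ 2 * ε ^ 3 / 135200 * 65 :=
      mul_le_mul_of_nonneg_left huu (by positivity)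
    have h4 : a ^ 2 * ε ^ 3 ≤ a ^ 2 * ε := mul_le_mul_of_nonneg_left e3 ha2.le
    have h5 : a ^ 2 * ε ^ 3 / 135200 * 65 ≤ 65 / 135200 * (ε * a ^ 2) := by linarith
    linarith
  -- T4
  have T4 : a * (ε * a / 4) / 2 = 1 / 8 * (ε * a ^ 2) := by ring
  -- T5
  have T5 : 2 * S * Ee * a ^ 2 / (ε * a / 4) ≤ 520 / 135200 * (ε * a ^ 2) := by
    have h0 : 2 * S * Ee * a ^ 2 / (ε * a / 4) = 8 * S * a / ε * Ee := by
      field_simp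
      ring
    have h1 : 8 * S * a / ε * Ee ≤ 8 * S * a / ε * (ε ^ 5 * a / 135200) :=
      mul_le_mul_of_nonneg_left hE1 (by positivity)
    have h2 : 8 * S * a / ε * (ε ^ 5 * a / 135200) = 8 * a ^ 2 * ε ^ 2 / 135200 * u := by
      rw [hu]
      field_simp
    have h3 : 8 * a ^ 2 * ε ^ 2 / 135200 * u ≤ 8 * a ^ 2 * ε ^ 2 / 135200 * 65 :=
      mul_le_mul_of_nonneg_left huu (by positivity)
    have h4 : a ^ 2 * ε ^ 2 ≤ a ^ 2 * ε := mul_le_mul_of_nonneg_left e2 ha2.le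
    have h5 : 8 * a ^ 2 * ε ^ 2 / 135200 * 65 ≤ 520 / 135200 * (ε * a ^ 2) := by linarith
    linarith
  -- T6
  have T6 : 2 * a / (ε * a / (8 * S ^ 2)) * (S ^ 2 * N / a ^ 2)
      ≤ 16 * 65 ^ 4 / 10 ^ 14 * (ε * a ^ 2) := by
    have h0 : 2 * a / (ε * a / (8 * S ^ 2)) * (S ^ 2 * N / a ^ 2)
        = 16 * S ^ 4 / (ε * a ^ 2) * N := by
      field_simp
      ring
    have h1 : 16 * S ^ 4 / (ε * a ^ 2) * N
        ≤ 16 * S ^ 4 / (ε * a ^ 2) * (ε ^ 13 * a ^ 4 / 10 ^ 14) :=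
      mul_le_mul_of_nonneg_left hN (by positivity)
    have h2 : 16 * S ^ 4 / (ε * a ^ 2) * (ε ^ 13 * a ^ 4 / 10 ^ 14)
        = 16 * a ^ 2 * ε ^ 4 / 10 ^ 14 * u ^ 4 := by
      rw [hu]
      field_simp
    have h3 : u ^ 4 ≤ 65 ^ 4 := pow_le_pow_left₀ hu0 huu 4
    have h4 : 16 * a ^ 2 * ε ^ 4 / 10 ^ 14 * u ^ 4 ≤ 16 * a ^ 2 * ε ^ 4 / 10 ^ 14 * 65 ^ 4 :=
      mul_le_mul_of_nonneg_left h3 (by positivity)
    have h5 : a ^ 2 * ε ^ 4 ≤ a ^ 2 * ε := mul_le_mul_of_nonneg_left e4 ha2.le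
    have h6 : 16 * a ^ 2 * ε ^ 4 / 10 ^ 14 * 65 ^ 4 ≤ 16 * 65 ^ 4 / 10 ^ 14 * (ε * a ^ 2) := by
      linarith
    linarith
  -- T7
  have T7 : 4 * a / (Ee + 1) ^ 2 * (S * N / a)
      ≤ 260 * 135200 ^ 2 / 10 ^ 14 * (ε * a ^ 2) := by
    have hE1pos : 0 < Ee + 1 := by linarith
    have h0 : 4 * a / (Ee + 1) ^ 2 * (S * N / a) = 4 * S * N / (Ee + 1) ^ 2 := by
      field_simp
    have hsq : (ε ^ 5 * a / 135200) ^ 2 ≤ (Ee + 1) ^ 2 :=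
      pow_le_pow_left₀ hw0.le hE2.le 2
    have h1 : 4 * S * N / (Ee + 1) ^ 2 ≤ 4 * S * N / (ε ^ 5 * a / 135200) ^ 2 :=
      div_le_div_of_nonneg_left (by positivity) (by positivity) hsq
    have h2 : 4 * S * N / (ε ^ 5 * a / 135200) ^ 2
        = 4 * S * 135200 ^ 2 / (ε ^ 10 * a ^ 2) * N := by
      field_simp
    have h3 : 4 * S * 135200 ^ 2 / (ε ^ 10 * a ^ 2) * N
        ≤ 4 * S * 135200 ^ 2 / (ε ^ 10 * a ^ 2) * (ε ^ 13 * a ^ 4 / 10 ^ 14) :=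
      mul_le_mul_of_nonneg_left hN (by positivity)
    have h4 : 4 * S * 135200 ^ 2 / (ε ^ 10 * a ^ 2) * (ε ^ 13 * a ^ 4 / 10 ^ 14)
        = 4 * 135200 ^ 2 / 10 ^ 14 * (ε * a ^ 2) * u := by
      rw [hu]
      field_simp
    have h5 : 4 * 135200 ^ 2 / 10 ^ 14 * (ε * a ^ 2) * u
        ≤ 4 * 135200 ^ 2 / 10 ^ 14 * (ε * a ^ 2) * 65 :=
      mul_le_mul_of_nonneg_left huu (by positivity)
    linarith
  -- T8
  have T8 : 1 / (ε * a / 4) * (a ^ 2 * (a / (S + 1) + 1)) ≤ 1 / 8 * (ε * a ^ 2) := by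
    have hS1 : 0 < S + 1 := by linarith
    have h1 : a / (S + 1) ≤ a * ε ^ 2 / 64 := by
      rw [div_le_iff₀ hS1]
      have : a * 64 ≤ a * (ε ^ 2 * (S + 1)) := by
        apply mul_le_mul_of_nonneg_left _ ha0.le
        nlinarith
      linarith
    have h2 : (1 : ℝ) ≤ a * ε ^ 2 / 64 := by linarith
    have h3 : a / (S + 1) + 1 ≤ a * ε ^ 2 / 32 := by linarith
    have h4 : 1 / (ε * a / 4) * (a ^ 2 * (a / (S + 1) + 1))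
        ≤ 1 / (ε * a / 4) * (a ^ 2 * (a * ε ^ 2 / 32)) :=
      mul_le_mul_of_nonneg_left (mul_le_mul_of_nonneg_left h3 ha2.le) (by positivity)
    have h5 : 1 / (ε * a / 4) * (a ^ 2 * (a * ε ^ 2 / 32)) = 1 / 8 * (ε * a ^ 2) := by
      field_simp
      ring
    linarith
  rw [T1, T4]
  have hfin : (1 / 16 + 1 / 16 + 65 / 135200 + 1 / 8 + 520 / 135200 + 16 * 65 ^ 4 / 10 ^ 14
      + 260 * 135200 ^ 2 / 10 ^ 14 + 1 / 8 : ℝ) < 1 := by norm_num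
  nlinarith

/-- (J) Final parameter choice. -/
theorem param_choice (n : ℕ) (ε N : ℝ) (hε : 0 < ε) (hε1 : ε < 1)
    (hn : 64 / ε ^ 2 ≤ (n : ℝ)) (hN0 : 0 ≤ N) (hN : N < ε ^ 13 * (n : ℝ) ^ 4 / 10 ^ 14) :
    ∃ (s E : ℕ) (μ lam : ℝ), 0 < μ ∧ 0 < lam ∧
      ((n : ℝ) * s ^ 2 * μ / 2 + 2 * n * s ^ 2 * E + n * s * E + n * lam / 2
          + 2 * s * E * n ^ 2 / lam)
        + (2 * n / μ * (s ^ 2 * N / n ^ 2) + 4 * n / ((E : ℝ) + 1) ^ 2 * (s * N / n)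
          + 1 / lam * (n ^ 2 * (n / (s + 1) + 1))) < ε * (n : ℝ) ^ 2 := by
  have hε2 : 0 < ε ^ 2 := by positivity
  have hx0 : 0 < 64 / ε ^ 2 := by positivity
  have ha0 : 0 < (n : ℝ) := lt_of_lt_of_le hx0 hn
  have ha : 64 ≤ ε ^ 2 * (n : ℝ) := by
    rw [div_le_iff₀ hε2] at hn
    linarith
  have hS1 : 64 / ε ^ 2 ≤ ((⌈64 / ε ^ 2⌉₊ : ℕ) : ℝ) := Nat.le_ceil _
  have hS2 : ((⌈64 / ε ^ 2⌉₊ : ℕ) : ℝ) < 64 / ε ^ 2 + 1 := Nat.ceil_lt_add_one hx0.le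
  have hw0 : 0 < ε ^ 5 * (n : ℝ) / 135200 := by positivity
  have hE1 : ((⌊ε ^ 5 * (n : ℝ) / 135200⌋₊ : ℕ) : ℝ) ≤ ε ^ 5 * (n : ℝ) / 135200 :=
    Nat.floor_le hw0.le
  have hE2 : ε ^ 5 * (n : ℝ) / 135200 < ((⌊ε ^ 5 * (n : ℝ) / 135200⌋₊ : ℕ) : ℝ) + 1 :=
    Nat.lt_floor_add_one _
  have hS0 : 0 < ((⌈64 / ε ^ 2⌉₊ : ℕ) : ℝ) := lt_of_lt_of_le hx0 hS1
  have hSl : 64 ≤ ((⌈64 / ε ^ 2⌉₊ : ℕ) : ℝ) * ε ^ 2 := (div_le_iff₀ hε2).mp hS1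
  have hSu : ((⌈64 / ε ^ 2⌉₊ : ℕ) : ℝ) * ε ^ 2 ≤ 65 := by
    have h1 : ((⌈64 / ε ^ 2⌉₊ : ℕ) : ℝ) * ε ^ 2 < (64 / ε ^ 2 + 1) * ε ^ 2 :=
      mul_lt_mul_of_pos_right hS2 hε2
    have h2 : (64 / ε ^ 2 + 1) * ε ^ 2 = 64 + ε ^ 2 := by
      field_simp
    have h3 : ε ^ 2 < 1 := by nlinarith
    linarith
  refine ⟨⌈64 / ε ^ 2⌉₊, ⌊ε ^ 5 * (n : ℝ) / 135200⌋₊,
    ε * (n : ℝ) / (8 * ((⌈64 / ε ^ 2⌉₊ : ℕ) : ℝ) ^ 2), ε * (n : ℝ) / 4, ?_, ?_, ?_⟩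
  · positivity
  · positivity
  · exact core (n : ℝ) ε N _ _ hε hε1 ha0 ha hSl hSu (Nat.cast_nonneg _) hE1 hE2 hN0 hN.le

end Helper14.P037Param
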