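import Mathlib

/-!
P068, matroid intersection: if the pair of duals `(M✶, N✶)` satisfies intersection, then so does
`(M, N)`. Direct proof (no packing/covering partitions): with `K₁ ⊔ K₂` a witness for the duals,
`P = cl_{M✶}(K₁)` and `C = E \ P`, take for `J_M` an `M`-basis of `C \ K₂` and for `J_N` an
`N`-basis of `P \ K₁`.
-/

namespace Vale.Agent.Helper14.P068Dual

open Matroid Set

variable {α : Type*}

/-- If `K` is a basis of `X` in the dual, and `K' ∪ K` is independent in the dual with `K'`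
disjoint from `X`, then the complement `E \ X` is spanned in `M` by `(E \ X) \ K'`. -/
theorem compl_subset_closure (M : Matroid α) {X K K' : Set α}
    (hK : M✶.IsBasis K X) (hKK' : M✶.Indep (K' ∪ K)) (hdisj : Disjoint X K') :
    M.E \ X ⊆ M.closure ((M.E \ X) \ K') := by
  have h1 : (M✶ ／ X).Indep K' := hK.contract_indep_iff.mpr ⟨hKK', hdisj⟩
  rw [← Matroid.dual_delete] at h1
  have h2 : (M ＼ X).Spanning ((M ＼ X).E \ K') := Matroid.Coindep.compl_spanning h1
  have h3 := h2.closure_eq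
  rw [Matroid.delete_closure_eq, Matroid.delete_ground] at h3
  intro e he
  rw [← h3] at he
  exact M.closure_subset_closure sdiff_subset he.1

/-- If `K` is a basis of `X` in the dual, `J ⊆ X \ K` and `B` is a basis of `E \ X` in `M`,
then `J ∪ B` is independent in `M`. -/
theorem indep_union (M : Matroid α) {X K J B : Set α} (hXE : X ⊆ M.E)
    (hK : M✶.IsBasis K X) (hJ : J ⊆ X \ K) (hB : M.IsBasis B (M.E \ X)) :
    M.Indep (J ∪ B) := by
  have hg : (M✶ ＼ (M.E \ X)).E = X := by
    rw [Matroid.delete_ground, Matroid.dual_ground, sdiff_sdiff_cancel_left hXE]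
  have hKs : (M✶ ＼ (M.E \ X)).Spanning K := by
    rw [Matroid.spanning_iff_ground_subset_closure (by rw [hg]; exact hK.subset), hg,
      Matroid.delete_closure_eq]
    intro e he
    refine ⟨M✶.closure_subset_closure ?_ (hK.subset_closure he), fun h => h.2 he⟩
    intro x hx
    exact ⟨hx, fun h => h.2 (hK.subset hx)⟩
  have hsp : (M✶ ＼ (M.E \ X)).Spanning ((M✶ ＼ (M.E \ X)).E \ J) := by
    refine hKs.superset ?_ sdiff_subset
    rw [hg]
    intro x hx
    exact ⟨hK.subset hx, fun hxJ => (hJ hxJ).2 hx⟩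
  have hco : (M✶ ＼ (M.E \ X)).Coindep J := by
    rw [Matroid.coindep_iff_compl_spanning (by rw [hg]; exact fun x hx => (hJ hx).1)]
    exact hsp
  have hci : (M ／ (M.E \ X)).Indep J := by
    rw [← Matroid.dual_delete_dual]
    exact hco
  exact (hB.contract_indep_iff.mp hci).1

/-- Intersection passes from the pair of duals to the pair itself. -/
theorem intersection_of_dual (M N : Matroid α) (hE : M.E = N.E)
    (h : ∃ K₁ K₂ : Set α, Disjoint K₁ K₂ ∧ M✶.Indep (K₁ ∪ K₂) ∧ N✶.Indep (K₁ ∪ K₂) ∧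
      M✶.closure K₁ ∪ N✶.closure K₂ = M.E) :
    ∃ JM JN : Set α, Disjoint JM JN ∧ M.Indep (JM ∪ JN) ∧ N.Indep (JM ∪ JN) ∧
      M.closure JM ∪ N.closure JN = M.E := by
  obtain ⟨K₁, K₂, hd, hMi, hNi, hcl⟩ := h
  have hPE : M✶.closure K₁ ⊆ M.E := M✶.closure_subset_ground K₁
  have hK₁i : M✶.Indep K₁ := hMi.subset subset_union_left
  have hK₂i : N✶.Indep K₂ := hNi.subset subset_union_right
  have hK₁b : M✶.IsBasis K₁ (M✶.closure K₁) := hK₁i.isBasis_closure
  have hK₁P : K₁ ⊆ M✶.closure K₁ := hK₁b.subset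
  -- `K₂` lies in the complement `C` of `P = cl_{M✶}(K₁)`
  have hK₂C : K₂ ⊆ M.E \ M✶.closure K₁ := by
    intro x hx
    have hxE : x ∈ M.E := hMi.subset_ground (Or.inr hx)
    refine ⟨hxE, ?_⟩
    have hxK₁ : x ∉ K₁ := fun h => Set.disjoint_left.mp hd h hx
    have hins : M✶.Indep (insert x K₁) := hMi.subset (by
      intro y hy
      rcases hy with rfl | hy
      · exact Or.inr hx
      · exact Or.inl hy)
    exact (hK₁i.notMem_closure_iff_of_notMem hxK₁ hxE).mpr hins
  have hCcl : M.E \ M✶.closure K₁ ⊆ N✶.closure K₂ := by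
    intro x hx
    have : x ∈ M✶.closure K₁ ∪ N✶.closure K₂ := by rw [hcl]; exact hx.1
    rcases this with h | h
    · exact absurd h hx.2
    · exact h
  have hK₂b : N✶.IsBasis K₂ (M.E \ M✶.closure K₁) :=
    hK₂i.isBasis_of_subset_of_subset_closure hK₂C hCcl
  have hCE : M.E \ M✶.closure K₁ ⊆ N.E := hE ▸ sdiff_subset
  have hNP : N.E \ (M.E \ M✶.closure K₁) = M✶.closure K₁ := by
    rw [← hE, sdiff_sdiff_cancel_left hPE]
  -- spanning statements
  have hspM : M.E \ M✶.closure K₁ ⊆ M.closure ((M.E \ M✶.closure K₁) \ K₂) :=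
    compl_subset_closure M hK₁b (by rw [union_comm]; exact hMi)
      (Set.disjoint_left.mpr fun x hxP hxK => (hK₂C hxK).2 hxP)
  have hspN : M✶.closure K₁ ⊆ N.closure (M✶.closure K₁ \ K₁) := by
    have := compl_subset_closure N hK₂b hNi
      (Set.disjoint_left.mpr fun x hxC hxK => hxC.2 (hK₁P hxK))
    rwa [hNP] at this
  -- the two bases
  obtain ⟨JM, hJM⟩ := M.exists_isBasis ((M.E \ M✶.closure K₁) \ K₂)
    (sdiff_subset.trans sdiff_subset)
  obtain ⟨JN, hJN⟩ := N.exists_isBasis (M✶.closure K₁ \ K₁)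
    (sdiff_subset.trans (hE ▸ hPE))
  have hJMb : M.IsBasis JM (M.E \ M✶.closure K₁) :=
    hJM.indep.isBasis_of_subset_of_subset_closure (hJM.subset.trans sdiff_subset)
      (by rw [hJM.closure_eq_closure]; exact hspM)
  have hJNb : N.IsBasis JN (M✶.closure K₁) :=
    hJN.indep.isBasis_of_subset_of_subset_closure (hJN.subset.trans sdiff_subset)
      (by rw [hJN.closure_eq_closure]; exact hspN)
  have hMind : M.Indep (JN ∪ JM) := indep_union M hPE hK₁b hJN.subset hJMb
  have hNind : N.Indep (JM ∪ JN) :=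
    indep_union N hCE hK₂b hJM.subset (by rw [hNP]; exact hJNb)
  refine ⟨JM, JN, ?_, by rw [union_comm]; exact hMind, hNind, ?_⟩
  · exact Set.disjoint_left.mpr fun x hxM hxN =>
      (hJM.subset hxM).1.2 (hJN.subset hxN).1
  · apply subset_antisymm
    · exact union_subset (M.closure_subset_ground _) (hE ▸ N.closure_subset_ground _)
    · intro x hx
      by_cases hxP : x ∈ M✶.closure K₁
      · exact Or.inr (hJNb.subset_closure hxP)
      · exact Or.inl (hJMb.subset_closure ⟨hx, hxP⟩)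

end Vale.Agent.Helper14.P068Dual
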