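import Vale.Agent.Results.P068.FiniteRankOrCorank

/-!
P068: packing/covering partitions for finite families, from intersection of the direct sum
`⊕ M_i` on `Θ × α` with the partition matroid (at most one copy of each element of `E`)
(`(freeOn E).comap Prod.snd`).
-/

namespace Vale.Agent.Helper14.P068Fam

open Matroid Set

variable {α Θ : Type*}

/-- From an intersection witness for the direct sum and the partition matroid to a
packing/covering partition of the family. -/
theorem family_pc_of_intersection (M : Θ → Matroid α) (E : Set α) (hE : ∀ i, (M i).E = E)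
    (h : ∃ JM JN : Set (Θ × α), Disjoint JM JN ∧ (Matroid.sum' M).Indep (JM ∪ JN) ∧
      ((freeOn E).comap Prod.snd).Indep (JM ∪ JN) ∧
      (Matroid.sum' M).closure JM ∪ ((freeOn E).comap Prod.snd).closure JN
        = (Matroid.sum' M).E) :
    ∃ (P C : Set α) (S I : Θ → Set α), P ∪ C = E ∧ Disjoint P C ∧ (∀ i, S i ⊆ P) ∧
      (∀ i j, i ≠ j → Disjoint (S i) (S j)) ∧ (∀ i, ((M i) ↾ P).closure (S i) = P) ∧
      (∀ i, I i ⊆ C) ∧ (∀ i, (((M i)✶ ↾ C)✶).Indep (I i)) ∧ (⋃ i, I i) = C := by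
  obtain ⟨JM, JN, hd, hMi, hNi, hcl⟩ := h
  have hinj : InjOn Prod.snd (JM ∪ JN) := (comap_indep_iff.mp hNi).2
  have hJE : ∀ x ∈ JM ∪ JN, x.2 ∈ E := by
    intro x hx
    exact (freeOn_indep_iff.mp (comap_indep_iff.mp hNi).1) ⟨x, hx, rfl⟩
  have hfib : ∀ i, (M i).Indep (Prod.mk i ⁻¹' (JM ∪ JN)) := sum'_indep_iff.mp hMi
  have hJMi : (Matroid.sum' M).Indep JM := hMi.subset subset_union_left
  have hJNi : ((freeOn E).comap Prod.snd).Indep JN := hNi.subset subset_union_right
  obtain ⟨C, hCm⟩ : ∃ C : Set α, ∀ e, e ∈ C ↔ ∃ j, (j, e) ∈ JN := ⟨{e | ∃ j, (j, e) ∈ JN}, fun _ => Iff.rfl⟩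
  obtain ⟨S, hSm⟩ : ∃ S : Θ → Set α, ∀ i e, e ∈ S i ↔ (i, e) ∈ JM :=
    ⟨fun i => {e | (i, e) ∈ JM}, fun _ _ => Iff.rfl⟩
  obtain ⟨I, hIm⟩ : ∃ I : Θ → Set α, ∀ i e, e ∈ I i ↔ (i, e) ∈ JN :=
    ⟨fun i => {e | (i, e) ∈ JN}, fun _ _ => Iff.rfl⟩
  have hCE : C ⊆ E := by
    intro e he
    obtain ⟨j, hj⟩ := (hCm e).mp he
    exact hJE _ (Or.inr hj)
  have hSP : ∀ i, S i ⊆ E \ C := by
    intro i e he
    have he' : (i, e) ∈ JM := (hSm i e).mp he
    refine ⟨hJE (i, e) (Or.inl he'), fun hC => ?_⟩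
    obtain ⟨j, hj⟩ := (hCm e).mp hC
    have heq : (i, e) = (j, e) := hinj (Or.inl he') (Or.inr hj) rfl
    rw [heq] at he'
    exact Set.disjoint_left.mp hd he' hj
  have hSI : ∀ i, (M i).Indep (S i ∪ I i) := by
    intro i
    refine (hfib i).subset ?_
    intro e he
    rcases he with he | he
    · exact Or.inl ((hSm i e).mp he)
    · exact Or.inr ((hIm i e).mp he)
  have hSind : ∀ i, (M i).Indep (S i) := fun i => (hSI i).subset subset_union_left
  have hPcl : ∀ i, E \ C ⊆ (M i).closure (S i) := by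
    intro i e he
    have hmem : (i, e) ∈ (Matroid.sum' M).E := by
      rw [sum'_ground_eq]
      exact mem_iUnion.mpr ⟨i, e, by rw [hE]; exact he.1, rfl⟩
    rw [← hcl] at hmem
    rcases hmem with h1 | h2
    · rw [hJMi.mem_closure_iff'] at h1
      rw [(hSind i).mem_closure_iff']
      refine ⟨by rw [hE]; exact he.1, fun hins => ?_⟩
      rw [hSm]
      apply h1.2
      rw [sum'_indep_iff]
      intro j
      by_cases hji : j = i
      · subst hji
        refine hins.subset ?_
        intro x hx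
        rcases hx with hx | hx
        · exact Or.inl (Prod.mk.inj hx).2
        · exact Or.inr ((hSm j x).mpr hx)
      · refine (hSind j).subset ?_
        intro x hx
        rcases hx with hx | hx
        · exact absurd (Prod.mk.inj hx).1 hji
        · exact (hSm j x).mpr hx
    · exfalso
      rw [hJNi.mem_closure_iff'] at h2
      apply he.2
      by_contra hne
      have hne' : ∀ j, (j, e) ∉ JN := fun j hj => hne ((hCm e).mpr ⟨j, hj⟩)
      have hins : ((freeOn E).comap Prod.snd).Indep (insert (i, e) JN) := by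
        rw [comap_indep_iff, freeOn_indep_iff]
        refine ⟨?_, ?_⟩
        · rintro _ ⟨x, hx, rfl⟩
          rcases hx with rfl | hx
          · exact he.1
          · exact hJE x (Or.inr hx)
        · intro x hx y hy hxy
          rcases hx with rfl | hx <;> rcases hy with rfl | hy
          · rfl
          · exfalso
            apply hne' y.1
            have : y = (y.1, e) := Prod.ext rfl hxy.symm
            rw [← this]
            exact hy
          · exfalso
            apply hne' x.1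
            have : x = (x.1, e) := Prod.ext rfl hxy
            rw [← this]
            exact hx
          · exact hinj (Or.inr hx) (Or.inr hy) hxy
      exact hne' i (h2.2 hins)
  have hSb : ∀ i, (M i).IsBasis (S i) (E \ C) := fun i =>
    (hSind i).isBasis_of_subset_of_subset_closure (hSP i) (hPcl i)
  refine ⟨E \ C, C, S, I, sdiff_union_of_subset hCE, disjoint_sdiff_left, hSP, ?_, ?_, ?_, ?_, ?_⟩
  · intro i j hij
    refine Set.disjoint_left.mpr fun e hei hej => hij ?_
    have h1 : (i, e) ∈ JM := (hSm i e).mp hei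
    have h2 : (j, e) ∈ JM := (hSm j e).mp hej
    exact (Prod.mk.inj (hinj (Or.inl h1) (Or.inl h2) rfl)).1
  · intro i
    rw [Matroid.restrict_closure_eq (M i) (hSP i) (by rw [hE]; exact sdiff_subset)]
    exact inter_eq_right.mpr (hPcl i)
  · intro i e he
    exact (hCm e).mpr ⟨i, (hIm i e).mp he⟩
  · intro i
    have hCeq : C = (M i)✶.E \ (E \ C) := by
      rw [dual_ground, hE, sdiff_sdiff_cancel_left hCE]
    have h1 : (M i)✶ ↾ C = (M i)✶ ＼ (E \ C) := by
      rw [Matroid.delete_eq_restrict, ← hCeq]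
    rw [h1, Matroid.dual_delete_dual]
    refine (hSb i).contract_indep_iff.mpr ⟨by rw [union_comm]; exact hSI i, ?_⟩
    exact Set.disjoint_left.mpr fun e heP heI => heP.2 ((hCm e).mpr ⟨i, (hIm i e).mp heI⟩)
  · ext e
    rw [mem_iUnion, hCm]
    exact exists_congr fun i => hIm i e

end Vale.Agent.Helper14.P068Fam

namespace Vale.Agent.Helper14.P068Fam

open Matroid Set

variable {α Θ : Type*}

theorem sum'_rankFinite [Finite Θ] (M : Θ → Matroid α) (h : ∀ i, (M i).RankFinite) :
    (Matroid.sum' M).RankFinite := by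
  choose B hB hfin using fun i => (h i).exists_finite_isBase
  refine ⟨⋃ i, Prod.mk i '' B i, ?_, Set.finite_iUnion fun i => (hfin i).image _⟩
  rw [sum'_isBase_iff]
  intro i
  have heq : Prod.mk i ⁻¹' (⋃ j, Prod.mk j '' B j) = B i := by
    ext e
    simp
  rw [heq]
  exact hB i

theorem sum'_dual_rankFinite [Finite Θ] (M : Θ → Matroid α) (h : ∀ i, (M i)✶.RankFinite) :
    (Matroid.sum' M)✶.RankFinite := by
  choose B hB hfin using fun i => (h i).exists_finite_isBase
  have hB' : ∀ i, (M i).IsBase ((M i).E \ B i) ∧ B i ⊆ (M i).E :=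
    fun i => dual_isBase_iff'.mp (hB i)
  have hbase : (Matroid.sum' M).IsBase (⋃ i, Prod.mk i '' ((M i).E \ B i)) := by
    rw [sum'_isBase_iff]
    intro i
    have heq : Prod.mk i ⁻¹' (⋃ j, Prod.mk j '' ((M j).E \ B j)) = (M i).E \ B i := by
      ext e
      simp
    rw [heq]
    exact (hB' i).1
  refine ⟨(Matroid.sum' M).E \ ⋃ i, Prod.mk i '' ((M i).E \ B i), hbase.compl_isBase_dual, ?_⟩
  refine (Set.finite_iUnion fun i => (hfin i).image (Prod.mk i)).subset ?_
  rintro ⟨i, e⟩ ⟨hE, hn⟩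
  rw [sum'_ground_eq] at hE
  obtain ⟨j, hj⟩ := mem_iUnion.mp hE
  obtain ⟨e', he', heq⟩ := hj
  obtain ⟨rfl, rfl⟩ := Prod.mk.inj heq
  refine mem_iUnion.mpr ⟨j, e', ?_, rfl⟩
  by_contra hne
  exact hn (mem_iUnion.mpr ⟨j, e', ⟨he', hne⟩, rfl⟩)

/-- Packing/covering partitions for finite families all of finite rank, or all of finite
corank. -/
theorem family_pc [Finite Θ] (M : Θ → Matroid α) (E : Set α) (hE : ∀ i, (M i).E = E)
    (h : (∀ i, (M i).RankFinite) ∨ (∀ i, (M i)✶.RankFinite)) :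
    ∃ (P C : Set α) (S I : Θ → Set α), P ∪ C = E ∧ Disjoint P C ∧ (∀ i, S i ⊆ P) ∧
      (∀ i j, i ≠ j → Disjoint (S i) (S j)) ∧ (∀ i, ((M i) ↾ P).closure (S i) = P) ∧
      (∀ i, I i ⊆ C) ∧ (∀ i, (((M i)✶ ↾ C)✶).Indep (I i)) ∧ (⋃ i, I i) = C := by
  apply family_pc_of_intersection M E hE
  have hg : (Matroid.sum' M).E = ((freeOn E).comap Prod.snd).E := by
    rw [sum'_ground_eq, comap_ground_eq, freeOn_ground]
    ext ⟨i, e⟩
    constructor
    · intro hx
      obtain ⟨j, e', he', heq⟩ := mem_iUnion.mp hx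
      obtain ⟨rfl, rfl⟩ := Prod.mk.inj heq
      rw [hE] at he'
      exact he'
    · intro hx
      exact mem_iUnion.mpr ⟨i, e, by rw [hE]; exact hx, rfl⟩
  refine Vale.Agent.Results.P068.FiniteRankOrCorank.result _ _ hg ?_
  rcases h with h | h
  · exact Or.inl (sum'_rankFinite M h)
  · exact Or.inr (Or.inr (Or.inl (sum'_dual_rankFinite M h)))

end Vale.Agent.Helper14.P068Fam
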