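import Vale.Agent.Helper14.P068Dual

/-!
P068: if the pair `(M, N✶)` satisfies intersection, then the two-member family `(M, N)` has a
packing/covering partition (one direction of the Bowler-Carmesin equivalence, for pairs).
With a witness `J_M ⊔ J_N` for `(M, N✶)`: `P = cl_M(J_M)`, `C = E \ P`, `S_M = J_M`,
`S_N = P \ J_M`, `I_M = J_N`, `I_N = C \ J_N`.
-/

namespace Vale.Agent.Helper14.P068PC

open Matroid Set

variable {α : Type*}

theorem packing_covering_of_intersection (M N : Matroid α) (hE : M.E = N.E)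
    (h : ∃ JM JN : Set α, Disjoint JM JN ∧ M.Indep (JM ∪ JN) ∧ N✶.Indep (JM ∪ JN) ∧
      M.closure JM ∪ N✶.closure JN = M.E) :
    ∃ P C SM SN IM IN : Set α, P ∪ C = M.E ∧ Disjoint P C ∧ SM ⊆ P ∧ SN ⊆ P ∧
      Disjoint SM SN ∧ (M ↾ P).closure SM = P ∧ (N ↾ P).closure SN = P ∧ IM ⊆ C ∧ IN ⊆ C ∧
      ((M✶ ↾ C)✶).Indep IM ∧ ((N✶ ↾ C)✶).Indep IN ∧ IM ∪ IN = C := by
  obtain ⟨JM, JN, hd, hMi, hNi, hcl⟩ := h
  have hPE : M.closure JM ⊆ M.E := M.closure_subset_ground JM
  have hJMi : M.Indep JM := hMi.subset subset_union_left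
  have hJNi : N✶.Indep JN := hNi.subset subset_union_right
  have hJMb : M.IsBasis JM (M.closure JM) := hJMi.isBasis_closure
  have hJMP : JM ⊆ M.closure JM := hJMb.subset
  have hJNC : JN ⊆ M.E \ M.closure JM := by
    intro x hx
    have hxE : x ∈ M.E := hMi.subset_ground (Or.inr hx)
    refine ⟨hxE, ?_⟩
    have hxJM : x ∉ JM := fun h => Set.disjoint_left.mp hd h hx
    have hins : M.Indep (insert x JM) := hMi.subset (by
      intro y hy
      rcases hy with rfl | hy
      · exact Or.inr hx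
      · exact Or.inl hy)
    exact (hJMi.notMem_closure_iff_of_notMem hxJM hxE).mpr hins
  have hCcl : M.E \ M.closure JM ⊆ N✶.closure JN := by
    intro x hx
    have : x ∈ M.closure JM ∪ N✶.closure JN := by rw [hcl]; exact hx.1
    rcases this with h | h
    · exact absurd h hx.2
    · exact h
  have hJNb : N✶.IsBasis JN (M.E \ M.closure JM) :=
    hJNi.isBasis_of_subset_of_subset_closure hJNC hCcl
  have hCE : M.E \ M.closure JM ⊆ N.E := hE ▸ sdiff_subset
  have hNP : N.E \ (M.E \ M.closure JM) = M.closure JM := by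
    rw [← hE, sdiff_sdiff_cancel_left hPE]
  have hspN : M.closure JM ⊆ N.closure (M.closure JM \ JM) := by
    have := Vale.Agent.Helper14.P068Dual.compl_subset_closure N hJNb hNi
      (Set.disjoint_left.mpr fun x hxC hxJ => hxC.2 (hJMP hxJ))
    rwa [hNP] at this
  refine ⟨M.closure JM, M.E \ M.closure JM, JM, M.closure JM \ JM, JN,
    (M.E \ M.closure JM) \ JN, union_sdiff_cancel hPE, disjoint_sdiff_right, hJMP, sdiff_subset,
    disjoint_sdiff_right, ?_, ?_, hJNC, sdiff_subset, ?_, ?_, union_sdiff_cancel hJNC⟩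
  · rw [Matroid.restrict_closure_eq M hJMP hPE, inter_self]
  · rw [Matroid.restrict_closure_eq N sdiff_subset (hE ▸ hPE)]
    exact inter_eq_right.mpr hspN
  · have h1 : M✶ ↾ (M.E \ M.closure JM) = M✶ ＼ M.closure JM := rfl
    rw [h1, Matroid.dual_delete_dual]
    exact hJMb.contract_indep_iff.mpr ⟨by rw [union_comm]; exact hMi,
      Set.disjoint_left.mpr fun x hxP hxJ => (hJNC hxJ).2 hxP⟩
  · show (N✶ ↾ (M.E \ M.closure JM)).Coindep ((M.E \ M.closure JM) \ JN)
    rw [Matroid.coindep_iff_compl_spanning (by rw [Matroid.restrict_ground_eq]; exact sdiff_subset),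
      Matroid.restrict_ground_eq, sdiff_sdiff_cancel_left hJNC,
      Matroid.spanning_iff_ground_subset_closure (by rw [Matroid.restrict_ground_eq]; exact hJNC),
      Matroid.restrict_ground_eq, Matroid.restrict_closure_eq N✶ hJNC hCE]
    exact subset_inter hCcl subset_rfl

end Vale.Agent.Helper14.P068PC
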