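import Mathlib

/-!
Translational tilings of an abelian group by a finite tile of prime cardinality.
-/

namespace Vale.Agent.Helper14.PrimeTile

open Finset

variable {G : Type*} [AddCommGroup G]

/-- `A ⊕ F = G`: every element `g` of `G` has a unique expression `g = a + f`
with `a ∈ A` and `f ∈ F`. -/
def IsTiling (A : Set G) (F : Finset G) : Prop :=
  ∀ g : G, ∃! af : G × G, af.1 ∈ A ∧ af.2 ∈ F ∧ af.1 + af.2 = g

/-- A set `A` is periodic if it is invariant under translation by every element of some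
subgroup of finite index. -/
def IsPeriodic (A : Set G) : Prop :=
  ∃ H : AddSubgroup G, H.FiniteIndex ∧ ∀ h ∈ H, ∀ a ∈ A, a + h ∈ A

section counting

variable {A : Set G} {F : Finset G}

open Classical in
lemma card_filter_eq_one (hT : IsTiling A F) (y : G) :
    (F.filter (fun f => y - f ∈ A)).card = 1 := by
  obtain ⟨⟨a, f⟩, ⟨ha, hf, h⟩, huniq⟩ := hT y
  simp only at ha hf h
  rw [Finset.card_eq_one]
  refine ⟨f, ?_⟩
  ext f'
  simp only [Finset.mem_filter, Finset.mem_singleton]
  constructor
  · rintro ⟨hf', hA⟩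
    have := huniq (y - f', f') ⟨hA, hf', by simp⟩
    exact (Prod.ext_iff.mp this).2
  · rintro rfl
    refine ⟨hf, ?_⟩
    have : y - f' = a := by rw [← h]; simp
    rw [this]; exact ha

end counting

section operators

variable (p : ℕ) [Fact p.Prime]

/-- translation operator on functions `G → ZMod p` -/
noncomputable def T (g : G) : Module.End (ZMod p) (G → ZMod p) :=
  LinearMap.funLeft (ZMod p) (ZMod p) (fun x => x - g)

lemma T_apply (g : G) (u : G → ZMod p) (x : G) : T p g u x = u (x - g) := rfl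

lemma T_mul (g h : G) : T p g * T p h = T p (g + h) := by
  ext u x
  simp only [Module.End.mul_apply, T_apply]
  congr 1
  abel

lemma T_commute (g h : G) : Commute (T p g) (T p h) := by
  unfold Commute SemiconjBy
  rw [T_mul, T_mul, add_comm]

lemma T_zero : T p (0 : G) = 1 := by
  ext u x
  simp [T_apply]

lemma T_pow (g : G) (n : ℕ) : T p g ^ n = T p (n • g) := by
  induction n with
  | zero => simp [T_zero]
  | succ n ih => rw [pow_succ, ih, T_mul, succ_nsmul]

instance charP_end : CharP (Module.End (ZMod p) (G → ZMod p)) p := by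
  apply charP_of_injective_algebraMap (R := ZMod p)
  intro a b hab
  have := congrArg (fun (e : Module.End (ZMod p) (G → ZMod p)) => e (fun _ => 1) 0) hab
  simpa [Algebra.algebraMap_eq_smul_one] using this

lemma sum_T_pow (F : Finset G) :
    (∑ f ∈ F, T p f) ^ p = ∑ f ∈ F, T p (p • f) := by
  classical
  induction F using Finset.induction_on with
  | empty =>
    simp [zero_pow (Fact.out : p.Prime).ne_zero]
  | insert a s ha ih =>
    rw [Finset.sum_insert ha, Finset.sum_insert ha]
    rw [add_pow_char_of_commute]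
    · rw [ih, T_pow]
    · exact Commute.sum_right _ _ _ (fun i _ => T_commute p a i)

end operators

/-- Key congruence: if `A ⊕ F = G` and `|F| = p` is prime then for every `x` the number of
`f ∈ F` with `x - p • f ∈ A` is divisible by `p`. -/
lemma card_filter_dvd {A : Set G} {F : Finset G} {p : ℕ} (hp : p.Prime) (hF : F.card = p)
    (hT : IsTiling A F) (x : G) [DecidablePred (fun f => x - p • f ∈ A)] :
    p ∣ (F.filter (fun f => x - p • f ∈ A)).card := by
  classical
  have : Fact p.Prime := ⟨hp⟩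
  set ind : G → ZMod p := fun y => if y ∈ A then 1 else 0 with hind
  set S : Module.End (ZMod p) (G → ZMod p) := ∑ f ∈ F, T p f with hS
  have h1 : S ind = fun _ => 1 := by
    ext y
    simp only [hS, LinearMap.sum_apply, Finset.sum_apply, T_apply, hind]
    rw [Finset.sum_ite, Finset.sum_const_zero, add_zero, Finset.sum_const, card_filter_eq_one hT y]
    simp
  have h2 : S (fun _ => 1) = 0 := by
    ext y
    simp only [hS, LinearMap.sum_apply, Finset.sum_apply, T_apply]
    simp [hF]
  have h3 : (S ^ p) ind = 0 := by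
    have hp2 : p = p - 2 + 1 + 1 := by have := hp.two_le; omega
    have hS3 : S ^ p = S ^ (p - 2 + 1 + 1) := congrArg (fun n => S ^ n) hp2
    rw [hS3, pow_succ, pow_succ, mul_assoc, Module.End.mul_apply, Module.End.mul_apply, h1, h2,
      map_zero]
  rw [hS, sum_T_pow] at h3
  have h4 := congrFun h3 x
  simp only [LinearMap.sum_apply, Finset.sum_apply, T_apply, hind, Pi.zero_apply] at h4
  have h4' : ((F.filter (fun f => x - p • f ∈ A)).card : ZMod p) = 0 := by
    rw [← h4, Finset.card_filter, Nat.cast_sum]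
    refine Finset.sum_congr rfl (fun c _ => ?_)
    by_cases hc : x - p • c ∈ A <;> simp [hc]
  exact (ZMod.natCast_eq_zero_iff _ p).mp h4' 

/-- If `A ⊕ F = G` with `|F| = p` prime, then `A` is invariant under `p • (f - f')`
for all `f, f' ∈ F`. -/
theorem add_nsmul_sub_mem {A : Set G} {F : Finset G} {p : ℕ} (hp : p.Prime) (hF : F.card = p)
    (hT : IsTiling A F) {f f' : G} (hf : f ∈ F) (hf' : f' ∈ F) {a : G} (ha : a ∈ A) :
    a + p • (f - f') ∈ A := by
  classical
  set x := a + p • f with hx
  have hdvd := card_filter_dvd hp hF hT x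
  have hmem : f ∈ F.filter (fun f => x - p • f ∈ A) := by
    simp only [Finset.mem_filter, hf, true_and, hx]
    simpa using ha
  have hpos : 0 < (F.filter (fun f => x - p • f ∈ A)).card := Finset.card_pos.mpr ⟨f, hmem⟩
  have hle : (F.filter (fun f => x - p • f ∈ A)).card ≤ p := hF ▸ Finset.card_filter_le _ _
  have heq : (F.filter (fun f => x - p • f ∈ A)).card = F.card := by
    rw [hF]
    exact le_antisymm hle (Nat.le_of_dvd hpos hdvd)
  have hall : F.filter (fun f => x - p • f ∈ A) = F :=
    Finset.eq_of_subset_of_card_le (Finset.filter_subset _ _) heq.ge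
  have : f' ∈ F.filter (fun f => x - p • f ∈ A) := by rw [hall]; exact hf'
  simp only [Finset.mem_filter, hx] at this
  have h6 : a + p • f - p • f' = a + p • (f - f') := by
    rw [nsmul_sub]; abel
  rw [← h6]; exact this.2

section periodic

variable [Module.Finite ℤ G]

/-- In a finitely generated abelian group, a tile of prime cardinality that tiles admits a
periodic tiling. -/
theorem exists_periodic_tiling {A : Set G} {F : Finset G} {p : ℕ} (hp : p.Prime)
    (hF : F.card = p) (hT : IsTiling A F) : ∃ A' : Set G, IsTiling A' F ∧ IsPeriodic A' := by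
  classical
  obtain ⟨f0, hf0⟩ : F.Nonempty := by
    rw [← Finset.card_pos, hF]; exact hp.pos
  set D : Set G := {d | ∃ f ∈ F, ∃ f' ∈ F, d = f - f'} with hD
  set N : AddSubgroup G := AddSubgroup.closure D with hN
  have hFN : ∀ f ∈ F, ∀ f' ∈ F, f - f' ∈ N := fun f hf f' hf' =>
    AddSubgroup.subset_closure ⟨f, hf, f', hf', rfl⟩
  have hstab : ∀ n ∈ N, (∀ a ∈ A, a + p • n ∈ A) ∧ (∀ a ∈ A, a - p • n ∈ A) := by
    intro n hn
    induction hn using AddSubgroup.closure_induction with
    | mem d hd =>
      obtain ⟨f, hf, f', hf', rfl⟩ := hd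
      refine ⟨fun a ha => add_nsmul_sub_mem hp hF hT hf hf' ha, fun a ha => ?_⟩
      have h := add_nsmul_sub_mem hp hF hT hf' hf ha
      have e : a + p • (f' - f) = a - p • (f - f') := by
        rw [nsmul_sub, nsmul_sub]; abel
      rwa [e] at h
    | zero => simp
    | add x y _ _ hx hy =>
      refine ⟨fun a ha => ?_, fun a ha => ?_⟩
      · have h := hy.1 _ (hx.1 a ha)
        rwa [nsmul_add, ← add_assoc]
      · have h := hy.2 _ (hx.2 a ha)
        have e : a - p • (x + y) = a - p • x - p • y := by rw [nsmul_add]; abel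
        rwa [e]
    | neg x _ hx =>
      refine ⟨fun a ha => ?_, fun a ha => ?_⟩
      · have h := hx.2 a ha
        have e : a + p • (-x) = a - p • x := by rw [neg_nsmul]; abel
        rwa [e]
      · have h := hx.1 a ha
        have e : a - p • (-x) = a + p • x := by rw [neg_nsmul]; abel
        rwa [e]
  -- Artin-Rees
  set Nsub : Submodule ℤ G := Submodule.span ℤ D with hNsub
  have hNN : ∀ g, g ∈ Nsub ↔ g ∈ N := by
    intro g
    rw [hN, ← Submodule.span_int_eq_addSubgroupClosure]
    rfl
  set I : Ideal ℤ := Ideal.span {(p : ℤ)} with hI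
  obtain ⟨k, hk⟩ := Ideal.exists_pow_inf_eq_pow_smul I Nsub
  set Ksub : Submodule ℤ G := I ^ (k + 1) • ⊤ with hKsub
  have hKN : ∀ g ∈ Ksub, g ∈ N → ∃ n ∈ N, g = p • n := by
    intro g hg hgN
    have h1 : g ∈ I ^ (k + 1) • (⊤ : Submodule ℤ G) ⊓ Nsub := ⟨hg, (hNN g).mpr hgN⟩
    rw [hk (k + 1) (Nat.le_succ k)] at h1
    simp only [Nat.add_sub_cancel_left, pow_one] at h1
    have h2 : I • (I ^ k • (⊤ : Submodule ℤ G) ⊓ Nsub) ≤ I • Nsub :=
      smul_mono_right _ inf_le_right
    have h3 := h2 h1
    rw [hI, Submodule.ideal_span_singleton_smul] at h3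
    obtain ⟨n, hn, rfl⟩ := (Submodule.mem_smul_pointwise_iff_exists _ _ _).mp h3
    exact ⟨n, (hNN n).mp hn, by simp⟩
  set K : AddSubgroup G := Ksub.toAddSubgroup with hK
  have hKfin : K.FiniteIndex := by
    have hfin : Finite (G ⧸ Ksub) := by
      apply Module.finite_of_fg_torsion
      intro x
      induction x using Submodule.Quotient.induction_on with
      | H g =>
        have hpne : ((p : ℤ) ^ (k + 1)) ∈ nonZeroDivisors ℤ := by
          apply mem_nonZeroDivisors_of_ne_zero
          exact pow_ne_zero _ (by exact_mod_cast hp.ne_zero)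
        refine ⟨⟨_, hpne⟩, ?_⟩
        show ((p : ℤ) ^ (k + 1)) • (Submodule.Quotient.mk g : G ⧸ Ksub) = 0
        rw [← Submodule.Quotient.mk_smul, Submodule.Quotient.mk_eq_zero]
        exact Submodule.smul_mem_smul (Ideal.pow_mem_pow (Ideal.mem_span_singleton_self _) _)
          Submodule.mem_top
    have hfin' : Finite (G ⧸ K) := hfin
    exact AddSubgroup.finiteIndex_of_finite_quotient
  -- the subgroup M = N + K and the set B = A_N + K
  set M : AddSubgroup G := N ⊔ K with hM
  set B : Set G := {b | ∃ a ∈ A, ∃ k ∈ K, a + f0 ∈ N ∧ b = a + k} with hB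
  have hBM : ∀ b ∈ B, b + f0 ∈ M := by
    rintro b ⟨a, _, k, hk', haN, rfl⟩
    have : a + k + f0 = (a + f0) + k := by abel
    rw [this]
    exact AddSubgroup.add_mem_sup haN hk'
  have hBK : ∀ b ∈ B, ∀ k ∈ K, b + k ∈ B := by
    rintro b ⟨a, ha, k, hk', haN, rfl⟩ k' hk''
    exact ⟨a, ha, k + k', K.add_mem hk' hk'', haN, by abel⟩
  -- B ⊕ F = M
  have hBex : ∀ m ∈ M, ∃ b ∈ B, ∃ f ∈ F, b + f = m := by
    intro m hm
    obtain ⟨n, hn, k', hk', rfl⟩ := AddSubgroup.mem_sup.mp hm
    obtain ⟨⟨a, f⟩, ⟨ha, hf, h⟩, -⟩ := hT n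
    simp only at ha hf h
    refine ⟨a + k', ⟨a, ha, k', hk', ?_, rfl⟩, f, hf, by rw [← h]; abel⟩
    have : a + f0 = n - (f - f0) := by rw [← h]; abel
    rw [this]
    exact N.sub_mem hn (hFN f hf f0 hf0)
  have hBuniq : ∀ b1 ∈ B, ∀ b2 ∈ B, ∀ f1 ∈ F, ∀ f2 ∈ F, b1 + f1 = b2 + f2 →
      b1 = b2 ∧ f1 = f2 := by
    rintro b1 ⟨a1, ha1, k1, hk1, ha1N, rfl⟩ b2 ⟨a2, ha2, k2, hk2, ha2N, rfl⟩ f1 hf1 f2 hf2 h
    have hkk : k1 - k2 ∈ K := K.sub_mem hk1 hk2
    have hkN : k1 - k2 ∈ N := by
      have : k1 - k2 = (a2 + f0) + (f2 - f0) - ((a1 + f0) + (f1 - f0)) := by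
        have h' : a1 + k1 + f1 - (a1 + f1) - k2 = a2 + k2 + f2 - (a1 + f1) - k2 := by rw [h]
        have e1 : a1 + k1 + f1 - (a1 + f1) - k2 = k1 - k2 := by abel
        have e2 : a2 + k2 + f2 - (a1 + f1) - k2
            = (a2 + f0) + (f2 - f0) - ((a1 + f0) + (f1 - f0)) := by abel
        rw [e1, e2] at h'; exact h'
      rw [this]
      exact N.sub_mem (N.add_mem ha2N (hFN f2 hf2 f0 hf0)) (N.add_mem ha1N (hFN f1 hf1 f0 hf0))
    obtain ⟨n, hn, hkn⟩ := hKN _ hkk hkN
    have ha1' : a1 + p • n ∈ A := (hstab n hn).1 a1 ha1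
    have hsum : (a1 + p • n) + f1 = a2 + f2 := by
      rw [← hkn]
      have : a1 + (k1 - k2) + f1 = (a1 + k1 + f1) - k2 := by abel
      rw [this, h]; abel
    obtain ⟨⟨a, f⟩, -, huniq⟩ := hT (a2 + f2)
    have u1 := huniq (a1 + p • n, f1) ⟨ha1', hf1, hsum⟩
    have u2 := huniq (a2, f2) ⟨ha2, hf2, rfl⟩
    have u3 : (a1 + p • n, f1) = (a2, f2) := u1.trans u2.symm
    have u4 := (Prod.ext_iff.mp u3)
    simp only at u4
    refine ⟨?_, u4.2⟩
    rw [← u4.1, ← hkn]; abel
  -- coset representatives modulo M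
  set r : G → G := fun g => (QuotientAddGroup.mk g : G ⧸ M).out with hr
  have hr1 : ∀ g, g - r g ∈ M := by
    intro g
    have h1 : (QuotientAddGroup.mk (r g) : G ⧸ M) = QuotientAddGroup.mk g :=
      QuotientAddGroup.out_eq' _
    have h2 := QuotientAddGroup.eq.mp h1
    have : g - r g = -(r g) + g := by abel
    rw [this]; exact h2
  have hr2 : ∀ g g', g' - g ∈ M → r g' = r g := by
    intro g g' h
    have h1 : (QuotientAddGroup.mk g : G ⧸ M) = QuotientAddGroup.mk g' := by
      rw [QuotientAddGroup.eq]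
      have : -g + g' = g' - g := by abel
      rw [this]; exact h
    simp only [hr, h1]
  have hNM : N ≤ M := le_sup_left
  have hKM : K ≤ M := le_sup_right
  refine ⟨{g | g - r (g + f0) ∈ B}, ?_, K, hKfin, ?_⟩
  · intro g
    obtain ⟨b, hb, f, hf, hbf⟩ := hBex _ (hr1 g)
    have hmem : r g + b - r (r g + b + f0) ∈ B := by
      have : r (r g + b + f0) = r g := by
        refine (hr2 (r g) (r g + b + f0) ?_).trans (hr2 g (r g) ?_)
        · have : r g + b + f0 - r g = b + f0 := by abel
          rw [this]; exact hBM b hb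
        · have : r g - g = -(g - r g) := by abel
          rw [this]; exact M.neg_mem (hr1 g)
      rw [this]
      have : r g + b - r g = b := by abel
      rw [this]; exact hb
    refine ⟨(r g + b, f), ⟨hmem, hf, ?_⟩, ?_⟩
    · show r g + b + f = g
      rw [add_assoc, hbf]; abel
    · rintro ⟨a'', f''⟩ ⟨ha'', hf'', hsum⟩
      simp only at ha'' hf'' hsum
      have hrr : r (a'' + f0) = r g := by
        apply hr2
        have : a'' + f0 - g = -(f'' - f0) := by rw [← hsum]; abel
        rw [this]
        exact M.neg_mem (hNM (hFN f'' hf'' f0 hf0))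
      have hb'' : a'' - r g ∈ B := by
        have := ha''
        simp only [Set.mem_ofPred_eq, hrr] at this
        exact this
      have hsum2 : (a'' - r g) + f'' = b + f := by
        rw [hbf, ← hsum]; abel
      obtain ⟨e1, e2⟩ := hBuniq _ hb'' _ hb _ hf'' _ hf hsum2
      rw [Prod.mk.injEq]
      refine ⟨?_, e2⟩
      rw [← e1]; abel
  · intro k' hk' a ha
    simp only [Set.mem_ofPred_eq] at ha ⊢
    have : r (a + k' + f0) = r (a + f0) := by
      apply hr2
      have : a + k' + f0 - (a + f0) = k' := by abel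
      rw [this]; exact hKM hk'
    rw [this]
    have e : a + k' - r (a + f0) = a - r (a + f0) + k' := by abel
    rw [e]
    exact hBK _ ha _ hk'

/-- invariance of a tiling by a tile of prime cardinality `p` under `p • n` for `n` in the
subgroup generated by the differences of the tile -/
lemma add_nsmul_mem_of_mem_closure {G : Type*} [AddCommGroup G] {A : Set G} {F : Finset G} {p : ℕ}
    (hp : p.Prime) (hF : F.card = p) (hT : IsTiling A F) {n : G}
    (hn : n ∈ AddSubgroup.closure {d | ∃ f ∈ F, ∃ f' ∈ F, d = f - f'}) {a : G} (ha : a ∈ A) :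
    a + p • n ∈ A := by
  have hstab : (∀ a ∈ A, a + p • n ∈ A) ∧ (∀ a ∈ A, a - p • n ∈ A) := by
    induction hn using AddSubgroup.closure_induction with
    | mem d hd =>
      obtain ⟨f, hf, f', hf', rfl⟩ := hd
      refine ⟨fun a ha => add_nsmul_sub_mem hp hF hT hf hf' ha, fun a ha => ?_⟩
      have h := add_nsmul_sub_mem hp hF hT hf' hf ha
      have e : a + p • (f' - f) = a - p • (f - f') := by
        rw [nsmul_sub, nsmul_sub]; abel
      rwa [e] at h
    | zero => simp
    | add x y _ _ hx hy =>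
      refine ⟨fun a ha => ?_, fun a ha => ?_⟩
      · have h := hy.1 _ (hx.1 a ha)
        rwa [nsmul_add, ← add_assoc]
      · have h := hy.2 _ (hx.2 a ha)
        have e : a - p • (x + y) = a - p • x - p • y := by rw [nsmul_add]; abel
        rwa [e]
    | neg x _ hx =>
      refine ⟨fun a ha => ?_, fun a ha => ?_⟩
      · have h := hx.2 a ha
        have e : a + p • (-x) = a - p • x := by rw [neg_nsmul]; abel
        rwa [e]
      · have h := hx.1 a ha
        have e : a - p • (-x) = a + p • x := by rw [neg_nsmul]; abel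
        rwa [e]
  exact hstab.1 a ha

lemma finiteIndex_smul_top (m : ℤ) (hm : m ≠ 0) :
    ((Ideal.span {m} : Ideal ℤ) • (⊤ : Submodule ℤ G)).toAddSubgroup.FiniteIndex := by
  set Ksub : Submodule ℤ G := (Ideal.span {m} : Ideal ℤ) • ⊤ with hKsub
  have hfin : Finite (G ⧸ Ksub) := by
    apply Module.finite_of_fg_torsion
    intro x
    induction x using Submodule.Quotient.induction_on with
    | H g =>
      refine ⟨⟨m, mem_nonZeroDivisors_of_ne_zero hm⟩, ?_⟩
      show m • (Submodule.Quotient.mk g : G ⧸ Ksub) = 0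
      rw [← Submodule.Quotient.mk_smul, Submodule.Quotient.mk_eq_zero]
      exact Submodule.smul_mem_smul (Ideal.mem_span_singleton_self _) Submodule.mem_top
  have hfin' : Finite (G ⧸ Ksub.toAddSubgroup) := hfin
  exact AddSubgroup.finiteIndex_of_finite_quotient

/-- In a finitely generated abelian group, if the differences of a tile `F` of prime cardinality
generate a subgroup of finite index, then every tiling by `F` is periodic. -/
theorem periodic_of_finiteIndex {A : Set G} {F : Finset G} {p : ℕ} (hp : p.Prime)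
    (hF : F.card = p) (hT : IsTiling A F)
    (hfull : (AddSubgroup.closure {d | ∃ f ∈ F, ∃ f' ∈ F, d = f - f'}).FiniteIndex) :
    IsPeriodic A := by
  set N : AddSubgroup G := AddSubgroup.closure {d | ∃ f ∈ F, ∃ f' ∈ F, d = f - f'} with hN
  set φ : G →+ G := nsmulAddMonoidHom p with hφ
  refine ⟨N.map φ, ⟨?_⟩, ?_⟩
  · rw [AddSubgroup.index_map]
    have h1 : (N ⊔ φ.ker).FiniteIndex := AddSubgroup.finiteIndex_of_le (H := N) le_sup_left
    have h2 : φ.range.FiniteIndex := by
      have h3 := finiteIndex_smul_top (G := G) (p : ℤ) (by exact_mod_cast hp.ne_zero)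
      refine @AddSubgroup.finiteIndex_of_le _ _
        ((Ideal.span {(p : ℤ)} : Ideal ℤ) • (⊤ : Submodule ℤ G)).toAddSubgroup φ.range h3 ?_
      intro g hg
      have hg' : g ∈ (Ideal.span {(p : ℤ)} : Ideal ℤ) • (⊤ : Submodule ℤ G) := hg
      rw [Submodule.ideal_span_singleton_smul] at hg'
      obtain ⟨n, -, rfl⟩ := (Submodule.mem_smul_pointwise_iff_exists _ _ _).mp hg'
      exact ⟨n, by simp [hφ]⟩
    exact mul_ne_zero h1.index_ne_zero h2.index_ne_zero
  · rintro h ⟨n, hn, rfl⟩ a ha
    exact add_nsmul_mem_of_mem_closure hp hF hT hn ha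

end periodic

end Vale.Agent.Helper14.PrimeTile
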