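import Vale.Agent.Helper14.TimeDependent

/-!
Mass-action networks made of open species (each with an outflow `X_i → 0`) and conserved
two-state switches (pairs of species `i`, `p i` whose sum is conserved by every reaction):
permanence under a ranking hypothesis, for constant and for time-dependent rate constants.
Example: the open reversible Michaelis-Menten mechanism.
-/

namespace Vale.Agent.Helper14.Switches

open Set Vale.Agent.Helper14.MassAction Vale.Agent.Helper14.OpenNetworks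
  Vale.Agent.Helper14.OutflowNetworks Vale.Agent.Helper14.TimeDependent

variable {d : ℕ}

lemma field_mem_stoich (N : Network d) (k : (Fin d → ℕ) × (Fin d → ℕ) → ℝ) (x : Fin d → ℝ) :
    N.field k x ∈ N.stoich := by
  unfold Network.field
  exact Submodule.sum_mem _ fun r hr =>
    Submodule.smul_mem _ _ (Submodule.subset_span ⟨r, hr, rfl⟩)

/-- Vectors of the stoichiometric subspace have zero sum over each conserved pair. -/
lemma pair_sum_stoich {N : Network d} {p : Fin d → Fin d}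
    (hcons : ∀ r ∈ N.reactions, ∀ i, p i ≠ i → r.1 i + r.1 (p i) = r.2 i + r.2 (p i))
    {v : Fin d → ℝ} (hv : v ∈ N.stoich) (i : Fin d) (hi : p i ≠ i) : v i + v (p i) = 0 := by
  unfold Network.stoich at hv
  induction hv using Submodule.span_induction with
  | mem w hw =>
    obtain ⟨r, hr, rfl⟩ := hw
    have h := hcons r hr i hi
    have h' : (r.1 i : ℝ) + (r.1 (p i) : ℝ) = (r.2 i : ℝ) + (r.2 (p i) : ℝ) := by
      exact_mod_cast h
    simp only [rvec]
    linarith
  | zero => simp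
  | add x y _ _ hx hy =>
    simp only [Pi.add_apply]
    linarith
  | smul a x _ hx =>
    simp only [Pi.smul_apply, smul_eq_mul]
    rw [← mul_add, hx, mul_zero]

/-- Solutions of `ẋ = g t x` with `g` valued in a subspace `S` stay in `x(0) + S`. -/
lemma sol_sub_mem {S : Submodule ℝ (Fin d → ℝ)} {g : ℝ → (Fin d → ℝ) → (Fin d → ℝ)}
    (hg : ∀ t z, g t z ∈ S) {γ : ℝ → Fin d → ℝ} (hγ : IsSolOnT g γ (Ici 0)) :
    ∀ t, 0 ≤ t → γ t - γ 0 ∈ S := by
  intro t ht
  by_contra hv
  obtain ⟨φ, hφv, hφS⟩ := Submodule.exists_le_ker_of_notMem hv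
  have hd : ∀ s ∈ Ici (0 : ℝ), HasDerivWithinAt (fun s => φ (γ s)) 0 (Ici 0) s := by
    intro s hs
    have h1 := (LinearMap.toContinuousLinearMap φ).hasFDerivAt.comp_hasDerivWithinAt s (hγ s hs)
    have h2 : (LinearMap.toContinuousLinearMap φ) (g s (γ s)) = 0 := hφS (hg s (γ s))
    rw [h2] at h1
    exact h1
  have hc : ContinuousOn (fun s => φ (γ s)) (Icc 0 t) :=
    fun s hs => ((hd s hs.1).continuousWithinAt).mono (fun _ h => h.1)
  have h := constant_of_has_deriv_right_zero hc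
    (fun s hs => (hd s hs.1).mono (Ici_subset_Ici.mpr hs.1)) t (right_mem_Icc.mpr ht)
  apply hφv
  have h' : φ (γ t) = φ (γ 0) := h
  rw [map_sub, h', sub_self]

/-- Dissipation of the weighted sum, using the outflows of the species in a set `O`. -/
lemma dissipation_on {N : Network d} {k : (Fin d → ℕ) × (Fin d → ℕ) → ℝ}
    (hk : ∀ r ∈ N.reactions, 0 ≤ k r) {ω : Fin d → ℝ} (hω : ∀ i, 0 ≤ ω i) (O : Finset (Fin d))
    (hout : ∀ i ∈ O, ((Pi.single i 1 : Fin d → ℕ), (0 : Fin d → ℕ)) ∈ N.reactions)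
    (hdiss : ∀ r ∈ N.reactions, r.1 ≠ 0 → ∑ i, ω i * ((r.2 i : ℝ) - (r.1 i : ℝ)) ≤ 0)
    {β : ℝ} (hβ : ∀ i ∈ O, β ≤ k ((Pi.single i 1 : Fin d → ℕ), (0 : Fin d → ℕ)))
    {x : Fin d → ℝ} (hx : ∀ i, 0 ≤ x i) :
    ∑ i, ω i * N.field k x i ≤
      (∑ r ∈ N.reactions, k r * ∑ i, ω i * (r.2 i : ℝ)) - β * ∑ i ∈ O, ω i * x i := by
  classical
  have e1 : ∑ i, ω i * N.field k x i =
      ∑ r ∈ N.reactions, (k r * ∏ j, x j ^ r.1 j) * ∑ i, ω i * rvec r i := by
    simp only [field_apply, Finset.mul_sum]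
    rw [Finset.sum_comm]
    exact Finset.sum_congr rfl fun r _ => Finset.sum_congr rfl fun i _ => by ring
  set Out : Finset ((Fin d → ℕ) × (Fin d → ℕ)) :=
    O.image (fun i : Fin d => ((Pi.single i 1 : Fin d → ℕ), (0 : Fin d → ℕ))) with hOut
  have hsub : Out ⊆ N.reactions := by
    intro r hr
    rw [hOut, Finset.mem_image] at hr
    obtain ⟨i, hi, rfl⟩ := hr
    exact hout i hi
  have hinj : Set.InjOn (fun i : Fin d => ((Pi.single i 1 : Fin d → ℕ), (0 : Fin d → ℕ)))
      (↑O) := by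
    intro i _ j _ hij
    have h1 : (Pi.single i 1 : Fin d → ℕ) = Pi.single j 1 := congrArg Prod.fst hij
    by_contra hne
    have h2 := congrFun h1 i
    simp [hne] at h2
  rw [e1, ← Finset.sum_sdiff hsub, hOut, Finset.sum_image hinj, ← hOut]
  have hpart1 : ∑ i ∈ O, (k ((Pi.single i 1 : Fin d → ℕ), (0 : Fin d → ℕ)) *
      ∏ j, x j ^ (Pi.single i 1 : Fin d → ℕ) j) *
      ∑ l, ω l * rvec ((Pi.single i 1 : Fin d → ℕ), (0 : Fin d → ℕ)) l ≤
      -(β * ∑ i ∈ O, ω i * x i) := by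
    rw [Finset.mul_sum, ← Finset.sum_neg_distrib]
    refine Finset.sum_le_sum fun i hi => ?_
    have hp : ∏ j, x j ^ (Pi.single i 1 : Fin d → ℕ) j = x i := by
      rw [Fintype.prod_eq_single i (fun j hj => by simp [hj])]
      simp
    have hs : ∑ l, ω l * rvec ((Pi.single i 1 : Fin d → ℕ), (0 : Fin d → ℕ)) l = -ω i := by
      rw [Fintype.sum_eq_single i (fun j hj => by simp [rvec, hj])]
      simp [rvec]
    rw [hp, hs]
    have h1 : 0 ≤ ω i * x i := mul_nonneg (hω i) (hx i)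
    nlinarith [hβ i hi]
  have hpart2 : ∑ r ∈ N.reactions \ Out, (k r * ∏ j, x j ^ r.1 j) * ∑ i, ω i * rvec r i ≤
      ∑ r ∈ N.reactions, k r * ∑ i, ω i * (r.2 i : ℝ) := by
    have hnn : ∀ r ∈ N.reactions, 0 ≤ k r * ∑ i, ω i * (r.2 i : ℝ) := fun r hr =>
      mul_nonneg (hk r hr) (Finset.sum_nonneg fun i _ => mul_nonneg (hω i) (Nat.cast_nonneg _))
    refine le_trans (Finset.sum_le_sum fun r hr => ?_)
      (Finset.sum_le_sum_of_subset_of_nonneg Finset.sdiff_subset (fun r hr _ => hnn r hr))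
    have hr' : r ∈ N.reactions := (Finset.mem_sdiff.1 hr).1
    by_cases h0 : r.1 = 0
    · have hp : ∏ j, x j ^ r.1 j = 1 := by simp [h0]
      have hs : ∑ i, ω i * rvec r i = ∑ i, ω i * (r.2 i : ℝ) := by simp [rvec, h0]
      rw [hp, hs, mul_one]
    · have h2 : 0 ≤ ∏ j, x j ^ r.1 j := Finset.prod_nonneg fun j _ => pow_nonneg (hx j) _
      exact le_trans (mul_nonpos_of_nonneg_of_nonpos (mul_nonneg (hk r hr') h2)
        (hdiss r hr' h0)) (hnn r hr')
  linarith

/-- Nested lower bounds `m i` adapted to a ranking of the species, where the source of the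
witness reaction of `i` may also contain the partner `p i`, bounded below by the floor `q i`. -/
lemma exists_lower_q (ρ : Fin d → ℕ) (w : Fin d → (Fin d → ℕ) × (Fin d → ℕ)) (p : Fin d → Fin d)
    (hw : ∀ i j, (w i).1 j ≠ 0 → ρ j < ρ i ∨ j = p i) {ε : ℝ} (hε : 0 < ε) {K : ℝ}
    (hK : 0 ≤ K) {m0 : ℝ} (hm0 : 0 < m0) (q : Fin d → ℝ) (hq : ∀ i, m0 ≤ q i) :
    ∃ m : Fin d → ℝ, (∀ i, 0 < m i) ∧ (∀ i, m i ≤ m0) ∧
      ∀ i, K * m i < ε * ∏ j, (if j = p i then q i else m j) ^ (w i).1 j := by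
  set D : ℕ := ∑ i, ∑ j, (w i).1 j with hD
  have hDi : ∀ i, ∑ j, (w i).1 j ≤ D := fun i =>
    Finset.single_le_sum (f := fun i => ∑ j, (w i).1 j) (fun _ _ => Nat.zero_le _)
      (Finset.mem_univ i)
  have hK1 : (0 : ℝ) < 2 * (K + 1) := by positivity
  obtain ⟨μ, hμ0, hμs⟩ : ∃ μ : ℕ → ℝ, μ 0 = min 1 m0 ∧
      ∀ n, μ (n + 1) = min (μ n) (ε * μ n ^ D / (2 * (K + 1))) :=
    ⟨fun n => Nat.rec (min 1 m0) (fun _ a => min a (ε * a ^ D / (2 * (K + 1)))) n, rfl,
      fun n => rfl⟩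
  have hμpos : ∀ n, 0 < μ n := by
    intro n
    induction n with
    | zero => rw [hμ0]; exact lt_min one_pos hm0
    | succ n ih => rw [hμs]; exact lt_min ih (div_pos (mul_pos hε (pow_pos ih D)) hK1)
  have hμanti : Antitone μ :=
    antitone_nat_of_succ_le fun n => by rw [hμs]; exact min_le_left _ _
  have hμle1 : ∀ n, μ n ≤ 1 := fun n =>
    (hμanti (Nat.zero_le n)).trans (by rw [hμ0]; exact min_le_left _ _)
  have hμlem0 : ∀ n, μ n ≤ m0 := fun n =>
    (hμanti (Nat.zero_le n)).trans (by rw [hμ0]; exact min_le_right _ _)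
  refine ⟨fun i => μ (ρ i + 1), fun i => hμpos (ρ i + 1), fun i => hμlem0 (ρ i + 1),
    fun i => ?_⟩
  have h1 : μ (ρ i) ^ D ≤
      ∏ j, (if j = p i then q i else μ (ρ j + 1)) ^ (w i).1 j := by
    calc μ (ρ i) ^ D ≤ μ (ρ i) ^ (∑ j, (w i).1 j) :=
          pow_le_pow_of_le_one (hμpos _).le (hμle1 _) (hDi i)
      _ = ∏ j, μ (ρ i) ^ (w i).1 j := (Finset.prod_pow_eq_pow_sum _ _ _).symm
      _ ≤ ∏ j, (if j = p i then q i else μ (ρ j + 1)) ^ (w i).1 j := by
        refine Finset.prod_le_prod (fun j _ => pow_nonneg (hμpos _).le _) (fun j _ => ?_)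
        by_cases h : (w i).1 j = 0
        · rw [h, pow_zero, pow_zero]
        · by_cases hj : j = p i
          · rw [if_pos hj]
            exact pow_le_pow_left₀ (hμpos _).le ((hμlem0 _).trans (hq i)) _
          · rw [if_neg hj]
            rcases hw i j h with h' | h'
            · exact pow_le_pow_left₀ (hμpos _).le (hμanti h') _
            · exact absurd h' hj
  have h2 : μ (ρ i + 1) ≤ ε * μ (ρ i) ^ D / (2 * (K + 1)) := by
    rw [hμs]; exact min_le_right _ _
  rw [le_div_iff₀ hK1] at h2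
  have h3 : 0 < μ (ρ i + 1) := hμpos _
  have hP : 0 < ε * μ (ρ i) ^ D := mul_pos hε (pow_pos (hμpos _) D)
  have h4 : ε * μ (ρ i) ^ D ≤
      ε * ∏ j, (if j = p i then q i else μ (ρ j + 1)) ^ (w i).1 j :=
    mul_le_mul_of_nonneg_left h1 hε.le
  have h5 : μ (ρ i + 1) * (2 * (K + 1)) = 2 * (K * μ (ρ i + 1)) + 2 * μ (ρ i + 1) := by ring
  show K * μ (ρ i + 1) < ε * ∏ j, (if j = p i then q i else μ (ρ j + 1)) ^ (w i).1 j
  linarith

/-! ### Dynamics -/

section dynamics

variable {N : Network d} {ω : Fin d → ℝ} {ε : ℝ}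

lemma le_clamp (lo hi x : Fin d → ℝ) (j : Fin d) : min (hi j) (x j) ≤ clamp lo hi x j :=
  le_max_right _ _

/-- From every positive initial point there is a global positive solution. -/
lemma exists_solT' (hε : 0 < ε) (hω : ∀ i, 0 < ω i) (p : Fin d → Fin d)
    (hcons : ∀ r ∈ N.reactions, ∀ i, p i ≠ i → r.1 i + r.1 (p i) = r.2 i + r.2 (p i))
    (ρ : Fin d → ℕ) (w : Fin d → (Fin d → ℕ) × (Fin d → ℕ))
    (hwmem : ∀ i, w i ∈ N.reactions) (hw1 : ∀ i, (w i).1 i = 0) (hw2 : ∀ i, (w i).2 i ≠ 0)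
    (hw : ∀ i j, (w i).1 j ≠ 0 → ρ j < ρ i ∨ j = p i)
    (hout : ∀ i, p i = i → ((Pi.single i 1 : Fin d → ℕ), (0 : Fin d → ℕ)) ∈ N.reactions)
    (hdiss : ∀ r ∈ N.reactions, r.1 ≠ 0 → ∑ i, ω i * ((r.2 i : ℝ) - (r.1 i : ℝ)) ≤ 0)
    {κ : ℝ → (Fin d → ℕ) × (Fin d → ℕ) → ℝ} (hκ : Admissible N ε κ)
    (x0 : Fin d → ℝ) (hx0 : ∀ i, 0 < x0 i) :
    ∃ γ : ℝ → Fin d → ℝ, γ 0 = x0 ∧ IsSolOnT (fun t => N.field (κ t)) γ (Ici 0) ∧
      ∀ t, 0 ≤ t → ∀ i, 0 < γ t i := by
  classical
  have hk0 := hκ.pos hε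
  have habs := hκ.abs_le hε
  have hεi : (0 : ℝ) ≤ ε⁻¹ := (inv_pos.2 hε).le
  have hω0 : ∀ i, 0 ≤ ω i := fun i => (hω i).le
  set O : Finset (Fin d) := Finset.univ.filter (fun i => p i = i) with hO
  have hOmem : ∀ i, i ∈ O ↔ p i = i := fun i => by simp [hO]
  have hβ : ∀ t, ∀ i ∈ O, ε ≤ κ t ((Pi.single i 1 : Fin d → ℕ), (0 : Fin d → ℕ)) :=
    fun t i hi => (hκ.2 t _ (hout i ((hOmem i).1 hi))).1
  set C : Fin d → ℝ := fun i => x0 i + x0 (p i) with hC
  set W := ∑ i ∈ Finset.univ.filter (fun i => ¬ p i = i), ω i * C i with hW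
  have hW0 : 0 ≤ W := Finset.sum_nonneg fun i _ =>
    mul_nonneg (hω0 i) (add_pos (hx0 i) (hx0 (p i))).le
  set A := ε⁻¹ * ∑ r ∈ N.reactions, ∑ i, ω i * (r.2 i : ℝ) with hA
  have hA0 : 0 ≤ A := mul_nonneg hεi (Finset.sum_nonneg fun r _ =>
    Finset.sum_nonneg fun i _ => mul_nonneg (hω0 i) (Nat.cast_nonneg _))
  set M := max (∑ i, ω i * x0 i) ((A + ε * W) / ε + 1) with hM
  have hM1 : A + ε * W + ε ≤ ε * M := by
    have h1 : (A + ε * W) / ε + 1 ≤ M := le_max_right _ _
    have h2 : (A + ε * W) / ε ≤ M - 1 := by linarith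
    rw [div_le_iff₀ hε] at h2
    nlinarith
  have hMpos : 0 < M := by
    have h1 : (A + ε * W) / ε + 1 ≤ M := le_max_right _ _
    have h2 : 0 ≤ (A + ε * W) / ε := div_nonneg (by positivity) hε.le
    linarith
  set hi : Fin d → ℝ := fun j => M / ω j with hhidef
  have hhi : ∀ j, 0 < hi j := fun j => div_pos hMpos (hω j)
  have hcomp : IsCompact (Set.pi univ fun j => Icc (0 : ℝ) (hi j)) :=
    isCompact_univ_pi fun _ => isCompact_Icc
  obtain ⟨K, hK⟩ := uniform_lipschitz N hεi hcomp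
  obtain ⟨m1, hm10, hm1⟩ := exists_pos_le x0 hx0
  obtain ⟨m2, hm20, hm2⟩ := exists_pos_le hi hhi
  have hCm1 : ∀ i, m1 ≤ C i / 2 := by
    intro i
    have h1 := hm1 i
    have h2 := hm1 (p i)
    simp only [hC]
    linarith
  set q : Fin d → ℝ := fun i => min (hi (p i)) (C i / 2) with hq
  have hqm : ∀ i, min m1 m2 ≤ q i := fun i =>
    le_min ((min_le_right _ _).trans (hm2 (p i))) ((min_le_left _ _).trans (hCm1 i))
  obtain ⟨m, hm0, hmle, hmK⟩ := exists_lower_q ρ w p hw hε K.coe_nonneg (lt_min hm10 hm20) q hqm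
  have hlohi : ∀ j, m j ≤ hi j := fun j => ((hmle j).trans (min_le_right _ _)).trans (hm2 j)
  obtain ⟨L', K', hLK⟩ := exists_bound_lipschitz_clampT N hεi hlohi
  obtain ⟨γ, hγ0, hγ⟩ := exists_global_solT (fun t => N.field (κ t) ∘ clamp m hi) L' K'
    (fun t x => (hLK (κ t) (habs t)).1 x) (fun t => (hLK (κ t) (habs t)).2)
    (fun x => continuous_field_time N hκ (clamp m hi x)) x0
  have hsol : IsSolOnT (fun t => N.field (κ t) ∘ clamp m hi) γ (Ici 0) := hγ
  have hclbox : ∀ t, clamp m hi (γ t) ∈ Set.pi univ fun j => Icc (0 : ℝ) (hi j) := by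
    intro t j _
    have h := clamp_mem hlohi (γ t) j (mem_univ j)
    exact ⟨(hm0 j).le.trans h.1, h.2⟩
  -- conservation of the pair sums
  have hpair : ∀ i, p i ≠ i → ∀ t, 0 ≤ t → γ t i + γ t (p i) = C i := by
    intro i hi' t ht
    have hsum : ∀ s ∈ Ici (0 : ℝ),
        HasDerivWithinAt (fun s => γ s i + γ s (p i)) 0 (Ici 0) s := by
      intro s hs
      have h := (hsol.coord i le_rfl s hs).add (hsol.coord (p i) le_rfl s hs)
      have e : (N.field (κ s) ∘ clamp m hi) (γ s) i + (N.field (κ s) ∘ clamp m hi) (γ s) (p i)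
          = 0 := pair_sum_stoich hcons (field_mem_stoich N (κ s) _) i hi'
      rw [e] at h
      exact h
    have hc : ContinuousOn (fun s => γ s i + γ s (p i)) (Icc 0 t) :=
      fun s hs => ((hsum s hs.1).continuousWithinAt).mono (fun _ h => h.1)
    have h := constant_of_has_deriv_right_zero hc
      (fun s hs => (hsum s hs.1).mono (Ici_subset_Ici.mpr hs.1)) t (right_mem_Icc.mpr ht)
    have h' : γ t i + γ t (p i) = γ 0 i + γ 0 (p i) := h
    rw [h', hγ0]
  -- lower barriers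
  have hlow : ∀ i, ∀ t, 0 ≤ t → m i ≤ γ t i := by
    intro i
    refine barrier_ge (hsol.coord i le_rfl)
      (by rw [hγ0]; exact ((hmle i).trans (min_le_left _ _)).trans (hm1 i))
      (fun t ht h => ?_)
    have hci : clamp m hi (γ t) i = m i := by
      rw [clamp_apply_of_mem (by rw [h]) (by rw [h]; exact hlohi i)]
      exact h
    have h1 := field_lower' (hk0 t) (hK (κ t) (habs t)) i (hwmem i) (hw1 i) (hw2 i) (hclbox t)
    rw [hci] at h1
    have h3 : ∏ j, (if j = p i then q i else m j) ^ (w i).1 j ≤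
        ∏ j, clamp m hi (γ t) j ^ (w i).1 j := by
      refine Finset.prod_le_prod (fun j _ => pow_nonneg ?_ _) (fun j _ => ?_)
      · split_ifs
        · exact (lt_of_lt_of_le (lt_min hm10 hm20) (hqm i)).le
        · exact (hm0 j).le
      · by_cases hy : (w i).1 j = 0
        · rw [hy, pow_zero, pow_zero]
        · by_cases hj : j = p i
          · rw [if_pos hj]
            have hpi : p i ≠ i := by
              intro hpi
              rw [hj, hpi] at hy
              exact hy (hw1 i)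
            have hpart : γ t (p i) = C i - m i := by
              have := hpair i hpi t ht
              linarith
            have hge : C i / 2 ≤ γ t (p i) := by
              have h5 : m i ≤ C i / 2 := ((hmle i).trans (min_le_left _ _)).trans (hCm1 i)
              linarith
            have h6 : q i ≤ clamp m hi (γ t) (p i) :=
              (min_le_min le_rfl hge).trans (le_clamp m hi (γ t) (p i))
            rw [hj]
            exact pow_le_pow_left₀ (lt_of_lt_of_le (lt_min hm10 hm20) (hqm i)).le h6 _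
          · rw [if_neg hj]
            exact pow_le_pow_left₀ (hm0 j).le (clamp_mem hlohi (γ t) j (mem_univ j)).1 _
    have h4 : ε * ∏ j, (if j = p i then q i else m j) ^ (w i).1 j ≤
        κ t (w i) * ∏ j, clamp m hi (γ t) j ^ (w i).1 j := by
      refine mul_le_mul (hκ.2 t _ (hwmem i)).1 h3 (Finset.prod_nonneg fun j _ => pow_nonneg ?_ _)
        (hk0 t _ (hwmem i))
      split_ifs
      · exact (lt_of_lt_of_le (lt_min hm10 hm20) (hqm i)).le
      · exact (hm0 j).le
    have h2 : (N.field (κ t) ∘ clamp m hi) (γ t) i = N.field (κ t) (clamp m hi (γ t)) i := rfl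
    rw [h2]
    linarith [hmK i]
  -- upper barrier for the weighted sum
  have hderivL : ∀ t ∈ Ici (0 : ℝ), HasDerivWithinAt (fun s => ∑ j, ω j * γ s j)
      (∑ j, ω j * (N.field (κ t) ∘ clamp m hi) (γ t) j) (Ici 0) t := by
    intro t ht
    exact HasDerivWithinAt.fun_sum fun j _ => (hsol.coord j le_rfl t ht).const_mul (ω j)
  have hhile : ∀ t, 0 ≤ t → ∑ j, ω j * γ t j ≤ M → ∀ j, γ t j ≤ hi j := by
    intro t ht h j
    have h1 : ω j * γ t j ≤ ∑ j, ω j * γ t j :=
      Finset.single_le_sum (fun l _ => mul_nonneg (hω0 l) ((hm0 l).le.trans (hlow l t ht)))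
        (Finset.mem_univ j)
    rw [hhidef, le_div_iff₀ (hω j)]
    linarith
  have hclosed : ∀ t, 0 ≤ t →
      ∑ i ∈ Finset.univ.filter (fun i => ¬ p i = i), ω i * γ t i ≤ W := by
    intro t ht
    refine Finset.sum_le_sum fun i hi' => ?_
    have hpi : p i ≠ i := (Finset.mem_filter.1 hi').2
    have h1 := hpair i hpi t ht
    have h2 : 0 < γ t (p i) := lt_of_lt_of_le (hm0 _) (hlow (p i) t ht)
    exact mul_le_mul_of_nonneg_left (by linarith) (hω0 i)
  have hup : ∀ t, 0 ≤ t → ∑ j, ω j * γ t j ≤ M := by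
    refine barrier_le hderivL (by rw [hγ0]; exact le_max_left _ _) (fun t ht h => ?_)
    have hcl : clamp m hi (γ t) = γ t := by
      ext j
      exact clamp_apply_of_mem (hlow j t ht) (hhile t ht h.le j)
    simp only [Function.comp_apply, hcl]
    have h1 := dissipation_on (hk0 t) hω0 O (fun i hi' => hout i ((hOmem i).1 hi')) hdiss (hβ t)
      (x := γ t) (fun j => (hm0 j).le.trans (hlow j t ht))
    have h2 := inflow_le hω0 hκ t
    have h3 := Finset.sum_filter_add_sum_filter_not Finset.univ (fun i => p i = i)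
      (fun i => ω i * γ t i)
    have h4 := hclosed t ht
    have h5 : ε * (M - W) ≤ ε * ∑ i ∈ O, ω i * γ t i :=
      mul_le_mul_of_nonneg_left (by rw [hO]; linarith) hε.le
    nlinarith
  have hcl : ∀ t, 0 ≤ t → clamp m hi (γ t) = γ t := by
    intro t ht
    ext j
    exact clamp_apply_of_mem (hlow j t ht) (hhile t ht (hup t ht) j)
  refine ⟨γ, hγ0, fun t ht => ?_, fun t ht i => lt_of_lt_of_le (hm0 i) (hlow i t ht)⟩
  have h : HasDerivWithinAt γ (N.field (κ t) (clamp m hi (γ t))) (Ici 0) t := hsol t ht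
  rw [hcl t ht] at h
  exact h

/-- All global positive solutions with pair sums `C`, for all admissible rate functions,
eventually enter one fixed region `{x | (∀ i, m i ≤ x i) ∧ ∑ ω i * x i ≤ M}`. -/
lemma eventually_inT' (hε : 0 < ε) (hω : ∀ i, 0 < ω i) (p : Fin d → Fin d)
    (hcons : ∀ r ∈ N.reactions, ∀ i, p i ≠ i → r.1 i + r.1 (p i) = r.2 i + r.2 (p i))
    (ρ : Fin d → ℕ) (w : Fin d → (Fin d → ℕ) × (Fin d → ℕ))
    (hwmem : ∀ i, w i ∈ N.reactions) (hw1 : ∀ i, (w i).1 i = 0) (hw2 : ∀ i, (w i).2 i ≠ 0)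
    (hw : ∀ i j, (w i).1 j ≠ 0 → ρ j < ρ i ∨ j = p i)
    (hout : ∀ i, p i = i → ((Pi.single i 1 : Fin d → ℕ), (0 : Fin d → ℕ)) ∈ N.reactions)
    (hdiss : ∀ r ∈ N.reactions, r.1 ≠ 0 → ∑ i, ω i * ((r.2 i : ℝ) - (r.1 i : ℝ)) ≤ 0)
    (C : Fin d → ℝ) (hC : ∀ i, 0 < C i) :
    ∃ (m : Fin d → ℝ) (M : ℝ), (∀ i, 0 < m i) ∧
      ∀ κ : ℝ → (Fin d → ℕ) × (Fin d → ℕ) → ℝ, Admissible N ε κ → ∀ γ : ℝ → Fin d → ℝ,
      IsSolOnT (fun t => N.field (κ t)) γ (Ici 0) → (∀ t, 0 ≤ t → ∀ i, 0 < γ t i) →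
      (∀ i, p i ≠ i → γ 0 i + γ 0 (p i) = C i) →
      ∃ T, ∀ t, T ≤ t → (∀ i, m i ≤ γ t i) ∧ ∑ i, ω i * γ t i ≤ M := by
  classical
  have hεi : (0 : ℝ) ≤ ε⁻¹ := (inv_pos.2 hε).le
  have hω0 : ∀ i, 0 ≤ ω i := fun i => (hω i).le
  set O : Finset (Fin d) := Finset.univ.filter (fun i => p i = i) with hO
  have hOmem : ∀ i, i ∈ O ↔ p i = i := fun i => by simp [hO]
  set W := ∑ i ∈ Finset.univ.filter (fun i => ¬ p i = i), ω i * C i with hW
  have hW0 : 0 ≤ W := Finset.sum_nonneg fun i _ => mul_nonneg (hω0 i) (hC i).le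
  set A := ε⁻¹ * ∑ r ∈ N.reactions, ∑ i, ω i * (r.2 i : ℝ) with hA
  have hA0 : 0 ≤ A := mul_nonneg hεi (Finset.sum_nonneg fun r _ =>
    Finset.sum_nonneg fun i _ => mul_nonneg (hω0 i) (Nat.cast_nonneg _))
  set M := (A + ε * W) / ε + 1 with hM
  have hM1 : ε * M = A + ε * W + ε := by
    rw [hM]; field_simp
  have hMpos : 0 < M := by
    have h2 : 0 ≤ (A + ε * W) / ε := div_nonneg (by positivity) hε.le
    linarith
  set hi : Fin d → ℝ := fun j => M / ω j with hhidef
  have hcomp : IsCompact (Set.pi univ fun j => Icc (0 : ℝ) (hi j)) :=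
    isCompact_univ_pi fun _ => isCompact_Icc
  obtain ⟨K, hK⟩ := uniform_lipschitz N hεi hcomp
  set q : Fin d → ℝ := fun i => C i / 2 with hq
  have hqpos : ∀ i, 0 < q i := fun i => half_pos (hC i)
  obtain ⟨m0, hm00, hm0q⟩ := exists_pos_le q hqpos
  obtain ⟨m, hm0, hmle, hmK⟩ := exists_lower_q ρ w p hw hε K.coe_nonneg hm00 q hm0q
  refine ⟨m, M, hm0, fun κ hκ γ hγ hpos hpair0 => ?_⟩
  have hk0 := hκ.pos hε
  have habs := hκ.abs_le hε
  have hβ : ∀ t, ∀ i ∈ O, ε ≤ κ t ((Pi.single i 1 : Fin d → ℕ), (0 : Fin d → ℕ)) :=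
    fun t i hi' => (hκ.2 t _ (hout i ((hOmem i).1 hi'))).1
  -- conservation of the pair sums
  have hpair : ∀ i, p i ≠ i → ∀ t, 0 ≤ t → γ t i + γ t (p i) = C i := by
    intro i hi' t ht
    have h1 := sol_sub_mem (S := N.stoich) (fun s z => field_mem_stoich N (κ s) z) hγ t ht
    have h2 := pair_sum_stoich hcons h1 i hi'
    simp only [Pi.sub_apply] at h2
    have h3 := hpair0 i hi'
    linarith
  have hclosed : ∀ t, 0 ≤ t →
      ∑ i ∈ Finset.univ.filter (fun i => ¬ p i = i), ω i * γ t i ≤ W := by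
    intro t ht
    refine Finset.sum_le_sum fun i hi' => ?_
    have hpi : p i ≠ i := (Finset.mem_filter.1 hi').2
    have h1 := hpair i hpi t ht
    have h2 : 0 < γ t (p i) := hpos t ht (p i)
    exact mul_le_mul_of_nonneg_left (by linarith) (hω0 i)
  have hderivL : ∀ t ∈ Ici (0 : ℝ), HasDerivWithinAt (fun s => ∑ j, ω j * γ s j)
      (∑ j, ω j * N.field (κ t) (γ t) j) (Ici 0) t := by
    intro t ht
    exact HasDerivWithinAt.fun_sum fun j _ => (hγ.coord j le_rfl t ht).const_mul (ω j)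
  obtain ⟨T1, hT1, h1⟩ := eventually_le (δ := ε) (M := M) hε hderivL (fun t ht h => by
    have h2 := dissipation_on (hk0 t) hω0 O (fun i hi' => hout i ((hOmem i).1 hi')) hdiss (hβ t)
      (x := γ t) (fun j => (hpos t ht j).le)
    have h3 := inflow_le hω0 hκ t
    have h4 := Finset.sum_filter_add_sum_filter_not Finset.univ (fun i => p i = i)
      (fun i => ω i * γ t i)
    have h5 := hclosed t ht
    have h6 : ε * (M - W) ≤ ε * ∑ i ∈ O, ω i * γ t i :=
      mul_le_mul_of_nonneg_left (by rw [hO]; linarith) hε.le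
    nlinarith)
  have hbox : ∀ t, T1 ≤ t → γ t ∈ Set.pi univ fun j => Icc (0 : ℝ) (hi j) := by
    intro t ht j _
    have ht0 : 0 ≤ t := hT1.trans ht
    refine ⟨(hpos t ht0 j).le, ?_⟩
    have h2 : ω j * γ t j ≤ ∑ j, ω j * γ t j :=
      Finset.single_le_sum (fun l _ => mul_nonneg (hω0 l) (hpos t ht0 l).le) (Finset.mem_univ j)
    rw [hhidef, le_div_iff₀ (hω j)]
    linarith [h1 t ht]
  have hcoord : ∀ n, ∀ i, ρ i = n → ∃ T, T1 ≤ T ∧ ∀ t, T ≤ t → m i ≤ γ t i := by
    intro n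
    induction n using Nat.strong_induction_on with
    | _ n ih =>
      intro i hin
      have hj : ∀ j, ∃ T, T1 ≤ T ∧
          ((w i).1 j ≠ 0 → j ≠ p i → ∀ t, T ≤ t → m j ≤ γ t j) := by
        intro j
        by_cases h : (w i).1 j ≠ 0 ∧ j ≠ p i
        · have hlt : ρ j < ρ i := by
            rcases hw i j h.1 with h' | h'
            · exact h'
            · exact absurd h' h.2
          obtain ⟨T, hT, hT'⟩ := ih (ρ j) (by rw [← hin]; exact hlt) j rfl
          exact ⟨T, hT, fun _ _ => hT'⟩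
        · exact ⟨T1, le_rfl, fun h1 h2 => absurd ⟨h1, h2⟩ h⟩
      choose Tj hTj1 hTj using hj
      obtain ⟨Tmax, hTmax⟩ := Finite.bddAbove_range Tj
      have hT2 : T1 ≤ max Tmax T1 := le_max_right _ _
      have hT20 : 0 ≤ max Tmax T1 := hT1.trans hT2
      have hev : ∃ T, max Tmax T1 ≤ T ∧ ∀ t, T ≤ t → m i ≤ γ t i := by
        refine eventually_ge
          (δ := ε * ∏ j, (if j = p i then q i else m j) ^ (w i).1 j - K * m i)
          (by linarith [hmK i]) (hγ.coord i hT20) (fun t ht h => ?_)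
        have ht0 : 0 ≤ t := hT20.trans ht
        have h2 := field_lower' (hk0 t) (hK (κ t) (habs t)) i (hwmem i) (hw1 i) (hw2 i)
          (hbox t (hT2.trans ht))
        have h3 : ∏ j, (if j = p i then q i else m j) ^ (w i).1 j ≤
            ∏ j, γ t j ^ (w i).1 j := by
          refine Finset.prod_le_prod (fun j _ => pow_nonneg ?_ _) (fun j _ => ?_)
          · split_ifs
            · exact (hqpos i).le
            · exact (hm0 j).le
          · by_cases hy : (w i).1 j = 0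
            · rw [hy, pow_zero, pow_zero]
            · by_cases hj : j = p i
              · rw [if_pos hj]
                have hpi : p i ≠ i := by
                  intro hpi
                  rw [hj, hpi] at hy
                  exact hy (hw1 i)
                have hge : q i ≤ γ t (p i) := by
                  have h5 := hpair i hpi t ht0
                  have h6 : m i ≤ C i / 2 := (hmle i).trans (hm0q i)
                  simp only [hq]
                  linarith
                rw [hj]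
                exact pow_le_pow_left₀ (hqpos i).le hge _
              · rw [if_neg hj]
                exact pow_le_pow_left₀ (hm0 j).le (hTj j hy hj t
                  (((hTmax (mem_range_self j)).trans (le_max_left _ _)).trans ht)) _
        have h4 : ε * ∏ j, (if j = p i then q i else m j) ^ (w i).1 j ≤
            κ t (w i) * ∏ j, γ t j ^ (w i).1 j := by
          refine mul_le_mul (hκ.2 t _ (hwmem i)).1 h3
            (Finset.prod_nonneg fun j _ => pow_nonneg ?_ _) (hk0 t _ (hwmem i))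
          split_ifs
          · exact (hqpos i).le
          · exact (hm0 j).le
        have h5 : (K : ℝ) * γ t i ≤ K * m i := mul_le_mul_of_nonneg_left h K.coe_nonneg
        linarith
      obtain ⟨T, hT, hT'⟩ := hev
      exact ⟨T, hT2.trans hT, hT'⟩
  have hcoord' : ∀ i, ∃ T, T1 ≤ T ∧ ∀ t, T ≤ t → m i ≤ γ t i := fun i => hcoord (ρ i) i rfl
  choose T hT1' hT using hcoord'
  obtain ⟨Tmax, hTmax⟩ := Finite.bddAbove_range T
  refine ⟨max Tmax T1, fun t ht => ⟨fun i => ?_, h1 t ((le_max_right _ _).trans ht)⟩⟩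
  exact hT i t ((hTmax (mem_range_self i)).trans ((le_max_left _ _).trans ht))

end dynamics

/-- **Permanence of open networks with conserved two-state switches, time-dependent rates.**
Let `p` be a partner map on the species: species with `p i = i` are open and have an outflow
`X_i → 0`; for species with `p i ≠ i` every reaction conserves the sum of `i` and `p i`. Let `ω`
be a positive weight with `ω · (y' - y) ≤ 0` for every reaction `y → y'` with `y ≠ 0`, and suppose
the species can be ranked so that every species `i` is produced by a reaction not consuming `i`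
whose reactant species have lower rank than `i` or are the partner `p i`. Then for every `ε > 0`
the mass-action systems with time-dependent rates (continuous, with values in `[ε, ε⁻¹]`) are
permanent on every positive stoichiometric class, uniformly in the rates. -/
theorem permanentT_switch (N : Network d) (ω : Fin d → ℝ) (hω : ∀ i, 0 < ω i)
    (p : Fin d → Fin d)
    (hcons : ∀ r ∈ N.reactions, ∀ i, p i ≠ i → r.1 i + r.1 (p i) = r.2 i + r.2 (p i))
    (hrank : ∃ ρ : Fin d → ℕ, ∀ i, ∃ r ∈ N.reactions, r.1 i = 0 ∧ r.2 i ≠ 0 ∧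
      ∀ j, r.1 j ≠ 0 → ρ j < ρ i ∨ j = p i)
    (hout : ∀ i, p i = i → ((Pi.single i 1 : Fin d → ℕ), (0 : Fin d → ℕ)) ∈ N.reactions)
    (hdiss : ∀ r ∈ N.reactions, r.1 ≠ 0 → ∑ i, ω i * ((r.2 i : ℝ) - (r.1 i : ℝ)) ≤ 0)
    (ε : ℝ) (hε : 0 < ε) (c : Fin d → ℝ) (hc : ∀ i, 0 < c i) :
    PermanentT N ε (N.posClass c) := by
  obtain ⟨ρ, hρ⟩ := hrank
  choose w hwmem hw1 hw2 hw using hρ
  have hεi : (0 : ℝ) ≤ ε⁻¹ := (inv_pos.2 hε).le
  have hLip : ∀ κ : ℝ → (Fin d → ℕ) × (Fin d → ℕ) → ℝ, Admissible N ε κ →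
      ∀ C : Set (Fin d → ℝ), IsCompact C →
        ∃ K : NNReal, ∀ t, LipschitzOnWith K ((fun t => N.field (κ t)) t) C := by
    intro κ hκ C hC
    obtain ⟨K, hK⟩ := uniform_lipschitz N hεi hC
    exact ⟨K, fun t => hK (κ t) (hκ.abs_le hε t)⟩
  set C : Fin d → ℝ := fun i => c i + c (p i) with hCdef
  have hCpos : ∀ i, 0 < C i := fun i => add_pos (hc i) (hc (p i))
  have hPpair : ∀ x ∈ N.posClass c, ∀ i, p i ≠ i → x i + x (p i) = C i := by
    intro x hx i hi
    have h := pair_sum_stoich hcons hx.2 i hi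
    simp only [Pi.sub_apply] at h
    simp only [hCdef]
    linarith
  obtain ⟨m, M, hm0, hev⟩ :=
    eventually_inT' (ε := ε) hε hω p hcons ρ w hwmem hw1 hw2 hw hout hdiss C hCpos
  refine ⟨fun κ hκ x0 hx0 => ?_, ?_⟩
  · obtain ⟨γ, hγ0, hγsol, hγpos⟩ :=
      exists_solT' hε hω p hcons ρ w hwmem hw1 hw2 hw hout hdiss hκ x0 hx0.1
    exact ⟨γ, hγ0, hγsol, hγpos, fun T₀ y hy0 hy t ht =>
      sol_uniqueT (hLip κ hκ) (fun s hs => (hγsol s hs.1).mono Ico_subset_Ici_self) hy
        (by rw [hy0, hγ0]) t ht⟩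
  · refine ⟨{x | (∀ i, m i ≤ x i) ∧ ∑ i, ω i * x i ≤ M ∧ x - c ∈ N.stoich}, ?_, ?_, ?_⟩
    · have hbig : IsCompact (Set.pi univ fun i => Icc (m i) (M / ω i)) :=
        isCompact_univ_pi fun _ => isCompact_Icc
      refine hbig.of_isClosed_subset ?_ ?_
      · refine IsClosed.and ?_ (IsClosed.and ?_ ?_)
        · have e : {x : Fin d → ℝ | ∀ i, m i ≤ x i} = ⋂ i, {x : Fin d → ℝ | m i ≤ x i} := by
            ext x; simp
          rw [e]
          exact isClosed_iInter fun i => isClosed_le continuous_const (continuous_apply i)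
        · exact isClosed_le (continuous_finsetSum _ fun i _ =>
            continuous_const.mul (continuous_apply i)) continuous_const
        · exact (Submodule.closed_of_finiteDimensional N.stoich).preimage
            (continuous_id.sub continuous_const)
      · rintro x ⟨h1, h2, -⟩ i -
        refine ⟨h1 i, ?_⟩
        have h3 : ω i * x i ≤ ∑ j, ω j * x j :=
          Finset.single_le_sum (fun l _ => mul_nonneg (hω l).le ((hm0 l).le.trans (h1 l)))
            (Finset.mem_univ i)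
        rw [le_div_iff₀ (hω i)]
        linarith
    · rintro x ⟨h1, -, h3⟩
      exact ⟨fun i => lt_of_lt_of_le (hm0 i) (h1 i), h3⟩
    · intro κ hκ x hx0 hxsol
      obtain ⟨γ, hγ0, hγsol, hγpos⟩ :=
        exists_solT' hε hω p hcons ρ w hwmem hw1 hw2 hw hout hdiss hκ (x 0) hx0.1
      have hxeq : ∀ t, 0 ≤ t → x t = γ t := by
        intro t ht
        exact sol_uniqueT (hLip κ hκ) (fun s hs => (hγsol s hs.1).mono Ico_subset_Ici_self)
          (fun s hs => (hxsol s hs.1).mono Ico_subset_Ici_self) (by rw [hγ0]) t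
          ⟨ht, lt_add_one t⟩
      have hxpos : ∀ t, 0 ≤ t → ∀ i, 0 < x t i := fun t ht i => by
        rw [hxeq t ht]; exact hγpos t ht i
      obtain ⟨T, hT⟩ := hev κ hκ x hxsol hxpos (hPpair (x 0) hx0)
      refine ⟨max T 0, fun t ht => ?_⟩
      have ht0 : 0 ≤ t := (le_max_right _ _).trans ht
      obtain ⟨b1, b2⟩ := hT t ((le_max_left _ _).trans ht)
      refine ⟨b1, b2, ?_⟩
      have h1 := sol_sub_mem (S := N.stoich) (fun s z => field_mem_stoich N (κ s) z) hxsol t ht0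
      have h2 : x t - c = (x t - x 0) + (x 0 - c) := by abel
      rw [h2]
      exact Submodule.add_mem _ h1 hx0.2

/-- Constant rates: the autonomous version of `permanentT_switch`. -/
theorem permanent_switch (N : Network d) (ω : Fin d → ℝ) (hω : ∀ i, 0 < ω i)
    (p : Fin d → Fin d)
    (hcons : ∀ r ∈ N.reactions, ∀ i, p i ≠ i → r.1 i + r.1 (p i) = r.2 i + r.2 (p i))
    (hrank : ∃ ρ : Fin d → ℕ, ∀ i, ∃ r ∈ N.reactions, r.1 i = 0 ∧ r.2 i ≠ 0 ∧
      ∀ j, r.1 j ≠ 0 → ρ j < ρ i ∨ j = p i)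
    (hout : ∀ i, p i = i → ((Pi.single i 1 : Fin d → ℕ), (0 : Fin d → ℕ)) ∈ N.reactions)
    (hdiss : ∀ r ∈ N.reactions, r.1 ≠ 0 → ∑ i, ω i * ((r.2 i : ℝ) - (r.1 i : ℝ)) ≤ 0)
    (k : (Fin d → ℕ) × (Fin d → ℕ) → ℝ) (hk : ∀ r ∈ N.reactions, 0 < k r)
    (c : Fin d → ℝ) (hc : ∀ i, 0 < c i) : Permanent (N.field k) (N.posClass c) := by
  obtain ⟨ε, hε, hεk⟩ := exists_pos_le (fun r : N.reactions => min (k r.1) (k r.1)⁻¹)
    (fun r => lt_min (hk r.1 r.2) (inv_pos.2 (hk r.1 r.2)))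
  have hadm : Admissible N ε (fun _ => k) := by
    refine ⟨fun r _ => continuous_const, fun t r hr => ?_⟩
    have h1 := hεk ⟨r, hr⟩
    refine ⟨h1.trans (min_le_left _ _), ?_⟩
    have h2 : ε ≤ (k r)⁻¹ := h1.trans (min_le_right _ _)
    exact (le_inv_comm₀ hε (hk r hr)).1 h2
  obtain ⟨h1, K, hK, hKP, hK'⟩ := permanentT_switch N ω hω p hcons hrank hout hdiss ε hε c hc
  refine ⟨fun x0 hx0 => ?_, K, hK, hKP, fun x hx0 hx => hK' _ hadm x hx0 hx⟩
  obtain ⟨x, hx0', hxsol, hxpos, hxuniq⟩ := h1 _ hadm x0 hx0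
  exact ⟨x, hx0', hxsol, hxpos, fun T₀ y hy0 hy => hxuniq T₀ y hy0 hy⟩

end Vale.Agent.Helper14.Switches
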