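import Vale.Agent.Helper14.OutflowNetworks

/-!
Mass-action systems with time-dependent rate constants (continuous in time, with values in
`[ε, ε⁻¹]`): permanence, uniformly over all such rate functions, for weakly reversible networks
with an outflow of every species and a positive weight that does not increase along reactions
with nonzero source.
-/

namespace Vale.Agent.Helper14.TimeDependent

open Set Vale.Agent.Helper14.MassAction Vale.Agent.Helper14.OpenNetworks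
  Vale.Agent.Helper14.OutflowNetworks

variable {d : ℕ}

/-- `x` solves the non-autonomous equation `ẋ(t) = f t (x t)` on the time set `T` (derivatives
taken within `T`). -/
def IsSolOnT (f : ℝ → (Fin d → ℝ) → (Fin d → ℝ)) (x : ℝ → Fin d → ℝ) (T : Set ℝ) : Prop :=
  ∀ t ∈ T, HasDerivWithinAt x (f t (x t)) T t

/-- Admissible time-dependent rate constants for `N`: for every reaction `r` the rate
`t ↦ κ t r` is continuous and takes values in `[ε, ε⁻¹]`. -/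
def Admissible (N : Network d) (ε : ℝ) (κ : ℝ → (Fin d → ℕ) × (Fin d → ℕ) → ℝ) : Prop :=
  (∀ r ∈ N.reactions, Continuous fun t => κ t r) ∧
    ∀ t, ∀ r ∈ N.reactions, ε ≤ κ t r ∧ κ t r ≤ ε⁻¹

/-- Permanence on `P` of the mass-action systems `ẋ = f_{κ(t)}(x)` of `N`, uniformly over all
admissible rate functions `κ` with bound `ε`: (1) for every admissible `κ` and every `x0 ∈ P`
there is a solution on `[0, ∞)` starting at `x0`, positive for all `t ≥ 0`, and every solution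
on any `[0, T₀)` starting at `x0` coincides with it; (2) there is one compact `K ⊆ P` such that
for every admissible `κ`, every solution on `[0, ∞)` starting in `P` lies in `K` for all
sufficiently large `t`. -/
def PermanentT (N : Network d) (ε : ℝ) (P : Set (Fin d → ℝ)) : Prop :=
  (∀ κ, Admissible N ε κ → ∀ x0 ∈ P, ∃ x : ℝ → Fin d → ℝ, x 0 = x0 ∧
      IsSolOnT (fun t => N.field (κ t)) x (Ici 0) ∧ (∀ t, 0 ≤ t → ∀ i, 0 < x t i) ∧
      ∀ (T₀ : ℝ) (y : ℝ → Fin d → ℝ), y 0 = x0 →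
        IsSolOnT (fun t => N.field (κ t)) y (Ico 0 T₀) → ∀ t ∈ Ico 0 T₀, y t = x t) ∧
  ∃ K : Set (Fin d → ℝ), IsCompact K ∧ K ⊆ P ∧
    ∀ κ, Admissible N ε κ → ∀ x : ℝ → Fin d → ℝ, x 0 ∈ P →
      IsSolOnT (fun t => N.field (κ t)) x (Ici 0) → ∃ T : ℝ, ∀ t, T ≤ t → x t ∈ K

/-! ### Global existence and uniqueness for non-autonomous fields -/

lemma exists_global_solT {E : Type*} [NormedAddCommGroup E] [NormedSpace ℝ E] [CompleteSpace E]
    (g : ℝ → E → E) (L K : NNReal) (hL : ∀ t x, ‖g t x‖ ≤ L) (hK : ∀ t, LipschitzWith K (g t))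
    (hc : ∀ x, Continuous fun t => g t x) (x0 : E) :
    ∃ γ : ℝ → E, γ 0 = x0 ∧ ∀ t ∈ Ici (0 : ℝ), HasDerivWithinAt γ (g t (γ t)) (Ici 0) t := by
  have hex : ∀ n : ℕ, ∃ α : ℝ → E, α 0 = x0 ∧
      ∀ t ∈ Icc (0 : ℝ) (n + 1), HasDerivWithinAt α (g t (α t)) (Icc 0 (n + 1)) t := by
    intro n
    have hn : (0 : ℝ) ≤ n + 1 := by positivity
    have hPL : IsPicardLindelof g (⟨0, left_mem_Icc.mpr hn⟩ : Icc (0 : ℝ) (n + 1)) x0
        (L * ((n : NNReal) + 1)) 0 L K := by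
      refine ⟨fun t _ => (hK t).lipschitzOnWith, fun x _ => (hc x).continuousOn,
        fun t _ x _ => hL t x, ?_⟩
      simp only [sub_zero, NNReal.coe_mul, NNReal.coe_add, NNReal.coe_natCast, NNReal.coe_one,
        NNReal.coe_zero, sub_self]
      rw [max_eq_left hn]
    exact hPL.exists_eq_forall_mem_Icc_hasDerivWithinAt₀
  choose α hα0 hα using hex
  have hmono : ∀ m n : ℕ, m ≤ n → EqOn (α m) (α n) (Icc 0 (m + 1)) := by
    intro m n hmn
    have hsub : Icc (0 : ℝ) (m + 1) ⊆ Icc 0 (n + 1) :=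
      Icc_subset_Icc le_rfl (by exact_mod_cast Nat.succ_le_succ hmn)
    refine ODE_solution_unique_of_mem_Icc_right (v := g) (s := fun _ => univ) (K := K)
      (fun t _ => (hK t).lipschitzOnWith) ?_ ?_ (fun _ _ => mem_univ _) ?_ ?_
      (fun _ _ => mem_univ _) ?_
    · exact fun t ht => (hα m t ht).continuousWithinAt
    · intro t ht
      refine (hα m t ⟨ht.1, ht.2.le⟩).mono_of_mem_nhdsWithin ?_
      exact Icc_mem_nhdsGE_of_mem ht
    · exact fun t ht => ((hα n t (hsub ht)).continuousWithinAt).mono hsub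
    · intro t ht
      refine (hα n t (hsub ⟨ht.1, ht.2.le⟩)).mono_of_mem_nhdsWithin ?_
      exact Icc_mem_nhdsGE_of_mem
        ⟨ht.1, lt_of_lt_of_le ht.2 (hsub (right_mem_Icc.mpr (by positivity))).2⟩
    · rw [hα0, hα0]
  refine ⟨fun t => α ⌈t⌉₊ t, by simp [hα0], ?_⟩
  intro t ht
  have ht0 : (0 : ℝ) ≤ t := ht
  set n := ⌈t⌉₊ + 1 with hn
  have htn : t < (⌈t⌉₊ : ℝ) + 1 := lt_of_le_of_lt (Nat.le_ceil t) (lt_add_one _)
  have hU : ∀ s ∈ Ico (0 : ℝ) (⌈t⌉₊ + 1), α ⌈s⌉₊ s = α n s := by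
    intro s hs
    have hsn : ⌈s⌉₊ ≤ n := by
      rw [hn]
      apply Nat.ceil_le.mpr
      push_cast
      exact hs.2.le
    exact hmono ⌈s⌉₊ n hsn ⟨hs.1, (Nat.le_ceil s).trans (le_add_of_nonneg_right zero_le_one)⟩
  have htU : t ∈ Ico (0 : ℝ) (⌈t⌉₊ + 1) := ⟨ht0, htn⟩
  have htIcc : t ∈ Icc (0 : ℝ) ((n : ℝ) + 1) := by
    refine ⟨ht0, ?_⟩
    rw [hn]; push_cast; linarith
  have hsubU : Ico (0 : ℝ) (⌈t⌉₊ + 1) ⊆ Icc 0 ((n : ℝ) + 1) := by
    intro s hs
    refine ⟨hs.1, ?_⟩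
    rw [hn]; push_cast; linarith [hs.2]
  have h1 : HasDerivWithinAt (α n) (g t (α n t)) (Ico 0 (⌈t⌉₊ + 1)) t :=
    (hα n t htIcc).mono hsubU
  have h2 : HasDerivWithinAt (fun s => α ⌈s⌉₊ s) (g t (α n t)) (Ico 0 (⌈t⌉₊ + 1)) t :=
    h1.congr hU (hU t htU)
  have h3 : HasDerivWithinAt (fun s => α ⌈s⌉₊ s) (g t (α n t)) (Ici 0) t := by
    refine h2.mono_of_mem_nhdsWithin ?_
    have : Ico (0 : ℝ) (⌈t⌉₊ + 1) = Ici (0 : ℝ) ∩ Iio ((⌈t⌉₊ : ℝ) + 1) := by
      ext s; simp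
    rw [this]
    exact inter_mem_nhdsWithin _ (Iio_mem_nhds htn)
  simpa [hU t htU] using h3

lemma sol_uniqueT {f : ℝ → (Fin d → ℝ) → (Fin d → ℝ)}
    (hf : ∀ C : Set (Fin d → ℝ), IsCompact C → ∃ K : NNReal, ∀ t, LipschitzOnWith K (f t) C)
    {x y : ℝ → Fin d → ℝ} {T₀ : ℝ} (hx : IsSolOnT f x (Ico 0 T₀)) (hy : IsSolOnT f y (Ico 0 T₀))
    (h0 : y 0 = x 0) : ∀ t ∈ Ico 0 T₀, y t = x t := by
  intro t ht
  set b := (t + T₀) / 2 with hb
  have hb1 : t < b := by rw [hb]; linarith [ht.2]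
  have hb2 : b < T₀ := by rw [hb]; linarith [ht.2]
  have hsub : Icc 0 b ⊆ Ico 0 T₀ := fun s hs => ⟨hs.1, lt_of_le_of_lt hs.2 hb2⟩
  have hxc : ContinuousOn x (Icc 0 b) :=
    fun s hs => ((hx s (hsub hs)).continuousWithinAt).mono hsub
  have hyc : ContinuousOn y (Icc 0 b) :=
    fun s hs => ((hy s (hsub hs)).continuousWithinAt).mono hsub
  have hcx : IsCompact (x '' Icc 0 b) := isCompact_Icc.image_of_continuousOn hxc
  have hcy : IsCompact (y '' Icc 0 b) := isCompact_Icc.image_of_continuousOn hyc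
  obtain ⟨K, hK⟩ := hf _ (hcx.union hcy)
  have key := ODE_solution_unique_of_mem_Icc_right (v := f)
    (s := fun _ => x '' Icc 0 b ∪ y '' Icc 0 b) (K := K) (a := 0) (b := b) (f := y) (g := x)
    (fun t _ => hK t) hyc ?_ ?_ hxc ?_ ?_ h0
  · exact key ⟨ht.1, hb1.le⟩
  · intro s hs
    have hs' : s ∈ Ico 0 T₀ := ⟨hs.1, hs.2.trans hb2⟩
    exact (hy s hs').mono_of_mem_nhdsWithin (Ico_mem_nhdsGE_of_mem hs')
  · intro s hs
    exact Or.inr ⟨s, ⟨hs.1, hs.2.le⟩, rfl⟩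
  · intro s hs
    have hs' : s ∈ Ico 0 T₀ := ⟨hs.1, hs.2.trans hb2⟩
    exact (hx s hs').mono_of_mem_nhdsWithin (Ico_mem_nhdsGE_of_mem hs')
  · intro s hs
    exact Or.inl ⟨s, ⟨hs.1, hs.2.le⟩, rfl⟩

lemma IsSolOnT.coord {f : ℝ → (Fin d → ℝ) → (Fin d → ℝ)} {x : ℝ → Fin d → ℝ}
    (hx : IsSolOnT f x (Ici 0)) (i : Fin d) {a : ℝ} (ha : 0 ≤ a) :
    ∀ t ∈ Ici a, HasDerivWithinAt (fun s => x s i) (f t (x t) i) (Ici a) t := by
  intro t ht
  have h1 := (hasDerivWithinAt_pi.1 (hx t (ha.trans ht))) i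
  exact h1.mono (Ici_subset_Ici.mpr ha)

/-! ### Bounds for the mass-action field, uniform in bounded rate constants -/

lemma field_eq_sum (N : Network d) (k : (Fin d → ℕ) × (Fin d → ℕ) → ℝ) (x : Fin d → ℝ) :
    N.field k x = ∑ r ∈ N.reactions, k r • ((∏ i, x i ^ r.1 i) • rvec r) := by
  simp only [Network.field, mul_smul]

lemma contDiff_mono (r : (Fin d → ℕ) × (Fin d → ℕ)) :
    ContDiff ℝ 1 (fun x : Fin d → ℝ => (∏ i, x i ^ r.1 i) • rvec r) :=
  (contDiff_prod fun i _ => (contDiff_apply ℝ ℝ i).pow _).smul contDiff_const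

lemma uniform_lipschitz (N : Network d) {B : ℝ} (hB : 0 ≤ B) {C : Set (Fin d → ℝ)}
    (hC : IsCompact C) :
    ∃ K : NNReal, ∀ k : (Fin d → ℕ) × (Fin d → ℕ) → ℝ, (∀ r ∈ N.reactions, |k r| ≤ B) →
      LipschitzOnWith K (N.field k) C := by
  have h : ∀ r : (Fin d → ℕ) × (Fin d → ℕ), ∃ Kr : NNReal,
      LipschitzOnWith Kr (fun x : Fin d → ℝ => (∏ i, x i ^ r.1 i) • rvec r) C := fun r =>
    (contDiff_mono r).locallyLipschitz.locallyLipschitzOn.exists_lipschitzOnWith_of_compact hC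
  choose Kr hKr using h
  refine ⟨B.toNNReal * ∑ r ∈ N.reactions, Kr r, fun k hk => ?_⟩
  refine LipschitzOnWith.of_dist_le_mul fun x hx y hy => ?_
  rw [dist_eq_norm, field_eq_sum, field_eq_sum, ← Finset.sum_sub_distrib]
  refine (norm_sum_le _ _).trans ?_
  have h1 : ∀ r ∈ N.reactions, ‖k r • ((∏ i, x i ^ r.1 i) • rvec r) -
      k r • ((∏ i, y i ^ r.1 i) • rvec r)‖ ≤ B * (Kr r * dist x y) := by
    intro r hr
    rw [← smul_sub, norm_smul, Real.norm_eq_abs]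
    refine mul_le_mul (hk r hr) ?_ (norm_nonneg _) hB
    rw [← dist_eq_norm]
    exact (hKr r).dist_le_mul x hx y hy
  refine (Finset.sum_le_sum h1).trans (le_of_eq ?_)
  rw [NNReal.coe_mul, NNReal.coe_sum, Real.coe_toNNReal B hB, ← Finset.mul_sum,
    ← Finset.sum_mul]
  ring

lemma uniform_bound (N : Network d) {B : ℝ} (hB : 0 ≤ B) {C : Set (Fin d → ℝ)}
    (hC : IsCompact C) :
    ∃ L : NNReal, ∀ k : (Fin d → ℕ) × (Fin d → ℕ) → ℝ, (∀ r ∈ N.reactions, |k r| ≤ B) →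
      ∀ x ∈ C, ‖N.field k x‖ ≤ L := by
  have h : ∀ r : (Fin d → ℕ) × (Fin d → ℕ), ∃ Cr : ℝ,
      ∀ x ∈ C, ‖(∏ i, x i ^ r.1 i) • rvec r‖ ≤ Cr := fun r =>
    hC.exists_bound_of_continuousOn (contDiff_mono r).continuous.continuousOn
  choose Cr hCr using h
  refine ⟨B.toNNReal * ∑ r ∈ N.reactions, (Cr r).toNNReal, fun k hk x hx => ?_⟩
  rw [field_eq_sum]
  refine (norm_sum_le _ _).trans ?_
  have h1 : ∀ r ∈ N.reactions, ‖k r • ((∏ i, x i ^ r.1 i) • rvec r)‖ ≤ B * max (Cr r) 0 := by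
    intro r hr
    rw [norm_smul, Real.norm_eq_abs]
    exact mul_le_mul (hk r hr) ((hCr r x hx).trans (le_max_left _ _)) (norm_nonneg _) hB
  refine (Finset.sum_le_sum h1).trans (le_of_eq ?_)
  rw [NNReal.coe_mul, NNReal.coe_sum, Real.coe_toNNReal B hB, Finset.mul_sum]
  simp only [Real.coe_toNNReal']

lemma exists_bound_lipschitz_clampT (N : Network d) {B : ℝ} (hB : 0 ≤ B) {lo hi : Fin d → ℝ}
    (h : ∀ i, lo i ≤ hi i) :
    ∃ L K : NNReal, ∀ k : (Fin d → ℕ) × (Fin d → ℕ) → ℝ, (∀ r ∈ N.reactions, |k r| ≤ B) →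
      (∀ x, ‖N.field k (clamp lo hi x)‖ ≤ L) ∧ LipschitzWith K (N.field k ∘ clamp lo hi) := by
  have hcomp : IsCompact (Set.pi univ (fun i => Icc (lo i) (hi i))) :=
    isCompact_univ_pi (fun i => isCompact_Icc)
  obtain ⟨L, hL⟩ := uniform_bound N hB hcomp
  obtain ⟨K, hK⟩ := uniform_lipschitz N hB hcomp
  refine ⟨L, K * 1, fun k hk => ⟨fun x => hL k hk _ (clamp_mem h x), ?_⟩⟩
  rw [← lipschitzOnWith_univ]
  exact (hK k hk).comp (lipschitz_clamp lo hi).lipschitzOnWith (fun x _ => clamp_mem h x)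

lemma continuous_field_time (N : Network d) {ε : ℝ}
    {κ : ℝ → (Fin d → ℕ) × (Fin d → ℕ) → ℝ} (hκ : Admissible N ε κ) (z : Fin d → ℝ) :
    Continuous fun t => N.field (κ t) z := by
  simp only [field_eq_sum]
  exact continuous_finsetSum _ fun r hr => (hκ.1 r hr).smul continuous_const

lemma Admissible.pos {N : Network d} {ε : ℝ} (hε : 0 < ε)
    {κ : ℝ → (Fin d → ℕ) × (Fin d → ℕ) → ℝ} (hκ : Admissible N ε κ) (t : ℝ) :
    ∀ r ∈ N.reactions, 0 ≤ κ t r := fun r hr => hε.le.trans (hκ.2 t r hr).1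

lemma Admissible.abs_le {N : Network d} {ε : ℝ} (hε : 0 < ε)
    {κ : ℝ → (Fin d → ℕ) × (Fin d → ℕ) → ℝ} (hκ : Admissible N ε κ) (t : ℝ) :
    ∀ r ∈ N.reactions, |κ t r| ≤ ε⁻¹ := fun r hr => by
  rw [abs_of_nonneg (hκ.pos hε t r hr)]
  exact (hκ.2 t r hr).2

/-! ### Dynamics -/

section dynamics

variable {N : Network d} {ω : Fin d → ℝ} {ε : ℝ}

/-- the constant `A` bounding the inflow term, uniformly over admissible rates -/
lemma inflow_le (hω : ∀ i, 0 ≤ ω i)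
    {κ : ℝ → (Fin d → ℕ) × (Fin d → ℕ) → ℝ} (hκ : Admissible N ε κ) (t : ℝ) :
    ∑ r ∈ N.reactions, κ t r * ∑ i, ω i * (r.2 i : ℝ) ≤
      ε⁻¹ * ∑ r ∈ N.reactions, ∑ i, ω i * (r.2 i : ℝ) := by
  rw [Finset.mul_sum]
  refine Finset.sum_le_sum fun r hr => ?_
  exact mul_le_mul_of_nonneg_right (hκ.2 t r hr).2
    (Finset.sum_nonneg fun i _ => mul_nonneg (hω i) (Nat.cast_nonneg _))

/-- From every positive initial point there is a global positive solution. -/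
lemma exists_solT (hε : 0 < ε) (hω : ∀ i, 0 < ω i)
    (ρ : Fin d → ℕ) (w : Fin d → (Fin d → ℕ) × (Fin d → ℕ))
    (hwmem : ∀ i, w i ∈ N.reactions) (hw1 : ∀ i, (w i).1 i = 0) (hw2 : ∀ i, (w i).2 i ≠ 0)
    (hw : ∀ i j, (w i).1 j ≠ 0 → ρ j < ρ i)
    (hout : ∀ i, ((Pi.single i 1 : Fin d → ℕ), (0 : Fin d → ℕ)) ∈ N.reactions)
    (hdiss : ∀ r ∈ N.reactions, r.1 ≠ 0 → ∑ i, ω i * ((r.2 i : ℝ) - (r.1 i : ℝ)) ≤ 0)
    {κ : ℝ → (Fin d → ℕ) × (Fin d → ℕ) → ℝ} (hκ : Admissible N ε κ)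
    (x0 : Fin d → ℝ) (hx0 : ∀ i, 0 < x0 i) :
    ∃ γ : ℝ → Fin d → ℝ, γ 0 = x0 ∧ IsSolOnT (fun t => N.field (κ t)) γ (Ici 0) ∧
      ∀ t, 0 ≤ t → ∀ i, 0 < γ t i := by
  have hk0 := hκ.pos hε
  have habs := hκ.abs_le hε
  have hεi : (0 : ℝ) ≤ ε⁻¹ := (inv_pos.2 hε).le
  have hω0 : ∀ i, 0 ≤ ω i := fun i => (hω i).le
  have hβ : ∀ t i, ε ≤ κ t ((Pi.single i 1 : Fin d → ℕ), (0 : Fin d → ℕ)) :=
    fun t i => (hκ.2 t _ (hout i)).1
  set A := ε⁻¹ * ∑ r ∈ N.reactions, ∑ i, ω i * (r.2 i : ℝ) with hA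
  have hA0 : 0 ≤ A := mul_nonneg hεi (Finset.sum_nonneg fun r _ =>
    Finset.sum_nonneg fun i _ => mul_nonneg (hω0 i) (Nat.cast_nonneg _))
  set M := max (∑ i, ω i * x0 i) (A / ε + 1) with hM
  have hM1 : A + ε ≤ ε * M := by
    have h1 : A / ε + 1 ≤ M := le_max_right _ _
    have h2 : A / ε ≤ M - 1 := by linarith
    rw [div_le_iff₀ hε] at h2
    nlinarith
  have hMpos : 0 < M := lt_of_lt_of_le (by positivity) (le_max_right _ _)
  set hi : Fin d → ℝ := fun j => M / ω j with hhidef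
  have hhi : ∀ j, 0 < hi j := fun j => div_pos hMpos (hω j)
  have hcomp : IsCompact (Set.pi univ fun j => Icc (0 : ℝ) (hi j)) :=
    isCompact_univ_pi fun _ => isCompact_Icc
  obtain ⟨K, hK⟩ := uniform_lipschitz N hεi hcomp
  obtain ⟨m1, hm10, hm1⟩ := exists_pos_le x0 hx0
  obtain ⟨m2, hm20, hm2⟩ := exists_pos_le hi hhi
  obtain ⟨m, hm0, hmle, hmK⟩ := exists_lower (k := fun _ => ε) ρ w (fun _ => hε) hw
    K.coe_nonneg (lt_min hm10 hm20)
  have hlohi : ∀ j, m j ≤ hi j := fun j => ((hmle j).trans (min_le_right _ _)).trans (hm2 j)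
  obtain ⟨L', K', hLK⟩ := exists_bound_lipschitz_clampT N hεi hlohi
  obtain ⟨γ, hγ0, hγ⟩ := exists_global_solT (fun t => N.field (κ t) ∘ clamp m hi) L' K'
    (fun t x => (hLK (κ t) (habs t)).1 x) (fun t => (hLK (κ t) (habs t)).2)
    (fun x => continuous_field_time N hκ (clamp m hi x)) x0
  have hsol : IsSolOnT (fun t => N.field (κ t) ∘ clamp m hi) γ (Ici 0) := hγ
  have hclbox : ∀ t, clamp m hi (γ t) ∈ Set.pi univ fun j => Icc (0 : ℝ) (hi j) := by
    intro t j _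
    have h := clamp_mem hlohi (γ t) j (mem_univ j)
    exact ⟨(hm0 j).le.trans h.1, h.2⟩
  -- lower barriers
  have hlow : ∀ i, ∀ t, 0 ≤ t → m i ≤ γ t i := by
    intro i
    refine barrier_ge (hsol.coord i le_rfl)
      (by rw [hγ0]; exact ((hmle i).trans (min_le_left _ _)).trans (hm1 i))
      (fun t _ h => ?_)
    have hci : clamp m hi (γ t) i = m i := by
      rw [clamp_apply_of_mem (by rw [h]) (by rw [h]; exact hlohi i)]
      exact h
    have h1 := field_lower' (hk0 t) (hK (κ t) (habs t)) i (hwmem i) (hw1 i) (hw2 i) (hclbox t)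
    rw [hci] at h1
    have h3 : ∏ j, m j ^ (w i).1 j ≤ ∏ j, clamp m hi (γ t) j ^ (w i).1 j :=
      Finset.prod_le_prod (fun j _ => pow_nonneg (hm0 j).le _)
        (fun j _ => pow_le_pow_left₀ (hm0 j).le (clamp_mem hlohi (γ t) j (mem_univ j)).1 _)
    have h4 : ε * ∏ j, m j ^ (w i).1 j ≤
        κ t (w i) * ∏ j, clamp m hi (γ t) j ^ (w i).1 j :=
      mul_le_mul (hκ.2 t _ (hwmem i)).1 h3
        (Finset.prod_nonneg fun j _ => pow_nonneg (hm0 j).le _) (hk0 t _ (hwmem i))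
    have h2 : (N.field (κ t) ∘ clamp m hi) (γ t) i = N.field (κ t) (clamp m hi (γ t)) i := rfl
    rw [h2]
    linarith [hmK i]
  -- upper barrier for the weighted sum
  have hderivL : ∀ t ∈ Ici (0 : ℝ), HasDerivWithinAt (fun s => ∑ j, ω j * γ s j)
      (∑ j, ω j * (N.field (κ t) ∘ clamp m hi) (γ t) j) (Ici 0) t := by
    intro t ht
    exact HasDerivWithinAt.fun_sum fun j _ => (hsol.coord j le_rfl t ht).const_mul (ω j)
  have hhile : ∀ t, 0 ≤ t → ∑ j, ω j * γ t j ≤ M → ∀ j, γ t j ≤ hi j := by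
    intro t ht h j
    have h1 : ω j * γ t j ≤ ∑ j, ω j * γ t j :=
      Finset.single_le_sum (fun l _ => mul_nonneg (hω0 l) ((hm0 l).le.trans (hlow l t ht)))
        (Finset.mem_univ j)
    rw [hhidef, le_div_iff₀ (hω j)]
    linarith
  have hup : ∀ t, 0 ≤ t → ∑ j, ω j * γ t j ≤ M := by
    refine barrier_le hderivL (by rw [hγ0]; exact le_max_left _ _) (fun t ht h => ?_)
    have hcl : clamp m hi (γ t) = γ t := by
      ext j
      exact clamp_apply_of_mem (hlow j t ht) (hhile t ht h.le j)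
    simp only [Function.comp_apply, hcl]
    have h1 := dissipation (hk0 t) hω0 hout hdiss (hβ t) (x := γ t)
      (fun j => (hm0 j).le.trans (hlow j t ht))
    have h2 := inflow_le hω0 hκ t
    rw [h] at h1
    linarith
  have hcl : ∀ t, 0 ≤ t → clamp m hi (γ t) = γ t := by
    intro t ht
    ext j
    exact clamp_apply_of_mem (hlow j t ht) (hhile t ht (hup t ht) j)
  refine ⟨γ, hγ0, fun t ht => ?_, fun t ht i => lt_of_lt_of_le (hm0 i) (hlow i t ht)⟩
  have h : HasDerivWithinAt γ (N.field (κ t) (clamp m hi (γ t))) (Ici 0) t := hsol t ht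
  rw [hcl t ht] at h
  exact h

/-- All global positive solutions, for all admissible rate functions, eventually enter one
fixed region `{x | (∀ i, m i ≤ x i) ∧ ∑ ω i * x i ≤ M}`. -/
lemma eventually_inT (hε : 0 < ε) (hω : ∀ i, 0 < ω i)
    (ρ : Fin d → ℕ) (w : Fin d → (Fin d → ℕ) × (Fin d → ℕ))
    (hwmem : ∀ i, w i ∈ N.reactions) (hw1 : ∀ i, (w i).1 i = 0) (hw2 : ∀ i, (w i).2 i ≠ 0)
    (hw : ∀ i j, (w i).1 j ≠ 0 → ρ j < ρ i)
    (hout : ∀ i, ((Pi.single i 1 : Fin d → ℕ), (0 : Fin d → ℕ)) ∈ N.reactions)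
    (hdiss : ∀ r ∈ N.reactions, r.1 ≠ 0 → ∑ i, ω i * ((r.2 i : ℝ) - (r.1 i : ℝ)) ≤ 0) :
    ∃ (m : Fin d → ℝ) (M : ℝ), (∀ i, 0 < m i) ∧
      ∀ κ : ℝ → (Fin d → ℕ) × (Fin d → ℕ) → ℝ, Admissible N ε κ → ∀ γ : ℝ → Fin d → ℝ,
      IsSolOnT (fun t => N.field (κ t)) γ (Ici 0) → (∀ t, 0 ≤ t → ∀ i, 0 < γ t i) →
      ∃ T, ∀ t, T ≤ t → (∀ i, m i ≤ γ t i) ∧ ∑ i, ω i * γ t i ≤ M := by
  have hεi : (0 : ℝ) ≤ ε⁻¹ := (inv_pos.2 hε).le
  have hω0 : ∀ i, 0 ≤ ω i := fun i => (hω i).le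
  set A := ε⁻¹ * ∑ r ∈ N.reactions, ∑ i, ω i * (r.2 i : ℝ) with hA
  have hA0 : 0 ≤ A := mul_nonneg hεi (Finset.sum_nonneg fun r _ =>
    Finset.sum_nonneg fun i _ => mul_nonneg (hω0 i) (Nat.cast_nonneg _))
  set M := A / ε + 1 with hM
  have hM1 : ε * M = A + ε := by
    rw [hM]; field_simp
  have hMpos : 0 < M := by positivity
  set hi : Fin d → ℝ := fun j => M / ω j with hhidef
  have hcomp : IsCompact (Set.pi univ fun j => Icc (0 : ℝ) (hi j)) :=
    isCompact_univ_pi fun _ => isCompact_Icc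
  obtain ⟨K, hK⟩ := uniform_lipschitz N hεi hcomp
  obtain ⟨m, hm0, -, hmK⟩ := exists_lower (k := fun _ => ε) ρ w (fun _ => hε) hw
    K.coe_nonneg one_pos
  refine ⟨m, M, hm0, fun κ hκ γ hγ hpos => ?_⟩
  have hk0 := hκ.pos hε
  have habs := hκ.abs_le hε
  have hβ : ∀ t i, ε ≤ κ t ((Pi.single i 1 : Fin d → ℕ), (0 : Fin d → ℕ)) :=
    fun t i => (hκ.2 t _ (hout i)).1
  have hderivL : ∀ t ∈ Ici (0 : ℝ), HasDerivWithinAt (fun s => ∑ j, ω j * γ s j)
      (∑ j, ω j * N.field (κ t) (γ t) j) (Ici 0) t := by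
    intro t ht
    exact HasDerivWithinAt.fun_sum fun j _ => (hγ.coord j le_rfl t ht).const_mul (ω j)
  obtain ⟨T1, hT1, h1⟩ := eventually_le (δ := ε) (M := M) hε hderivL (fun t ht h => by
    have h2 := dissipation (hk0 t) hω0 hout hdiss (hβ t) (x := γ t) (fun j => (hpos t ht j).le)
    have h3 : ε * M ≤ ε * ∑ i, ω i * γ t i := mul_le_mul_of_nonneg_left h hε.le
    have h4 := inflow_le hω0 hκ t
    linarith)
  have hbox : ∀ t, T1 ≤ t → γ t ∈ Set.pi univ fun j => Icc (0 : ℝ) (hi j) := by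
    intro t ht j _
    have ht0 : 0 ≤ t := hT1.trans ht
    refine ⟨(hpos t ht0 j).le, ?_⟩
    have h2 : ω j * γ t j ≤ ∑ j, ω j * γ t j :=
      Finset.single_le_sum (fun l _ => mul_nonneg (hω0 l) (hpos t ht0 l).le) (Finset.mem_univ j)
    rw [hhidef, le_div_iff₀ (hω j)]
    linarith [h1 t ht]
  have hcoord : ∀ n, ∀ i, ρ i = n → ∃ T, T1 ≤ T ∧ ∀ t, T ≤ t → m i ≤ γ t i := by
    intro n
    induction n using Nat.strong_induction_on with
    | _ n ih =>
      intro i hin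
      have hj : ∀ j, ∃ T, T1 ≤ T ∧ ((w i).1 j ≠ 0 → ∀ t, T ≤ t → m j ≤ γ t j) := by
        intro j
        by_cases h : (w i).1 j = 0
        · exact ⟨T1, le_rfl, fun h' => absurd h h'⟩
        · obtain ⟨T, hT, hT'⟩ := ih (ρ j) (by rw [← hin]; exact hw i j h) j rfl
          exact ⟨T, hT, fun _ => hT'⟩
      choose Tj hTj1 hTj using hj
      obtain ⟨Tmax, hTmax⟩ := Finite.bddAbove_range Tj
      have hT2 : T1 ≤ max Tmax T1 := le_max_right _ _
      have hT20 : 0 ≤ max Tmax T1 := hT1.trans hT2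
      have hev : ∃ T, max Tmax T1 ≤ T ∧ ∀ t, T ≤ t → m i ≤ γ t i := by
        refine eventually_ge (δ := ε * ∏ j, m j ^ (w i).1 j - K * m i)
          (by linarith [hmK i]) (hγ.coord i hT20) (fun t ht h => ?_)
        have h2 := field_lower' (hk0 t) (hK (κ t) (habs t)) i (hwmem i) (hw1 i) (hw2 i)
          (hbox t (hT2.trans ht))
        have h3 : ∏ j, m j ^ (w i).1 j ≤ ∏ j, γ t j ^ (w i).1 j := by
          refine Finset.prod_le_prod (fun j _ => pow_nonneg (hm0 j).le _) (fun j _ => ?_)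
          by_cases hz : (w i).1 j = 0
          · rw [hz, pow_zero, pow_zero]
          · exact pow_le_pow_left₀ (hm0 j).le (hTj j hz t
              (((hTmax (mem_range_self j)).trans (le_max_left _ _)).trans ht)) _
        have h4 : ε * ∏ j, m j ^ (w i).1 j ≤ κ t (w i) * ∏ j, γ t j ^ (w i).1 j :=
          mul_le_mul (hκ.2 t _ (hwmem i)).1 h3
            (Finset.prod_nonneg fun j _ => pow_nonneg (hm0 j).le _) (hk0 t _ (hwmem i))
        have h5 : (K : ℝ) * γ t i ≤ K * m i := mul_le_mul_of_nonneg_left h K.coe_nonneg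
        linarith
      obtain ⟨T, hT, hT'⟩ := hev
      exact ⟨T, hT2.trans hT, hT'⟩
  have hcoord' : ∀ i, ∃ T, T1 ≤ T ∧ ∀ t, T ≤ t → m i ≤ γ t i := fun i => hcoord (ρ i) i rfl
  choose T hT1' hT using hcoord'
  obtain ⟨Tmax, hTmax⟩ := Finite.bddAbove_range T
  refine ⟨max Tmax T1, fun t ht => ⟨fun i => ?_, h1 t ((le_max_right _ _).trans ht)⟩⟩
  exact hT i t ((hTmax (mem_range_self i)).trans ((le_max_left _ _).trans ht))

end dynamics

/-- **Permanence with time-dependent rates.** Let `N` be a weakly reversible network containing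
the outflow `X_i → 0` of every species, and let `ω` be a positive weight with `ω · (y' - y) ≤ 0`
for every reaction `y → y'` with `y ≠ 0`. Then for every `ε > 0` the mass-action systems of `N`
with time-dependent rates (continuous in time, values in `[ε, ε⁻¹]`) are permanent on every
positive stoichiometric class, with one compact attracting set for all such rate functions. -/
theorem permanentT_weaklyReversible (N : Network d) (hN : N.WeaklyReversible) (ω : Fin d → ℝ)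
    (hω : ∀ i, 0 < ω i)
    (hout : ∀ i, ((Pi.single i 1 : Fin d → ℕ), (0 : Fin d → ℕ)) ∈ N.reactions)
    (hdiss : ∀ r ∈ N.reactions, r.1 ≠ 0 → ∑ i, ω i * ((r.2 i : ℝ) - (r.1 i : ℝ)) ≤ 0)
    (ε : ℝ) (hε : 0 < ε) (c : Fin d → ℝ) : PermanentT N ε (N.posClass c) := by
  have hreach : ∀ i : Fin d, ∃ n c, Steps N n c ∧ c i ≠ 0 := by
    intro i
    obtain ⟨n, hn⟩ := steps_of_transGen (hN _ (hout i))
    exact ⟨n, _, hn, by simp⟩
  obtain ⟨ρ, hρ⟩ := exists_rank hreach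
  choose w hwmem hw1 hw2 hw using hρ
  have hεi : (0 : ℝ) ≤ ε⁻¹ := (inv_pos.2 hε).le
  have hLip : ∀ κ : ℝ → (Fin d → ℕ) × (Fin d → ℕ) → ℝ, Admissible N ε κ →
      ∀ C : Set (Fin d → ℝ), IsCompact C →
        ∃ K : NNReal, ∀ t, LipschitzOnWith K ((fun t => N.field (κ t)) t) C := by
    intro κ hκ C hC
    obtain ⟨K, hK⟩ := uniform_lipschitz N hεi hC
    exact ⟨K, fun t => hK (κ t) (hκ.abs_le hε t)⟩
  have hstoich : ∀ v : Fin d → ℝ, v ∈ N.stoich := by
    intro v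
    have hv : v = ∑ i, (-v i) • rvec ((Pi.single i 1 : Fin d → ℕ), (0 : Fin d → ℕ)) := by
      ext j
      simp [rvec, Finset.sum_apply, Pi.single_apply]
    rw [hv]
    exact Submodule.sum_mem _ fun i _ =>
      Submodule.smul_mem _ _ (Submodule.subset_span ⟨_, hout i, rfl⟩)
  have hP : ∀ x, x ∈ N.posClass c ↔ ∀ i, 0 < x i :=
    fun x => ⟨fun h => h.1, fun h => ⟨h, hstoich _⟩⟩
  obtain ⟨m, M, hm0, hev⟩ := eventually_inT (ε := ε) hε hω ρ w hwmem hw1 hw2 hw hout hdiss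
  refine ⟨fun κ hκ x0 hx0 => ?_, ?_⟩
  · obtain ⟨γ, hγ0, hγsol, hγpos⟩ :=
      exists_solT hε hω ρ w hwmem hw1 hw2 hw hout hdiss hκ x0 ((hP x0).1 hx0)
    exact ⟨γ, hγ0, hγsol, hγpos, fun T₀ y hy0 hy t ht =>
      sol_uniqueT (hLip κ hκ) (fun s hs => (hγsol s hs.1).mono Ico_subset_Ici_self) hy
        (by rw [hy0, hγ0]) t ht⟩
  · refine ⟨{x | (∀ i, m i ≤ x i) ∧ ∑ i, ω i * x i ≤ M}, ?_, ?_, ?_⟩
    · have hbig : IsCompact (Set.pi univ fun i => Icc (m i) (M / ω i)) :=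
        isCompact_univ_pi fun _ => isCompact_Icc
      refine hbig.of_isClosed_subset ?_ ?_
      · refine IsClosed.and ?_ ?_
        · have e : {x : Fin d → ℝ | ∀ i, m i ≤ x i} = ⋂ i, {x : Fin d → ℝ | m i ≤ x i} := by
            ext x; simp
          rw [e]
          exact isClosed_iInter fun i => isClosed_le continuous_const (continuous_apply i)
        · exact isClosed_le (continuous_finsetSum _ fun i _ =>
            continuous_const.mul (continuous_apply i)) continuous_const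
      · rintro x ⟨h1, h2⟩ i -
        refine ⟨h1 i, ?_⟩
        have h3 : ω i * x i ≤ ∑ j, ω j * x j :=
          Finset.single_le_sum (fun l _ => mul_nonneg (hω l).le ((hm0 l).le.trans (h1 l)))
            (Finset.mem_univ i)
        rw [le_div_iff₀ (hω i)]
        linarith
    · rintro x ⟨h1, -⟩
      exact (hP x).2 fun i => lt_of_lt_of_le (hm0 i) (h1 i)
    · intro κ hκ x hx0 hxsol
      obtain ⟨γ, hγ0, hγsol, hγpos⟩ :=
        exists_solT hε hω ρ w hwmem hw1 hw2 hw hout hdiss hκ (x 0) ((hP _).1 hx0)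
      have hxeq : ∀ t, 0 ≤ t → x t = γ t := by
        intro t ht
        exact sol_uniqueT (hLip κ hκ) (fun s hs => (hγsol s hs.1).mono Ico_subset_Ici_self)
          (fun s hs => (hxsol s hs.1).mono Ico_subset_Ici_self) (by rw [hγ0]) t
          ⟨ht, lt_add_one t⟩
      obtain ⟨T, hT⟩ := hev κ hκ γ hγsol hγpos
      refine ⟨max T 0, fun t ht => ?_⟩
      rw [hxeq t ((le_max_right _ _).trans ht)]
      exact hT t ((le_max_left _ _).trans ht)

end Vale.Agent.Helper14.TimeDependent
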